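import Vale.Agent.P093.Defs

/-! Internal definitions for P093. -/

open Filter Topology Set
open scoped ENNReal NNReal Matrix

noncomputable section

namespace Vale.Agent.P093

/-! ### Counting -/

open Classical in
/-- The number of indices with a property. -/
def cnt {ι : Type*} [Fintype ι] (p : ι → Prop) : ℕ := (Finset.univ.filter p).card

section Cnt

variable {ι κ : Type*} [Fintype ι] [Fintype κ] {p q : ι → Prop}

theorem cnt_eq (p : ι → Prop) [DecidablePred p] : cnt p = (Finset.univ.filter p).card := by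
  unfold cnt
  congr

theorem cnt_eq_sum (p : ι → Prop) [DecidablePred p] : cnt p = ∑ i, if p i then 1 else 0 := by
  rw [cnt_eq, Finset.card_filter]

theorem cnt_mono (h : ∀ i, p i → q i) : cnt p ≤ cnt q := by
  classical
  rw [cnt_eq, cnt_eq]
  exact Finset.card_le_card (Finset.monotone_filter_right _ fun i _ => h i)

theorem cnt_congr (h : ∀ i, p i ↔ q i) : cnt p = cnt q :=
  le_antisymm (cnt_mono fun i => (h i).1) (cnt_mono fun i => (h i).2)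

theorem cnt_le (p : ι → Prop) : cnt p ≤ Fintype.card ι := Finset.card_le_univ _

theorem cnt_add_not (p : ι → Prop) : cnt p + cnt (fun i => ¬p i) = Fintype.card ι := by
  classical
  rw [cnt_eq, cnt_eq, Finset.card_filter_add_card_filter_not, Finset.card_univ]

theorem cnt_or (p q : ι → Prop) : cnt (fun i => p i ∨ q i) ≤ cnt p + cnt q := by
  classical
  rw [cnt_eq, cnt_eq, cnt_eq, Finset.filter_or]
  exact Finset.card_union_le _ _

theorem cnt_pos : 0 < cnt p ↔ ∃ i, p i := by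
  classical
  rw [cnt_eq, Finset.card_pos, Finset.filter_nonempty_iff]
  simp

theorem cnt_eq_zero : cnt p = 0 ↔ ∀ i, ¬p i := by
  rw [← not_exists, ← cnt_pos, Nat.pos_iff_ne_zero, not_not]

theorem cnt_prod (r : ι × κ → Prop) : cnt r = ∑ i, cnt fun j => r (i, j) := by
  classical
  simp only [cnt_eq_sum, Fintype.sum_prod_type]

theorem cnt_sum (r : ι ⊕ κ → Prop) :
    cnt r = cnt (fun i => r (Sum.inl i)) + cnt fun j => r (Sum.inr j) := by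
  classical
  simp only [cnt_eq_sum, Fintype.sum_sum_type]

theorem cnt_equiv (σ : κ ≃ ι) (p : ι → Prop) : cnt (fun j => p (σ j)) = cnt p := by
  classical
  simp only [cnt_eq_sum]
  exact σ.sum_comp fun i => if p i then 1 else 0

theorem cnt_le_of_inj {r : κ → Prop} (f : ι → κ) (h : ∀ i, p i → r (f i))
    (hf : ∀ i j, p i → p j → f i = f j → i = j) : cnt p ≤ cnt r := by
  classical
  rw [cnt_eq, cnt_eq]
  refine Finset.card_le_card_of_injOn f (fun i hi => ?_) fun i hi j hj => ?_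
  · simpa using h i (by simpa using hi)
  · exact hf i j (by simpa using hi) (by simpa using hj)

/-- Markov inequality. -/
theorem cnt_markov (f : ι → ℕ) (a : ℕ) : (a + 1) * cnt (fun i => a < f i) ≤ ∑ i, f i := by
  rw [cnt_eq_sum, Finset.mul_sum]
  refine Finset.sum_le_sum fun i _ => ?_
  split_ifs with h
  · omega
  · omega

end Cnt

/-! ### Covers -/

section Cov

variable {X : Type} [TopologicalSpace X]

/-- There is a finite open cover of order at most `n` by sets with the property `P`. -/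
def DLe (P : Set X → Prop) (n : ℕ) : Prop :=
  ∃ (ι : Type) (_ : Fintype ι) (W : ι → Set X), (∀ i, IsOpen (W i)) ∧ (∀ x, ∃ i, x ∈ W i) ∧
    (∀ i, P (W i)) ∧ ∀ x, cnt (fun i => x ∈ W i) ≤ n + 1

/-- The set `s` is small for `U` at the times `a, …, a + N - 1`. -/
def In (h : X ≃ₜ X) (U : Finset (Set X)) (a N : ℕ) (s : Set X) : Prop :=
  ∀ j < N, ∃ u ∈ U, ∀ x ∈ s, (h ^ (a + j)) x ∈ u

/-- Colourings. -/
structure Col (P : Set X → Prop) {K : ℕ} (φ : Fin K → C(X, ℝ)) {Λ : Type} (lab : Fin K → X → Λ) :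
    Prop where
  mem : ∀ c x, φ c x ∈ Icc (0 : ℝ) 1
  one : ∀ x, ∃ c, φ c x = 1
  opn : ∀ c l, IsOpen {x | 0 < φ c x ∧ lab c x = l}
  small : ∀ c l, P {x | 0 < φ c x ∧ lab c x = l}

/-- Markers of blocks of length `L`. -/
structure Mk (h : X ≃ₜ X) (L : ℕ) (ψ : C(X, ℝ)) : Prop where
  mem : ∀ x, ψ x ∈ Icc (0 : ℝ) 1
  sep : ∀ x (j : ℕ), 0 < j → j < L → 0 < ψ x → ψ ((h ^ j) x) = 0

/-- The point `x` lies in a full block. -/
def Cvd (h : X ≃ₜ X) (L : ℕ) (ψ : C(X, ℝ)) (x : X) : Prop :=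
  ∃ i < L, ψ ((h⁻¹ ^ i) x) = 1

/-- The coordinates of a block. -/
def yy {K : ℕ} (ψ : C(X, ℝ)) (φ : Fin K → C(X, ℝ)) (x : X) (c : Fin K) : ℝ :=
  4 * (min 1 (2 * ψ x) * φ c x) - 2

/-- The coordinates of a cell. -/
def g0 (h : X ≃ₜ X) (L : ℕ) {K : ℕ} (ψ : C(X, ℝ)) (φ : Fin K → C(X, ℝ)) (x : X) (c : Fin K) : ℝ :=
  4 * (∑ l ∈ Finset.range L, min 1 (2 * ψ ((h ^ l) x)) * φ c ((h ^ l) x)) - 2

/-- The coordinates of a single site. -/
def g1 (h : X ≃ₜ X) (L : ℕ) {K : ℕ} (ψ : C(X, ℝ)) (φ : Fin K → C(X, ℝ)) (x : X) (c : Fin K) : ℝ :=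
  4 * ((1 - ∑ i ∈ Finset.range L, max 0 (2 * ψ ((h⁻¹ ^ i) x) - 1)) * φ c x) - 2

/-- The weight of the bundle. -/
def ps (ψ : C(X, ℝ)) (x : X) : ℝ := min 1 (8 * ψ x)

/-- The weight of the trivial part. -/
def th (h : X ≃ₜ X) (ρ : ℕ) (ψ : C(X, ℝ)) (x : X) : ℝ :=
  1 - ∑ i ∈ Finset.range ρ, ps ψ ((h⁻¹ ^ i) x)

/-- Invariant positive functionals. -/
structure Ivt (h : X ≃ₜ X) (I : C(X, ℝ) →ₗ[ℝ] ℝ) : Prop where
  one : I 1 = 1
  pos : ∀ f : C(X, ℝ), (∀ x, 0 ≤ f x) → 0 ≤ I f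
  inv : ∀ f g : C(X, ℝ), (∀ x, g x = f (h x)) → I g = I f

/-- Finite propagation data whose product with `B` is bounded below. -/
structure Fr (h : X ≃ₜ X) {ι : Type} [Fintype ι] (B : X → Matrix ι ι ℂ) (M : ℕ)
    (f : ι → ℤ → C(X, ℂ)) (σ : ℝ) : Prop where
  pos : 0 < σ
  supp : ∀ i s, (M : ℤ) < |s| → f i s = 0
  low : ∀ (x : X) (A : Finset ℤ) (ξ : ℤ → ℂ) (A' : Finset ℤ),
    (∀ n ∈ A, ∀ s : ℤ, |s| ≤ M → n + s ∈ A') → σ * ∑ n ∈ A, ‖ξ n‖ ^ 2 ≤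
      ∑ n' ∈ A', ∑ i, ‖∑ j, B ((h ^ n') x) i j * ∑ n ∈ A, f j (n' - n) ((h ^ n') x) * ξ n‖ ^ 2

end Cov

/-! ### Spheres and projections -/

/-- Families of points of the two-sphere. -/
def Sph {I : Type} (e : I → ℝ × ℂ) : Prop := ∀ i, (e i).1 ^ 2 + ‖(e i).2‖ ^ 2 = 1

/-- The tautological projection. -/
def pm (e : ℝ × ℂ) : Matrix (Fin 2) (Fin 2) ℂ :=
  !![(1 + (e.1 : ℂ)) / 2, e.2 / 2; (starRingEnd ℂ) e.2 / 2, (1 - (e.1 : ℂ)) / 2]

/-- The direct sum of the tautological projections. -/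
def PM {I : Type} [DecidableEq I] (e : I → ℝ × ℂ) : Matrix (I × Fin 2) (I × Fin 2) ℂ :=
  fun a b => if a.1 = b.1 then pm (e a.1) a.2 b.2 else 0

/-- The section that vanishes at the north pole. -/
def s0 {I : Type} (e : I → ℝ × ℂ) : I × Fin 2 → ℂ := fun a => pm (e a.1) a.2 1

/-- The inverse stereographic projection. -/
def st (w : ℂ) : ℝ × ℂ := ((1 - ‖w‖ ^ 2) / (1 + ‖w‖ ^ 2), (2 / (1 + ‖w‖ ^ 2) : ℝ) • w)

/-- The information of one cell. -/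
abbrev Vk (k : ℕ) : Type := ℝ × (Fin k → ℂ)

/-- A tube around a product of spheres. -/
structure Tube {V Λ I : Type} [NormedAddCommGroup V] [NormedSpace ℝ V] [NormedAddCommGroup Λ]
    [NormedSpace ℝ Λ] [Fintype I] (lam : V → Λ) (ee : V → I → ℝ × ℂ)
    (inv : Λ × (I → ℝ × ℂ) → V) : Prop where
  cl : Continuous lam
  ce : ContinuousOn ee {v | ‖lam v‖ < 1}
  ci : ContDiff ℝ 1 inv
  mem : ∀ v, ‖lam v‖ < 1 → Sph (ee v)
  left : ∀ v, ‖lam v‖ < 1 → inv (lam v, ee v) = v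
  right : ∀ l e, ‖l‖ < 1 → Sph e → lam (inv (l, e)) = l ∧ ee (inv (l, e)) = e
  bd : ∀ l e, ‖l‖ < 1 → Sph e → ‖inv (l, e)‖ ≤ 1

/-- The space of the frames. -/
abbrev Ef (I : Type) (T : ℕ) : Type := EuclideanSpace ℂ (I × Fin 2 ⊕ Fin T)

/-- The bundle part of a vector. -/
def xi {I : Type} {T : ℕ} (w : Ef I T) : I × Fin 2 → ℂ := fun a => w (Sum.inl a)

/-- Quantitative independence. -/
def Ind {E : Type} [NormedAddCommGroup E] [NormedSpace ℂ E] {n : ℕ} (σ : ℝ) (F : Fin n → E) :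
    Prop := ∀ α : Fin n → ℂ, σ * ‖α‖ ≤ ‖∑ t, α t • F t‖

/-- The parameters of the perturbations. -/
abbrev CC (I : Type) (T : ℕ) : Type := Fin (T + 1) → (I × Fin 2 → ℂ) × ℂ

/-- Codes of distance more than `a`. -/
def Cd {V J : Type} [AddCommGroup V] [Module ℝ V] [Fintype J] (φ : V →ₗ[ℝ] J → ℝ) (a : ℕ) : Prop :=
  ∀ v, v ≠ 0 → a < cnt fun j => φ v j ≠ 0

/-- The matrices of a cell. -/
structure Qm {k K : ℕ} (inv : ℝ × (Fin k → ℝ × ℂ) → Vk k) (φ : Vk k →ₗ[ℝ] Fin K → ℝ) (e : ℕ)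
    (Q C C' : ℝ × (Fin K → ℝ) → Matrix (Fin k × Fin 2) (Fin k × Fin 2) ℂ) : Prop where
  cq : Continuous Q
  cc : Continuous C
  cc' : Continuous C'
  sq : ∀ a ∈ Icc (0 : ℝ) 1, ∀ y, Q (a, y) = (C (a, y))ᴴ * C (a, y)
  sq' : ∀ a ∈ Icc (0 : ℝ) 1, ∀ y, 1 - Q (a, y) = (C' (a, y))ᴴ * C' (a, y)
  zero : ∀ y, Q (0, y) = 0
  tr : ∀ a ∈ Icc (0 : ℝ) 1, ∀ y, a * k ≤ (Q (a, y)).trace.re
  fine : ∀ y ε, Sph ε → cnt (fun c => y c ≠ φ (inv (0, ε)) c) ≤ e → Q (1, y) = PM ε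

/-- A block matrix. -/
def BB {κ : Type} (Q : Matrix κ κ ℂ) (θ : ℝ) : Matrix (Option κ) (Option κ) ℂ
  | some a, some b => Q a b
  | none, none => θ
  | _, _ => 0

/-- The part of a vector that is absorbed by the trivial bundle. -/
def rest {I R : Type} [Fintype I] [DecidableEq I] (ε : I → ℝ × ℂ) (w : I × Fin 2 ⊕ R → ℂ) :
    I × Fin 2 ⊕ R → ℂ :=
  Sum.elim (fun a => w (Sum.inl a) - (PM ε *ᵥ fun b => w (Sum.inl b)) a) fun r => w (Sum.inr r)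

/-- The transfer of frames. -/
structure Lm {I R : Type} [Fintype I] [DecidableEq I] [Fintype R] {T : ℕ}
    (Λ : (I → ℝ × ℂ) → (I × Fin 2 ⊕ R → ℂ) →ₗ[ℂ] Ef I T) (σ C : ℝ) : Prop where
  pos : 0 < σ
  nn : 0 ≤ C
  cd : ContDiff ℝ 1 fun p : (I → ℝ × ℂ) × (I × Fin 2 ⊕ R → ℂ) => Λ p.1 p.2
  rg : ∀ ε w, Sph ε → PM ε *ᵥ xi (Λ ε w) = xi (Λ ε w)
  low : ∀ ε w (S : I × Fin 2 ⊕ R → Prop) (η : ℝ), Sph ε → cnt S ≤ T → 0 ≤ η →
    (∀ a, ¬S a → ‖rest ε w a‖ ≤ η) → σ * ‖w‖ ≤ ‖Λ ε w‖ + C * η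

/-! ### Parametrized sets -/

section Par

variable {E Z C : Type} [NormedAddCommGroup E] [NormedSpace ℝ E] [NormedAddCommGroup Z]
  [NormedSpace ℝ Z] [NormedAddCommGroup C] [NormedSpace ℝ C]

/-- Sets covered by countably many smooth images of `D`-dimensional sets. -/
def Par (D : ℕ) (B : Set E) : Prop :=
  ∃ (ι : Type) (_ : Countable ι) (S : ι → Set (Fin D → ℝ)) (f : ι → (Fin D → ℝ) → E),
    (∀ i, ∀ x ∈ S i, ContDiffAt ℝ 1 (f i) x) ∧ ∀ b ∈ B, ∃ i, ∃ x ∈ S i, f i x = b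

/-- The relative version over a base. -/
def RPar (D : ℕ) (B : Set (Z × C)) : Prop :=
  ∃ (ι : Type) (_ : Countable ι) (S : ι → Set (Z × (Fin D → ℝ))) (f : ι → Z × (Fin D → ℝ) → C),
    (∀ i, ∀ x ∈ S i, ContDiffAt ℝ 1 (f i) x) ∧
      ∀ b ∈ B, ∃ i u, (b.1, u) ∈ S i ∧ f i (b.1, u) = b.2

end Par

end Vale.Agent.P093
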