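import Vale.Agent.P093.Pw

/-! The covariant representation. -/

open Filter Topology Set
open scoped ENNReal NNReal Matrix

noncomputable section

namespace Vale.Agent.P093

section

variable {X : Type} [TopologicalSpace X]

/-- The Hilbert space of the regular representation. -/
abbrev Hs (X : Type) : Type := lp (fun _ : ℤ × X => ℂ) 2

/-- The multiplication operators and the shift. -/
def Gen (h : X ≃ₜ X) : Set (Hs X →L[ℂ] Hs X) :=
  {T | (∃ f : C(X, ℂ), ∀ (ξ : Hs X) (n : ℤ) (x : X), T ξ (n, x) = f ((h ^ n) x) * ξ (n, x)) ∨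
    ∀ (ξ : Hs X) (n : ℤ) (x : X), T ξ (n, x) = ξ (n - 1, x)}

/-- The crossed product in its regular representation. -/
def CP (h : X ≃ₜ X) : StarSubalgebra ℂ (Hs X →L[ℂ] Hs X) :=
  (StarAlgebra.adjoin ℂ (Gen h)).topologicalClosure

instance (h : X ≃ₜ X) : IsClosed (CP h : Set (Hs X →L[ℂ] Hs X)) :=
  StarSubalgebra.isClosed_topologicalClosure _

end

variable {X : Type} [TopologicalSpace X] [CompactSpace X] {h : X ≃ₜ X}

/-- The generators of the crossed product. -/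
structure Rep (h : X ≃ₜ X) (π : C(X, ℂ) →⋆ₐ[ℂ] CP h) (u : CP h) : Prop where
  pi : ∀ f (ξ : Hs X) (n : ℤ) (x : X),
    (π f : Hs X →L[ℂ] Hs X) ξ (n, x) = f ((h ^ n) x) * ξ (n, x)
  sh : ∀ (ξ : Hs X) (n : ℤ) (x : X), (u : Hs X →L[ℂ] Hs X) ξ (n, x) = ξ (n - 1, x)
  sh' : ∀ (ξ : Hs X) (n : ℤ) (x : X), (star u : Hs X →L[ℂ] Hs X) ξ (n, x) = ξ (n + 1, x)

section ops
variable {ι : Type}

theorem csa_shift (e : ι ≃ ι) : ∃ T : lp (fun _ : ι => ℂ) 2 →L[ℂ] lp (fun _ : ι => ℂ) 2,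
    ∀ ξ i, T ξ i = ξ (e i) := by
  have hp : 0 < (2 : ℝ≥0∞).toReal := by simp
  have h1 : ∀ ξ : lp (fun _ : ι => ℂ) 2, Memℓp (fun i => ξ (e i)) 2 := fun ξ =>
    memℓp_gen ((e.summable_iff (f := fun i => ‖ξ i‖ ^ (2 : ℝ≥0∞).toReal)).2
      ((lp.memℓp ξ).summable hp))
  let L : lp (fun _ : ι => ℂ) 2 →ₗ[ℂ] lp (fun _ : ι => ℂ) 2 :=
    { toFun := fun ξ => ⟨fun i => ξ (e i), h1 ξ⟩
      map_add' := fun _ _ => rfl
      map_smul' := fun _ _ => rfl }
  refine ⟨L.mkContinuous 1 fun ξ => ?_, fun _ _ => rfl⟩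
  rw [one_mul, lp.norm_eq_tsum_rpow hp, lp.norm_eq_tsum_rpow hp,
    ← e.tsum_eq fun i => ‖ξ i‖ ^ (2 : ℝ≥0∞).toReal]
  exact le_rfl

theorem csa_mul (m : ι → ℂ) {C : ℝ} (h0 : 0 ≤ C) (hm : ∀ i, ‖m i‖ ≤ C) :
    ∃ T : lp (fun _ : ι => ℂ) 2 →L[ℂ] lp (fun _ : ι => ℂ) 2, ∀ ξ i, T ξ i = m i * ξ i := by
  have h2 : ∀ (ξ : lp (fun _ : ι => ℂ) 2) i, ‖m i * ξ i‖ ≤ ‖((C : ℂ) • ξ) i‖ := fun ξ i => by
    rw [lp.coeFn_smul, Pi.smul_apply, norm_smul, norm_mul, Complex.norm_real,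
      Real.norm_of_nonneg h0]
    exact mul_le_mul_of_nonneg_right (hm i) (norm_nonneg _)
  have h1 : ∀ ξ : lp (fun _ : ι => ℂ) 2, Memℓp (fun i => m i * ξ i) 2 := fun ξ =>
    (lp.memℓp ((C : ℂ) • ξ)).mono' (h2 ξ)
  let L : lp (fun _ : ι => ℂ) 2 →ₗ[ℂ] lp (fun _ : ι => ℂ) 2 :=
    { toFun := fun ξ => ⟨fun i => m i * ξ i, h1 ξ⟩
      map_add' := fun _ _ => lp.ext (funext fun i => mul_add _ _ _)
      map_smul' := fun _ _ => lp.ext (funext fun i => mul_left_comm _ _ _) }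
  refine ⟨L.mkContinuous C fun ξ => ?_, fun _ _ => rfl⟩
  refine (lp.norm_mono (y := (C : ℂ) • ξ) two_ne_zero (h2 ξ)).trans ?_
  rw [norm_smul, Complex.norm_real, Real.norm_of_nonneg h0]

theorem csa_star {T T' : lp (fun _ : ι => ℂ) 2 →L[ℂ] lp (fun _ : ι => ℂ) 2} (e : ι ≃ ι)
    (m : ι → ℂ) (h : ∀ ξ i, T ξ i = m i * ξ (e i)) (h' : ∀ ξ i, T' ξ (e i) = star (m i) * ξ i) :
    star T = T' := by
  rw [ContinuousLinearMap.star_eq_adjoint, eq_comm, ContinuousLinearMap.eq_adjoint_iff]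
  intro x y
  rw [lp.inner_eq_tsum, lp.inner_eq_tsum, ← e.tsum_eq]
  refine tsum_congr fun i => ?_
  rw [h, h']
  simp only [RCLike.inner_apply, map_mul, RCLike.star_def, Complex.conj_conj]
  ring

end ops

omit [TopologicalSpace X] [CompactSpace X] in
theorem csa_ext {T T' : Hs X →L[ℂ] Hs X} (h : ∀ ξ n x, T ξ (n, x) = T' ξ (n, x)) : T = T' :=
  ContinuousLinearMap.ext fun ξ => lp.ext (funext fun i => h ξ i.1 i.2)

omit [CompactSpace X] in
theorem csa_mem {T : Hs X →L[ℂ] Hs X} (hT : T ∈ StarAlgebra.adjoin ℂ (Gen h)) : T ∈ CP h :=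
  StarSubalgebra.le_topologicalClosure _ hT

/-- Build the multiplication operators with `LinearMap.mkContinuous` (`Memℓp` by comparison,
norm at most `‖f‖`), the shifts by reindexing (`Equiv.summable_iff`, `Equiv.tsum_eq`); adjoints by
`ContinuousLinearMap.eq_adjoint_iff`, `lp.inner_eq_tsum`. -/
theorem exists_rep (h : X ≃ₜ X) : ∃ (π : C(X, ℂ) →⋆ₐ[ℂ] CP h) (u : CP h), Rep h π u := by
  choose M hM using fun f : C(X, ℂ) => csa_mul (fun i : ℤ × X => f ((h ^ i.1) i.2))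
    (norm_nonneg f) fun i => f.norm_coe_le_norm _
  obtain ⟨U, hU⟩ := csa_shift ((Equiv.subRight (1 : ℤ)).prodCongr (Equiv.refl X))
  obtain ⟨U', hU'⟩ := csa_shift ((Equiv.addRight (1 : ℤ)).prodCongr (Equiv.refl X))
  have h1 : star U = U' := csa_star ((Equiv.subRight (1 : ℤ)).prodCongr (Equiv.refl X))
    (fun _ => 1) (fun ξ i => by rw [hU, one_mul]) fun ξ i => by
      rw [hU']
      simp [Prod.map]
  let π₀ : C(X, ℂ) →⋆ₐ[ℂ] (Hs X →L[ℂ] Hs X) :=
    { toFun := M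
      map_one' := csa_ext fun ξ n x => by rw [hM]; exact one_mul _
      map_mul' := fun f g => csa_ext fun ξ n x => by
        change _ = M f (M g ξ) (n, x)
        rw [hM, hM, hM]
        exact mul_assoc _ _ _
      map_zero' := csa_ext fun ξ n x => by rw [hM]; exact zero_mul _
      map_add' := fun f g => csa_ext fun ξ n x => by
        change _ = M f ξ (n, x) + M g ξ (n, x)
        rw [hM, hM, hM]
        exact add_mul _ _ _
      commutes' := fun c => csa_ext fun ξ n x => by rw [hM]; rfl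
      map_star' := fun f => (csa_star (Equiv.refl _) _ (hM f) (hM (star f))).symm }
  refine ⟨π₀.codRestrict (CP h) fun f =>
    csa_mem (StarAlgebra.subset_adjoin ℂ _ (Or.inl ⟨f, fun ξ n x => hM f ξ (n, x)⟩)),
    ⟨U, csa_mem (StarAlgebra.subset_adjoin ℂ _ (Or.inr fun ξ n x => hU ξ (n, x)))⟩,
    fun f ξ n x => hM f ξ (n, x), fun ξ n x => hU ξ (n, x), fun ξ n x => ?_⟩
  change (star U) ξ (n, x) = _
  rw [h1]
  exact hU' ξ (n, x)

variable {π : C(X, ℂ) →⋆ₐ[ℂ] CP h} {u : CP h}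

theorem Rep.unit (hR : Rep h π u) : star u * u = 1 ∧ u * star u = 1 := by
  refine ⟨Subtype.ext (csa_ext fun ξ n x => ?_), Subtype.ext (csa_ext fun ξ n x => ?_)⟩
  · refine (hR.sh' ((u : Hs X →L[ℂ] Hs X) ξ) n x).trans ?_
    rw [hR.sh, add_sub_cancel_right]
    rfl
  · refine (hR.sh ((star u : Hs X →L[ℂ] Hs X) ξ) n x).trans ?_
    rw [hR.sh', sub_add_cancel]
    rfl

theorem Rep.cov (hR : Rep h π u) {f g : C(X, ℂ)} (hg : ∀ x, g x = f (h x)) :
    π g = star u * π f * u := by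
  refine Subtype.ext (csa_ext fun ξ n x => ?_)
  refine Eq.trans ?_ (hR.sh' ((π f : Hs X →L[ℂ] Hs X) ((u : Hs X →L[ℂ] Hs X) ξ)) n x).symm
  rw [hR.pi, hR.pi, hR.sh, add_sub_cancel_right, hg, add_comm, zpw_add, zpw_one]

theorem Rep.pair (hR : Rep h π u) : IsPair h π u := by
  refine ⟨hR.unit, fun f g hg => ?_⟩
  rw [hR.cov (f := g) (g := f) fun x => by rw [hg, h.symm_apply_apply]]
  simp only [mul_assoc, hR.unit.2, mul_one]
  rw [← mul_assoc, hR.unit.2, one_mul]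

/-- Operators of finite propagation. -/
def Fp (h : X ≃ₜ X) (T : Hs X →L[ℂ] Hs X) : Prop :=
  ∃ (A : Finset ℤ) (f : ℤ → C(X, ℂ)), ∀ (ξ : Hs X) (n : ℤ) (x : X),
    T ξ (n, x) = ∑ s ∈ A, f s ((h ^ n) x) * ξ (n - s, x)

/-- The same with an arbitrary index type. -/
def csaFq (h : X ≃ₜ X) (T : Hs X →L[ℂ] Hs X) : Prop :=
  ∃ (ι : Type) (_ : Fintype ι) (s : ι → ℤ) (f : ι → C(X, ℂ)), ∀ (ξ : Hs X) (n : ℤ) (x : X),
    T ξ (n, x) = ∑ i, f i ((h ^ n) x) * ξ (n - s i, x)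

section
omit [CompactSpace X]
variable {T T' : Hs X →L[ℂ] Hs X}

theorem csa_fp (hT : csaFq h T) : Fp h T := by
  classical
  obtain ⟨ι, _, s, f, hf⟩ := hT
  refine ⟨Finset.univ.image s, fun t => ∑ i with s i = t, f i, fun ξ n x => ?_⟩
  rw [hf, ← Finset.sum_fiberwise_of_maps_to (g := s) (t := Finset.univ.image s)
    fun i hi => Finset.mem_image_of_mem s hi]
  refine Finset.sum_congr rfl fun t _ => ?_
  rw [ContinuousMap.sum_apply, Finset.sum_mul]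
  exact Finset.sum_congr rfl fun i hi => by rw [(Finset.mem_filter.1 hi).2]

theorem csa_one (f : C(X, ℂ)) (s : ℤ)
    (hT : ∀ (ξ : Hs X) n x, T ξ (n, x) = f ((h ^ n) x) * ξ (n - s, x)) : csaFq h T :=
  ⟨Unit, inferInstance, fun _ => s, fun _ => f, fun ξ n x => by
    rw [hT, Fintype.sum_unique]⟩

theorem csa_add (hT : csaFq h T) (hT' : csaFq h T') : csaFq h (T + T') := by
  obtain ⟨ι, _, s, f, hf⟩ := hT
  obtain ⟨ι', _, s', f', hf'⟩ := hT'
  refine ⟨ι ⊕ ι', inferInstance, Sum.elim s s', Sum.elim f f', fun ξ n x => ?_⟩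
  change T ξ (n, x) + T' ξ (n, x) = _
  rw [hf, hf', Fintype.sum_sum_type]
  rfl

theorem csa_mul' (hT : csaFq h T) (hT' : csaFq h T') : csaFq h (T * T') := by
  obtain ⟨ι, _, s, f, hf⟩ := hT
  obtain ⟨ι', _, s', f', hf'⟩ := hT'
  refine ⟨ι × ι', inferInstance, fun q => s q.1 + s' q.2, fun q => f q.1 *
    (f' q.2).comp ⟨(h ^ (-s q.1) : X ≃ₜ X), (h ^ (-s q.1) : X ≃ₜ X).continuous⟩, fun ξ n x => ?_⟩
  change T (T' ξ) (n, x) = _
  rw [hf, Fintype.sum_prod_type]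
  refine Finset.sum_congr rfl fun i _ => ?_
  rw [hf', Finset.mul_sum]
  refine Finset.sum_congr rfl fun j _ => ?_
  simp only [ContinuousMap.mul_apply, ContinuousMap.comp_apply, ContinuousMap.coe_mk]
  rw [← zpw_add, neg_add_eq_sub, sub_sub, mul_assoc]

end

/-- `StarAlgebra.adjoin_induction` (or `Algebra.adjoin_induction` for `Gen h ∪ star (Gen h)`): a
generator is `π f` or `u` (operators are determined by the formula), so its adjoint is
`π (star f)` or `star u`. For a product use `A + A'` and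
`f'' s = ∑ (a, b) with a + b = s, f a * (f' b).comp (h ^ (-a))`. -/
theorem Rep.fp (hR : Rep h π u) {T : Hs X →L[ℂ] Hs X} (hT : T ∈ StarAlgebra.adjoin ℂ (Gen h)) :
    Fp h T := by
  have h1 : ∀ f, csaFq h (π f : Hs X →L[ℂ] Hs X) := fun f =>
    csa_one f 0 fun ξ n x => by rw [hR.pi, sub_zero]
  have h2 : ∀ f, csaFq h (π f : Hs X →L[ℂ] Hs X) ∧ csaFq h (star (π f : Hs X →L[ℂ] Hs X)) :=
    fun f => ⟨h1 f, by
      have h3 := h1 (star f)
      rwa [map_star] at h3⟩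
  refine csa_fp (And.left (b := csaFq h (star T)) ?_)
  induction hT using StarAlgebra.adjoin_induction with
  | mem T hT =>
    rcases hT with ⟨f, hf⟩ | hT
    · rw [show T = π f from csa_ext fun ξ n x => by rw [hf, hR.pi]]
      exact h2 f
    · rw [show T = u from csa_ext fun ξ n x => by rw [hT, hR.sh]]
      exact ⟨csa_one 1 1 fun ξ n x => (hR.sh ξ n x).trans (one_mul _).symm,
        csa_one 1 (-1) fun ξ n x => by
          rw [sub_neg_eq_add]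
          exact (hR.sh' ξ n x).trans (one_mul _).symm⟩
  | algebraMap c =>
    have h3 := h2 (algebraMap ℂ _ c)
    rwa [AlgHomClass.commutes] at h3
  | add S T _ _ hS hT => exact ⟨csa_add hS.1 hT.1, star_add S T ▸ csa_add hS.2 hT.2⟩
  | mul S T _ _ hS hT => exact ⟨csa_mul' hS.1 hT.1, star_mul S T ▸ csa_mul' hT.2 hS.2⟩
  | star S _ hS => exact ⟨hS.2, (star_star S).symm ▸ hS.1⟩

theorem Rep.approx (hR : Rep h π u) (a : CP h) {ε : ℝ} (hε : 0 < ε) :
    ∃ a' : CP h, Fp h a' ∧ ‖a - a'‖ ≤ ε := by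
  obtain ⟨b, hb, h1⟩ := Metric.mem_closure_iff.1
    (show (a : Hs X →L[ℂ] Hs X) ∈ closure (StarAlgebra.adjoin ℂ (Gen h) : Set _) from a.2) ε hε
  rw [dist_eq_norm] at h1
  exact ⟨⟨b, csa_mem hb⟩, hR.fp hb, h1.le⟩

end Vale.Agent.P093
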