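import Vale.Agent.P093.CSA

/-! The comparison hypothesis gives a subequivalence. -/

open Filter Topology Set
open scoped ENNReal NNReal Matrix

noncomputable section

namespace Vale.Agent.P093

/-- Matrices over a C*-algebra. -/
abbrev Mx (q : ℕ) (A : Type) : Type := CStarMatrix (Fin q) (Fin q) A

variable {X : Type} [TopologicalSpace X] {h : X ≃ₜ X}
  {A : Type} [CStarAlgebra A] {π : C(X, ℂ) →⋆ₐ[ℂ] A} {u : A}

/-- The matrix unit. -/
def e00 (q : ℕ) (A : Type) [CStarAlgebra A] : Mx (q + 1) A := fun i j =>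
  if i = 0 ∧ j = 0 then 1 else 0

/-- The matrix of a matrix valued function. -/
def bm (π : C(X, ℂ) →⋆ₐ[ℂ] A) {q : ℕ} (B : Fin q → Fin q → C(X, ℂ)) : Mx q A :=
  fun i j => π (B i j)

section

variable {q : ℕ}

theorem mx_mul (x y : Mx q A) (i j : Fin q) : (x * y) i j = ∑ k, x i k * y k j := rfl

theorem mx_star (x : Mx q A) (i j : Fin q) : (star x) i j = star (x j i) := rfl

theorem mx_sub (x y : Mx q A) (i j : Fin q) : (x - y) i j = x i j - y i j := rfl

theorem mx_one (i j : Fin q) : (1 : Mx q A) i j = if i = j then 1 else 0 := rfl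

theorem csb_sq : star (e00 q A) * e00 q A = e00 q A := by
  funext i j
  rw [mx_mul, Finset.sum_eq_single 0 (fun k _ hk => by simp [mx_star, e00, hk]) (by simp)]
  by_cases hi : i = 0 <;> by_cases hj : j = 0 <;> simp [mx_star, e00, hi, hj]

theorem csb_star : star (e00 q A) = e00 q A := by
  funext i j
  rw [mx_star]
  by_cases hi : i = 0 <;> by_cases hj : j = 0 <;> simp [e00, hi, hj]

variable [PartialOrder A] [StarOrderedRing A]

theorem mx_entry (x : Mx q A) (i j : Fin q) : ‖x i j‖ ≤ ‖x‖ :=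
  CStarMatrix.norm_entry_le_norm (A := A) (m := Fin q) (n := Fin q) (M := x)

theorem mx_pos (c : Mx q A) : 0 ≤ star c * c := star_mul_self_nonneg c

theorem isPos_e00 : 0 ≤ e00 q A := csb_sq (q := q) (A := A) ▸ mx_pos _

theorem rt_idem {B : Type} [CStarAlgebra B] {e : B} (h1 : IsIdempotentElem e)
    (h2 : IsSelfAdjoint e) {m : ℕ} (hm : 0 < m) : rt m e = e := by
  rw [rt, cfc_congr (g := fun t => t) fun t ht => ?_, cfc_id' ℝ _ h2]
  rcases h1.spectrum_subset ℝ ht with rfl | rfl
  · exact Real.zero_rpow (by positivity)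
  · exact Real.one_rpow _

theorem le_rt {B : Type} [CStarAlgebra B] [PartialOrder B] [StarOrderedRing B] {b : B}
    (a0 : 0 ≤ b) (a1 : 0 ≤ 1 - b) {m : ℕ} (hm : 0 < m) : ∃ c, rt m b = star c * c + b := by
  have a2 : IsSelfAdjoint b := a0.isSelfAdjoint
  have h3 : b ≤ rt m b := by
    conv_lhs => rw [← cfc_id' ℝ b a2]
    refine cfc_mono (fun t ht => ?_) continuousOn_id
      (Real.continuous_rpow_const (by positivity)).continuousOn
    have b0 : 0 ≤ t := spectrum_nonneg_of_nonneg a0 ht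
    have b1 : t ≤ 1 := (CFC.le_one_iff (R := ℝ) b a2).1 (sub_nonneg.1 a1) t ht
    have b2 : 1 / (m : ℝ) ≤ 1 := by
      rw [div_le_one (by positivity)]
      exact_mod_cast hm
    exact Real.self_le_rpow_of_le_one b0 b1 b2
  obtain ⟨c, hc⟩ := CStarAlgebra.nonneg_iff_eq_star_mul_self.1 (sub_nonneg.2 h3)
  exact ⟨c, eq_add_of_sub_eq hc⟩

/-- `e00` is a projection, so its real spectrum lies in `{0, 1}` and
`cfc (fun t => t ^ (1 / m)) e00 = e00` for `m ≥ 1` (`cfc_congr`, `cfc_id'`). -/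
theorem dtau_e00 {τ : A →L[ℂ] ℂ} (hτ : IsTS τ) : dtau τ (e00 q A) = 1 := by
  have h1 : IsIdempotentElem (e00 q A) := by
    have h := csb_sq (q := q) (A := A)
    rwa [csb_star] at h
  have h2 : IsSelfAdjoint (e00 q A) := csb_star
  have h3 : ∀ᶠ m : ℕ in atTop, ENNReal.ofReal (∑ i, τ (rt m (e00 q A) i i)).re = 1 := by
    filter_upwards [eventually_gt_atTop 0] with m hm
    rw [rt_idem h1 h2 hm, Finset.sum_eq_single 0 (fun k _ hk => by simp [e00, hk]) (by simp)]
    simp [e00, hτ.one]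
  rw [dtau, limsup_congr h3, limsup_const]

theorem le_dtau {τ : A →L[ℂ] ℂ} (hτ : IsTS τ) {b : Mx q A} (h0 : 0 ≤ b) (h1 : 0 ≤ 1 - b) :
    ENNReal.ofReal (∑ i, τ (b i i)).re ≤ dtau τ b := by
  refine le_limsup_of_frequently_le' (Eventually.frequently ?_)
  filter_upwards [eventually_gt_atTop 0] with m hm
  obtain ⟨c, hc⟩ := le_rt h0 h1 hm
  rw [hc]
  refine ENNReal.ofReal_le_ofReal ?_
  have h4 : ∀ i, (star c * c + b) i i = ∑ k, star (c k i) * c k i + b i i := fun _ => rfl
  simp only [h4, map_add, map_sum, Finset.sum_add_distrib, Complex.add_re, Complex.re_sum]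
  exact le_add_of_nonneg_left
    (Finset.sum_nonneg fun i _ => Finset.sum_nonneg fun k _ => (hτ.pos _).1)

end

/-- `I f = re (τ (π f))`; a nonnegative `f` is `star g * g` with `g = √f`; `Rep.cov`. -/
theorem IsPair.inv (hR : IsPair h π u) {τ : A →L[ℂ] ℂ} (hτ : IsTS τ) :
    ∃ I : C(X, ℝ) →ₗ[ℝ] ℝ, Ivt h I ∧ ∀ (f : C(X, ℝ)) (g : C(X, ℂ)), (∀ x, f x = (g x).re) →
      I f = (τ (π g)).re := by
  let j : C(X, ℝ) →ₗ[ℝ] C(X, ℂ) :=
    { toFun := fun f => ⟨fun x => f x, by fun_prop⟩
      map_add' := fun f g => by ext x; simp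
      map_smul' := fun c f => by ext x; simp }
  have h1 : ∀ f : C(X, ℝ), (∀ x, 0 ≤ f x) → 0 ≤ (τ (π (j f))).re ∧ (τ (π (j f))).im = 0 := by
    intro f hf
    let k : C(X, ℂ) := ⟨fun x => (√(f x) : ℝ), by fun_prop⟩
    have h2 : j f = star k * k := by
      ext x
      simp only [j, k, LinearMap.coe_mk, AddHom.coe_mk, ContinuousMap.coe_mk,
        ContinuousMap.mul_apply, ContinuousMap.star_apply, Complex.star_def, Complex.conj_ofReal]
      rw [← Complex.ofReal_mul, Real.mul_self_sqrt (hf x)]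
    rw [h2, map_mul, map_star]
    exact hτ.pos _
  have h2 : ∀ f : C(X, ℝ), (τ (π (j f))).im = 0 := fun f => by
    have h3 : j f = j (f ⊔ 0) - j ((-f) ⊔ 0) := by
      rw [← map_sub]
      congr 1
      ext x
      simp
    rw [h3, map_sub, map_sub, Complex.sub_im, (h1 _ fun x => by simp).2, (h1 _ fun x => by simp).2,
      sub_zero]
  refine ⟨{ toFun := fun f => (τ (π (j f))).re
            map_add' := fun f g => by simp only [map_add, Complex.add_re]
            map_smul' := fun c f => by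
              have h3 : j (c • f) = (c : ℂ) • j f := by ext x; simp [j]
              simp only [h3, map_smul, smul_eq_mul, Complex.re_ofReal_mul, RingHom.id_apply] },
    ⟨?_, fun f hf => (h1 f hf).1, fun f g hg => ?_⟩, fun f g hg => ?_⟩
  · have h3 : j 1 = 1 := by ext x; simp [j]
    simp only [LinearMap.coe_mk, AddHom.coe_mk, h3, map_one, hτ.one, Complex.one_re]
  · have h3 := hR.cov (j g) (j f) fun x => by simp [j, hg]
    simp only [LinearMap.coe_mk, AddHom.coe_mk]
    rw [← h3, hτ.comm (u * _), ← mul_assoc, hR.unit.1, one_mul]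
  · have h3 : g = j f + Complex.I • j ⟨fun x => (g x).im, by fun_prop⟩ := by
      ext x
      simp [j, hg, mul_comm Complex.I]
    simp only [LinearMap.coe_mk, AddHom.coe_mk]
    rw [h3, map_add, map_add, map_smul, map_smul, Complex.add_re, smul_eq_mul, Complex.I_mul_re,
      h2, neg_zero, add_zero]

theorem IsPair.cle [PartialOrder A] [StarOrderedRing A] (hR : IsPair h π u) {r : ℝ≥0}
    (hr : IsBound A r) {q : ℕ}
    {B C C' : Fin (q + 1) → Fin (q + 1) → C(X, ℂ)}
    (hC : ∀ x i j, B i j x = ∑ k, star (C k i x) * C k j x)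
    (hC' : ∀ x i j, (if i = j then 1 else 0) - B i j x = ∑ k, star (C' k i x) * C' k j x)
    (hg : ∀ I : C(X, ℝ) →ₗ[ℝ] ℝ, Ivt h I → ∀ f : C(X, ℝ), (∀ x, f x = (∑ i, B i i x).re) →
      1 + (r : ℝ) < I f) : CLe (e00 q A) (bm π B) := by
  have g0 : bm π B = star (bm π C) * bm π C := funext fun i => funext fun j => by
    have h1 : B i j = ∑ k, star (C k i) * C k j := by
      ext x
      simp [hC]
    simp only [mx_mul, mx_star, bm, h1, map_sum, map_mul, map_star]
  have g1 : 1 - bm π B = star (bm π C') * bm π C' := funext fun i => funext fun j => by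
    have h1 : (if i = j then 1 else 0) - B i j = ∑ k, star (C' k i) * C' k j := by
      ext x
      have h2 := hC' x i j
      split_ifs at h2 ⊢ <;> simpa using h2
    have h2 := congrArg π h1
    simp only [map_sub, map_sum, map_mul, map_star, apply_ite π, map_one, map_zero] at h2
    simp only [mx_mul, mx_star, mx_sub, mx_one, bm, h2]
  have h0 : 0 ≤ bm π B := g0 ▸ mx_pos _
  have h1 : 0 ≤ 1 - bm π B := g1 ▸ mx_pos _
  refine hr _ _ _ isPos_e00 h0 fun τ hτ => lt_of_lt_of_le ?_ (le_dtau hτ h0 h1)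
  obtain ⟨I, hI, h2⟩ := hR.inv hτ
  have h3 := hg I hI ⟨fun x => (∑ i, B i i x).re, by fun_prop⟩ fun _ => rfl
  rw [h2 _ (∑ i, B i i) fun x => by simp] at h3
  simp only [map_sum] at h3
  rw [dtau_e00 hτ, ENNReal.lt_ofReal_iff_toReal_lt (by finiteness),
    ENNReal.toReal_add (by finiteness) (by finiteness)]
  simpa [bm] using h3

end Vale.Agent.P093
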