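import Vale.Agent.P093.CSB

/-! Frames of finite propagation. -/

open Filter Topology Set
open scoped ENNReal NNReal Matrix

noncomputable section

namespace Vale.Agent.P093

variable {X : Type} [TopologicalSpace X] [CompactSpace X] {h : X ≃ₜ X}
  {π : C(X, ℂ) →⋆ₐ[ℂ] CP h} {u : CP h}

theorem csc_entry {A : Type} [CStarAlgebra A] {q p : ℕ} (b : Mx (q + 1) A)
    (x : Mx (q + 1 + p) A) :
    (star x * pad p b * x - pad p (e00 q A)) (Fin.castAdd p 0) (Fin.castAdd p 0) =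
      ∑ i, ∑ j, star (x (Fin.castAdd p i) (Fin.castAdd p 0)) * b i j *
        x (Fin.castAdd p j) (Fin.castAdd p 0) - 1 := by
  have e1 : ∀ (c : Mx (q + 1) A) i j, pad p c (Fin.castAdd p i) (Fin.castAdd p j) = c i j :=
    fun c i j => dif_pos ⟨i.2, j.2⟩
  have e2 : ∀ i j, pad p b (Fin.natAdd (q + 1) i) j = 0 := fun i j =>
    dif_neg fun hh => (Nat.le_add_right _ _).not_gt hh.1
  have e3 : ∀ i j, pad p b i (Fin.natAdd (q + 1) j) = 0 := fun i j =>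
    dif_neg fun hh => (Nat.le_add_right _ _).not_gt hh.2
  rw [mx_sub, e1, mx_mul]
  refine congrArg₂ (· - ·) ?_ (if_pos ⟨rfl, rfl⟩)
  simp only [mx_mul, mx_star, Fin.sum_univ_add (a := q + 1) (b := p), e1, e2, e3, mul_zero,
    Finset.sum_const_zero, add_zero, zero_mul, Finset.sum_mul]
  exact Finset.sum_comm

theorem csc_col {A : Type} [CStarAlgebra A] [PartialOrder A] [StarOrderedRing A] {q : ℕ}
    {b : Mx (q + 1) A} (hb : CLe (e00 q A) b) :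
    ∃ y : Fin (q + 1) → A, ‖∑ i, ∑ j, star (y i) * b i j * y j - 1‖ < 1 / 2 := by
  obtain ⟨p, x, hx⟩ := hb
  obtain ⟨n, hn⟩ := (hx.eventually (gt_mem_nhds (show (0 : ℝ) < 1 / 2 by norm_num))).exists
  have h0 := (mx_entry _ (Fin.castAdd (p n) 0) (Fin.castAdd (p n) 0)).trans_lt hn
  rw [csc_entry] at h0
  exact ⟨_, h0⟩

/-- Perturb the `y i` with `Rep.approx`. -/
theorem Rep.col (hR : Rep h π u) {q : ℕ} {b : Fin (q + 1) → Fin (q + 1) → CP h}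
    {x : Fin (q + 1) → CP h} (h0 : ‖∑ i, ∑ j, star (x i) * b i j * x j - 1‖ < 1 / 2) :
    ∃ y : Fin (q + 1) → CP h, (∀ i, Fp h (y i)) ∧
      ‖∑ i, ∑ j, star (y i) * b i j * y j - 1‖ ≤ 1 / 2 := by
  have hc : Continuous fun y : Fin (q + 1) → CP h =>
      ‖∑ i, ∑ j, star (y i) * b i j * y j - 1‖ := by fun_prop
  obtain ⟨δ, hδ, hd⟩ := Metric.isOpen_iff.1 (isOpen_lt hc continuous_const) _ h0
  choose y hy hy' using fun i : Fin (q + 1) => hR.approx (x i) (half_pos hδ)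
  refine ⟨y, hy, le_of_lt (hd (a := y) ?_)⟩
  rw [Metric.mem_ball, dist_pi_lt_iff hδ]
  intro i
  rw [dist_comm, dist_eq_norm]
  exact (hy' i).trans_lt (half_lt_self hδ)

omit [TopologicalSpace X] [CompactSpace X] in
theorem csc_norm (v : Hs X) (x : X) (A : Finset ℤ)
    (hv : ∀ n x', ¬(n ∈ A ∧ x' = x) → v (n, x') = 0) : ‖v‖ ^ 2 = ∑ n ∈ A, ‖v (n, x)‖ ^ 2 := by
  have h1 := lp.norm_rpow_eq_tsum (p := 2) (by norm_num) v
  simp only [ENNReal.toReal_ofNat, Real.rpow_ofNat] at h1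
  rw [h1, tsum_eq_sum (s := A.map ⟨fun n => (n, x), fun a b e => (Prod.ext_iff.1 e).1⟩),
    Finset.sum_map]
  · rfl
  · rintro ⟨n, x'⟩ hn
    rw [hv n x', norm_zero, zero_pow two_ne_zero]
    rintro ⟨h2, rfl⟩
    exact hn (Finset.mem_map.2 ⟨n, h2, rfl⟩)

omit [TopologicalSpace X] [CompactSpace X] in
theorem csc_ex (x : X) (A : Finset ℤ) (ξ : ℤ → ℂ) : ∃ ζ : Hs X,
    (∀ n x', ¬(n ∈ A ∧ x' = x) → ζ (n, x') = 0) ∧ ∀ n ∈ A, ζ (n, x) = ξ n := by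
  classical
  refine ⟨⟨fun p => if p.1 ∈ A ∧ p.2 = x then ξ p.1 else 0, memℓp_gen ?_⟩,
    fun n x' hn => if_neg hn, fun n hn => if_pos ⟨hn, rfl⟩⟩
  refine summable_of_ne_finset_zero (s := A ×ˢ {x}) fun p hp => ?_
  rw [if_neg fun h2 => hp (Finset.mem_product.2 ⟨h2.1, Finset.mem_singleton.2 h2.2⟩)]
  simp

theorem csc_low {H : Type} [NormedAddCommGroup H] [InnerProductSpace ℂ H] [CompleteSpace H]
    {ι : Type} [Fintype ι] (y : ι → H →L[ℂ] H) (b : ι → ι → H →L[ℂ] H)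
    (hy : ‖∑ i, ∑ j, star (y i) * b i j * y j - 1‖ ≤ 1 / 2) (ζ : H) :
    1 / (4 * (∑ i, ‖y i‖ ^ 2 + 1)) * ‖ζ‖ ^ 2 ≤ ∑ i, ‖∑ j, b i j (y j ζ)‖ ^ 2 := by
  set c := ∑ i, ‖y i‖ ^ 2 + 1 with hc
  have c0 : 0 < c := by positivity
  set T := ∑ i, ∑ j, star (y i) * b i j * y j with hT
  have e1 : inner ℂ ζ (T ζ) = ∑ i, inner ℂ (y i ζ) (∑ j, b i j (y j ζ)) := by
    simp only [hT, ContinuousLinearMap.sum_apply, inner_sum, ContinuousLinearMap.mul_apply,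
      ContinuousLinearMap.star_eq_adjoint, ContinuousLinearMap.adjoint_inner_right]
  have e2 : ‖inner ℂ ζ ((T - 1) ζ)‖ ≤ ‖ζ‖ * (1 / 2 * ‖ζ‖) :=
    (norm_inner_le_norm _ _).trans (mul_le_mul_of_nonneg_left (((T - 1).le_opNorm ζ).trans
      (mul_le_mul_of_nonneg_right hy (norm_nonneg _))) (norm_nonneg _))
  have e3 : ‖ζ‖ ^ 2 ≤ ‖inner ℂ ζ (T ζ)‖ + ‖inner ℂ ζ ((T - 1) ζ)‖ := by
    refine le_trans (le_of_eq ?_) (norm_sub_le _ _)
    rw [← inner_sub_right, ContinuousLinearMap.sub_apply, ContinuousLinearMap.one_apply,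
      sub_sub_cancel, inner_self_eq_norm_sq_to_K]
    simp
  have e4 : ‖inner ℂ ζ (T ζ)‖ ≤
      ∑ i, (‖y i‖ ^ 2 * (‖ζ‖ ^ 2 / (4 * c)) + c * ‖∑ j, b i j (y j ζ)‖ ^ 2) := by
    rw [e1]
    refine (norm_sum_le _ _).trans (Finset.sum_le_sum fun i _ => ?_)
    refine (norm_inner_le_norm _ _).trans ((mul_le_mul_of_nonneg_right ((y i).le_opNorm ζ)
      (norm_nonneg _)).trans ?_)
    have h2 : ∀ s t : ℝ, s * t ≤ s ^ 2 / (4 * c) + c * t ^ 2 := fun s t => by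
      have : s ^ 2 / (4 * c) + c * t ^ 2 - s * t = (s - 2 * c * t) ^ 2 / (4 * c) := by
        field_simp
        ring
      have h3 : 0 ≤ (s - 2 * c * t) ^ 2 / (4 * c) := by positivity
      linarith
    refine (h2 _ _).trans (le_of_eq ?_)
    ring
  rw [Finset.sum_add_distrib, ← Finset.sum_mul, ← Finset.mul_sum] at e4
  have e5 : (∑ i, ‖y i‖ ^ 2) * (‖ζ‖ ^ 2 / (4 * c)) ≤ c * (‖ζ‖ ^ 2 / (4 * c)) :=
    mul_le_mul_of_nonneg_right (by linarith) (by positivity)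
  have e6 : c * (‖ζ‖ ^ 2 / (4 * c)) = ‖ζ‖ ^ 2 / 4 := by field_simp
  rw [div_mul_eq_mul_div, div_le_iff₀ (by positivity)]
  nlinarith

/-- Let `ζ = ∑ n ∈ A, lp.single 2 (n, x) (ξ n)` and `η i = ∑ j, b i j (y j ζ)`. Then
`‖ζ‖ ^ 2 / 2 ≤ ‖∑ i, ⟪y i ζ, η i⟫‖ ≤ ∑ i, ‖y i‖ * ‖ζ‖ * ‖η i‖`, and `η i` is supported on
`A' × {x}` with the values in the statement. Extend the coefficients of `Fp` by zero outside of
their finset, and take `M` larger than all `|s|`. -/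
theorem Rep.fr (hR : Rep h π u) {q : ℕ} {B : Fin (q + 1) → Fin (q + 1) → C(X, ℂ)}
    {x₀ : Fin (q + 1) → CP h}
    (hb : ‖∑ i, ∑ j, star (x₀ i) * π (B i j) * x₀ j - 1‖ < 1 / 2) :
    ∃ M f σ, Fr h (fun x => Matrix.of fun i j => B i j x) M f σ := by
  classical
  obtain ⟨y, hy, hn⟩ := hR.col hb
  choose S g hg using hy
  obtain ⟨M, hM⟩ : ∃ M : ℕ, ∀ i, ∀ s ∈ S i, |s| ≤ M := by
    refine ⟨Finset.univ.sup fun i => (S i).sup Int.natAbs, fun i s hs => ?_⟩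
    rw [Int.abs_eq_natAbs]
    exact_mod_cast (Finset.le_sup (f := Int.natAbs) hs).trans
      (Finset.le_sup (f := fun i => (S i).sup Int.natAbs) (Finset.mem_univ i))
  have hn' : ‖∑ i, ∑ j, star (y i : Hs X →L[ℂ] Hs X) * (π (B i j) : Hs X →L[ℂ] Hs X) *
      (y j : Hs X →L[ℂ] Hs X) - 1‖ ≤ 1 / 2 := by
    refine le_trans (le_of_eq ?_) hn
    change _ = ‖(CP h).subtype _‖
    simp only [map_sub, map_sum, map_mul, map_star, map_one]
    rfl
  refine ⟨M, fun i s => if s ∈ S i then g i s else 0,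
    1 / (4 * (∑ i, ‖(y i : Hs X →L[ℂ] Hs X)‖ ^ 2 + 1)), by positivity,
    fun i s hs => if_neg fun h2 => (hM i s h2).not_gt hs, fun x A ξ A' hA => ?_⟩
  obtain ⟨ζ, z0, z1⟩ := csc_ex x A ξ
  have h1 := csc_low _ _ hn' ζ
  have z2 : ∑ n ∈ A, ‖ζ (n, x)‖ ^ 2 = ∑ n ∈ A, ‖ξ n‖ ^ 2 :=
    Finset.sum_congr rfl fun n hn => by rw [z1 n hn]
  rw [csc_norm ζ x A z0, z2] at h1
  rw [Finset.sum_comm]
  refine h1.trans (le_of_eq (Finset.sum_congr rfl fun i _ => ?_))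
  have e : ∀ n x', (∑ j, (π (B i j) : Hs X →L[ℂ] Hs X) ((y j : Hs X →L[ℂ] Hs X) ζ)) (n, x') =
      ∑ j, B i j ((h ^ n) x') * ∑ s ∈ S j, g j s ((h ^ n) x') * ζ (n - s, x') := fun n x' => by
    rw [lp.coeFn_sum, Finset.sum_apply]
    exact Finset.sum_congr rfl fun j _ => by rw [hR.pi, hg]
  rw [csc_norm _ x A' fun n x' hn => ?_]
  · refine Finset.sum_congr rfl fun n _ => ?_
    rw [e]
    refine congrArg (‖·‖ ^ 2) (Finset.sum_congr rfl fun j _ => congrArg (_ * ·) ?_)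
    have e1 : ∀ s, ζ (n - s, x) = ∑ m ∈ A, if s = n - m then ξ m else 0 := fun s => by
      have e2 : ∀ m, (s = n - m) = (n - s = m) := fun m => propext ⟨by omega, by omega⟩
      simp only [e2, Finset.sum_ite_eq]
      split_ifs with h2
      · exact z1 _ h2
      · exact z0 _ _ fun h3 => h2 h3.1
    simp only [e1, Finset.mul_sum, mul_ite, mul_zero]
    rw [Finset.sum_comm]
    refine Finset.sum_congr rfl fun m _ => ?_
    rw [Finset.sum_ite_eq']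
    split_ifs
    · rfl
    · simp
  · rw [e]
    refine Finset.sum_eq_zero fun j _ => mul_eq_zero_of_right _ (Finset.sum_eq_zero fun s hs => ?_)
    refine mul_eq_zero_of_right _ (z0 _ _ fun h2 => hn ⟨?_, h2.2⟩)
    have := hA _ h2.1 s (hM j s hs)
    rwa [sub_add_cancel] at this

/-- A comparison bound of the crossed product. -/
def HB (h : X ≃ₜ X) (r : ℝ≥0) : Prop :=
  ∃ (A : Type) (_ : CStarAlgebra A) (_ : PartialOrder A) (_ : StarOrderedRing A),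
    IsCrossed h A ∧ IsBound A r

/-- Reindex by `Fintype.equivFinOfCardEq` with `card ι = q + 1`. -/
theorem exists_fr {r : ℝ≥0} (hr : HB h r) {ι : Type} [Fintype ι] [DecidableEq ι]
    [Nonempty ι] {B C C' : X → Matrix ι ι ℂ} (hB : Continuous B) (hc : Continuous C)
    (hc' : Continuous C') (hC : ∀ x, B x = (C x)ᴴ * C x) (hC' : ∀ x, 1 - B x = (C' x)ᴴ * C' x)
    (hg : ∀ I : C(X, ℝ) →ₗ[ℝ] ℝ, Ivt h I → ∀ f : C(X, ℝ), (∀ x, f x = (B x).trace.re) →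
      1 + (r : ℝ) < I f) : ∃ M f σ, Fr h B M f σ := by
  obtain ⟨π, u, hR⟩ := exists_rep h
  obtain ⟨A, _, _, _, ⟨ρ, v, hP, hu⟩, hr⟩ := hr
  obtain ⟨Φ, ⟨hΦ, -⟩, -⟩ := hu (CP h) π u hR.pair
  obtain ⟨q, hq⟩ := Nat.exists_eq_succ_of_ne_zero (Fintype.card_ne_zero (α := ι))
  have e : ι ≃ Fin (q + 1) := Fintype.equivFinOfCardEq hq
  let F : (D : X → Matrix ι ι ℂ) → Continuous D → Fin (q + 1) → Fin (q + 1) → C(X, ℂ) :=
    fun D hD i j => ⟨fun x => D x (e.symm i) (e.symm j), hD.matrix_elem _ _⟩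
  have h1 := hP.cle hr (B := F B hB) (C := F C hc) (C' := F C' hc') (fun x i j => ?_)
    (fun x i j => ?_) fun I hI f hf => hg I hI f fun x => ?_
  · obtain ⟨y, hy⟩ := csc_col h1
    have h0 := (NonUnitalStarAlgHom.norm_apply_le Φ _).trans_lt hy
    simp only [map_sub, map_sum, map_mul, map_star, map_one, bm, hΦ] at h0
    obtain ⟨M, f, σ, h2⟩ := hR.fr h0
    refine ⟨M, fun i => f (e i), σ, h2.pos, fun i => h2.supp (e i), fun x A ξ A' hA => ?_⟩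
    refine (h2.low x A ξ A' hA).trans (le_of_eq (Finset.sum_congr rfl fun n _ => ?_))
    rw [← e.sum_comp]
    refine Finset.sum_congr rfl fun i _ => ?_
    rw [← e.sum_comp]
    simp [F]
  · change B x _ _ = ∑ k, star (C x (e.symm k) _) * C x (e.symm k) _
    rw [hC, Matrix.mul_apply, ← e.symm.sum_comp]
    rfl
  · change _ - B x _ _ = ∑ k, star (C' x (e.symm k) _) * C' x (e.symm k) _
    have h2 := congrFun (congrFun (hC' x) (e.symm i)) (e.symm j)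
    rw [Matrix.mul_apply, ← e.symm.sum_comp, Matrix.sub_apply, Matrix.one_apply] at h2
    simpa using h2
  · rw [hf, Matrix.trace, ← e.symm.sum_comp]
    rfl

end Vale.Agent.P093
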