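import Vale.Agent.P093.Base

/-! Cancellation of trivial summands, abstract part. -/

open Filter Topology Set
open scoped ENNReal NNReal Matrix

noncomputable section

namespace Vale.Agent.P093

variable {E : Type} [NormedAddCommGroup E] [InnerProductSpace ℂ E] {T : ℕ}

/-- The coefficient of the transvection. -/
def el (e f g : E) : ℂ := inner ℂ (f + (‖f‖ : ℂ) • e) g / (‖f‖ * (‖f‖ + inner ℂ e f))

/-- The quotient map by `f`, with values in the complement of `e`. -/
def qq (e f g : E) : E := g - el e f g • f - inner ℂ e (g - el e f g • f) • e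

/-- `f` does not lie on the ray of `-e`. -/
def ND (e f : E) : Prop := (‖f‖ : ℂ) + inner ℂ e f ≠ 0

/-- The state after `n` steps. -/
def St (e : ℕ → E) (F : Fin (T + 1) → E) (p : ℕ → E) : ℕ → Fin (T + 1) → E
  | 0 => F
  | n + 1 => fun i => qq (e n) (St e F p n (Fin.ofNat (T + 1) (n + 1)) + p n) (St e F p n i)

/-- The vector that is cancelled at the step `n`. -/
def fv (e : ℕ → E) (F : Fin (T + 1) → E) (p : ℕ → E) (n : ℕ) : E :=
  St e F p n (Fin.ofNat (T + 1) (n + 1)) + p n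

/-- The first `n` steps are not degenerate. -/
def DmN (e : ℕ → E) (F : Fin (T + 1) → E) (p : ℕ → E) (n : ℕ) : Prop :=
  ∀ j < n, ND (e j) (fv e F p j)

variable {e : ℕ → E} {F : Fin (T + 1) → E} {p p' : ℕ → E} {n : ℕ}

theorem canca_in (f : E) : inner ℂ f f = (‖f‖ : ℂ) ^ 2 := inner_self_eq_norm_sq_to_K f

/-- Equality in the Cauchy-Schwarz inequality: expand `‖f + ‖f‖ • e‖ ^ 2`. -/
theorem eq_of_not_nd {e f : E} (he : ‖e‖ = 1) (h : ¬ND e f) : f = -((‖f‖ : ℂ) • e) := by
  have h1 : inner ℂ e f = -(‖f‖ : ℂ) := eq_neg_of_add_eq_zero_right (not_not.1 h)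
  have h2 : inner ℂ f e = -(‖f‖ : ℂ) := by
    rw [← inner_conj_symm, h1, map_neg, Complex.conj_ofReal]
  rw [← add_eq_zero_iff_eq_neg, ← inner_self_eq_zero (𝕜 := ℂ), inner_add_left, inner_add_right,
    inner_add_right, inner_smul_left, inner_smul_left, inner_smul_right, inner_smul_right, h1, h2,
    canca_in, canca_in, he, Complex.conj_ofReal, Complex.ofReal_one]
  ring

theorem canca_ne {e f : E} (h : ND e f) : f ≠ 0 := by
  rintro rfl
  exact h (by simp)

theorem canca_add (e f g g' : E) : qq e f (g + g') = qq e f g + qq e f g' := by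
  simp only [qq, el, inner_add_right, inner_sub_right, inner_smul_right, add_div, add_smul,
    sub_smul, add_mul]
  abel

theorem canca_smul (e f : E) (a : ℂ) (g : E) : qq e f (a • g) = a • qq e f g := by
  simp only [qq, el, inner_sub_right, inner_smul_right, smul_sub, smul_smul, mul_div_assoc,
    mul_sub, mul_assoc]

theorem canca_self {e f : E} (h : ND e f) : qq e f f = 0 := by
  have h0 : (‖f‖ : ℂ) ≠ 0 := Complex.ofReal_ne_zero.2 (norm_ne_zero_iff.2 (canca_ne h))
  have h1 : el e f f = 1 := by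
    rw [el, div_eq_one_iff_eq (mul_ne_zero h0 h), inner_add_left, inner_smul_left,
      canca_in, Complex.conj_ofReal]
    ring
  simp [qq, h1]

theorem canca_orth {e : E} (he : ‖e‖ = 1) (f g : E) : inner ℂ e (qq e f g) = 0 := by
  rw [qq, inner_sub_right, inner_smul_right, canca_in, he, Complex.ofReal_one, one_pow, mul_one,
    sub_self]

theorem canca_iso {e f g : E} (he : ‖e‖ = 1) (h : ND e f) (hg : inner ℂ f g = 0) :
    ‖qq e f g‖ = ‖g‖ := by
  have h0 : (‖f‖ : ℂ) ≠ 0 := Complex.ofReal_ne_zero.2 (norm_ne_zero_iff.2 (canca_ne h))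
  have h' : (‖f‖ : ℂ) + inner ℂ e f ≠ 0 := h
  have h1 : inner ℂ e (g - el e f g • f) = el e f g * ‖f‖ := by
    rw [inner_sub_right, inner_smul_right, el, inner_add_left, inner_smul_left, hg,
      Complex.conj_ofReal]
    field_simp
    ring
  have h2 := norm_add_sq_eq_norm_sq_add_norm_sq_of_inner_eq_zero (𝕜 := ℂ)
    (inner ℂ e (g - el e f g • f) • e) (qq e f g)
    (by rw [inner_smul_left, canca_orth he, mul_zero])
  have h3 := norm_add_sq_eq_norm_sq_add_norm_sq_of_inner_eq_zero (𝕜 := ℂ)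
    (-(el e f g • f)) g (by rw [inner_neg_left, inner_smul_left, hg, mul_zero, neg_zero])
  have h4 : inner ℂ e (g - el e f g • f) • e + qq e f g = -(el e f g • f) + g := by
    rw [qq]
    abel
  rw [h4, h3, h1, norm_neg, norm_smul, norm_smul, norm_mul, he, mul_one, Complex.norm_real,
    norm_norm, add_right_inj] at h2
  exact ((mul_self_inj_of_nonneg (norm_nonneg _) (norm_nonneg _)).1 h2).symm

/-- `qq e f` is linear, kills `f`, and is isometric on the orthogonal complement of `f`: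
for `⟪f, g⟫ = 0`, `l = el e f g = ⟪e, g⟫ / (‖f‖ + ⟪e, f⟫)`, `⟪e, g - l • f⟫ = l * ‖f‖`,
`‖g - l • f‖ ^ 2 = ‖g‖ ^ 2 + ‖l‖ ^ 2 * ‖f‖ ^ 2`. Take `γ = ⟪f, g⟫ / ‖f‖ ^ 2`. -/
theorem exists_norm_qq {e f : E} (he : ‖e‖ = 1) (h : ND e f) (g : E) :
    ∃ γ : ℂ, ‖qq e f g‖ = ‖g - γ • f‖ := by
  have h0 : inner ℂ f f ≠ 0 := inner_self_ne_zero.2 (canca_ne h)
  refine ⟨inner ℂ f g / inner ℂ f f, ?_⟩
  rw [← canca_iso (g := g - _ • f) he h
    (by rw [inner_sub_right, inner_smul_right, div_mul_cancel₀ _ h0, sub_self]),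
    sub_eq_add_neg, ← neg_smul, canca_add, canca_smul, canca_self h, smul_zero, add_zero]

theorem qq_sum {e f : E} {ι : Type} [Fintype ι] (α : ι → ℂ) (g : ι → E) :
    qq e f (∑ i, α i • g i) = ∑ i, α i • qq e f (g i) := by
  let L : E →ₗ[ℂ] E := ⟨⟨qq e f, canca_add e f⟩, canca_smul e f⟩
  change L _ = ∑ i, α i • L (g i)
  simp only [map_sum, map_smul]

theorem St_congr (h : ∀ j < n, p j = p' j) : St e F p n = St e F p' n := by
  induction n with
  | zero => rfl
  | succ n ih =>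
    simp only [St, ih fun j hj => h j (Nat.lt_succ_of_lt hj), h n (Nat.lt_succ_self n)]

theorem DmN.congr (hD : DmN e F p n) (h : ∀ j < n, p j = p' j) : DmN e F p' n := by
  intro j hj
  have := hD j hj
  rwa [fv, St_congr fun i hi => h i (hi.trans hj), h j hj] at this

theorem St_mem (W : Submodule ℂ E) (hF : ∀ i, F i ∈ W) (he : ∀ j, e j ∈ W) (hp : ∀ j, p j ∈ W)
    (n : ℕ) (i : Fin (T + 1)) : St e F p n i ∈ W := by
  induction n generalizing i with
  | zero => exact hF i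
  | succ n ih =>
    exact sub_mem (sub_mem (ih i) (W.smul_mem _ (add_mem (ih _) (hp n)))) (W.smul_mem _ (he n))

theorem St_orth (he : ∀ j < n, ‖e j‖ = 1) (ho : ∀ j j', j < j' → inner ℂ (e j) (e j') = 0)
    (hp : ∀ j j', j < j' → inner ℂ (e j) (p j') = 0) {j : ℕ} (hj : j < n) (i : Fin (T + 1)) :
    inner ℂ (e j) (St e F p n i) = 0 := by
  induction n generalizing i with
  | zero => omega
  | succ n ih =>
    rcases Nat.lt_succ_iff_lt_or_eq.1 hj with h | rfl
    · have ih' := ih (fun j hj => he j (Nat.lt_succ_of_lt hj)) h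
      simp only [St, qq, inner_sub_right, inner_smul_right, inner_add_right, ih', ho j n h,
        hp j n h, add_zero, mul_zero, sub_zero]
    · exact canca_orth (he j hj) _ _

theorem canca_low {σ δ : ℝ} (hF : Ind σ F) (he : ∀ j < T, ‖e j‖ = 1) (hp : ∀ j, ‖p j‖ ≤ δ)
    (hσ : T * δ ≤ σ) (hD : DmN e F p T) (hn : n ≤ T) (α : Fin (T + 1) → ℂ)
    (hα : ∀ t : Fin (T + 1), 1 ≤ (t : ℕ) → (t : ℕ) ≤ n → α t = 0) :
    (σ - n * δ) * ‖α‖ ≤ ‖∑ t, α t • St e F p n t‖ := by
  induction n generalizing α with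
  | zero => simpa [St] using hF α
  | succ n ih =>
    have hδ : 0 ≤ δ := (norm_nonneg _).trans (hp 0)
    have hm : (Fin.ofNat (T + 1) (n + 1) : ℕ) = n + 1 := Nat.mod_eq_of_lt (by omega)
    obtain ⟨γ, hγ⟩ := exists_norm_qq (he n hn) (hD n hn) (∑ t, α t • St e F p n t)
    have h0 : α (Fin.ofNat (T + 1) (n + 1)) = 0 := hα _ (by omega) hm.le
    have h1 := ih (by omega) (α + Pi.single (Fin.ofNat (T + 1) (n + 1)) (-γ)) fun t h1 h2 => by
      rw [Pi.add_apply, hα t h1 (by omega), Pi.single_eq_of_ne (by rintro rfl; omega), add_zero]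
    have h2 : ‖α‖ ≤ ‖α + Pi.single (Fin.ofNat (T + 1) (n + 1)) (-γ)‖ := by
      refine (pi_norm_le_iff_of_nonneg (norm_nonneg _)).2 fun t => ?_
      by_cases ht : t = Fin.ofNat (T + 1) (n + 1)
      · rw [ht, h0, norm_zero]
        exact norm_nonneg _
      · refine le_trans (le_of_eq ?_) (norm_le_pi_norm _ t)
        rw [Pi.add_apply, Pi.single_eq_of_ne ht, add_zero]
    have h3 : ‖γ‖ ≤ ‖α + Pi.single (Fin.ofNat (T + 1) (n + 1)) (-γ)‖ := by
      refine le_trans (le_of_eq ?_) (norm_le_pi_norm _ (Fin.ofNat (T + 1) (n + 1)))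
      rw [Pi.add_apply, Pi.single_eq_same, h0, zero_add, norm_neg]
    have h4 : ∑ t, (α + Pi.single (Fin.ofNat (T + 1) (n + 1)) (-γ) : Fin (T + 1) → ℂ) t •
        St e F p n t = (∑ t, α t • St e F p n t - γ • fv e F p n) + γ • p n := by
      simp only [Pi.add_apply, add_smul, Finset.sum_add_distrib, Pi.single_apply, ite_smul,
        zero_smul, Finset.sum_ite_eq', Finset.mem_univ, if_true, fv, smul_add, neg_smul]
      abel
    have h5 : ∑ t, α t • St e F p (n + 1) t = qq (e n) (fv e F p n) (∑ t, α t • St e F p n t) :=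
      (qq_sum α _).symm
    have h6 : ‖γ • p n‖ ≤ ‖α + Pi.single (Fin.ofNat (T + 1) (n + 1)) (-γ)‖ * δ := by
      rw [norm_smul]
      exact mul_le_mul h3 (hp n) (norm_nonneg _) (norm_nonneg _)
    have h7 : ((n + 1 : ℕ) : ℝ) * δ ≤ T * δ := mul_le_mul_of_nonneg_right (Nat.cast_le.2 hn) hδ
    have h8 := mul_le_mul_of_nonneg_left h2 (sub_nonneg.2 (h7.trans hσ))
    rw [h4] at h1
    have h9 := h1.trans (norm_add_le _ _)
    rw [h5, hγ]
    push_cast at h8 ⊢
    linarith

/-- Induction on `n ≤ T` of: `(σ - n * δ) * ‖α‖ ≤ ‖∑ t, α t • St e F p n t‖` for all `α` with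
`α t = 0` for `1 ≤ t ≤ n`. In the step apply the hypothesis to `α' = update α (n + 1) (-γ)`,
`‖α‖ ≤ ‖α'‖`, `‖γ‖ ≤ ‖α'‖`. At the end take `α = Pi.single 0 1`. -/
theorem St_low {σ δ : ℝ} (hF : Ind σ F) (he : ∀ j < T, ‖e j‖ = 1) (hp : ∀ j, ‖p j‖ ≤ δ)
    (hσ : T * δ ≤ σ) (hD : DmN e F p T) : σ - T * δ ≤ ‖St e F p T 0‖ := by
  have := canca_low hF he hp hσ hD le_rfl (Pi.single 0 1) fun t h1 _ =>
    Pi.single_eq_of_ne (by rintro rfl; simp at h1) _
  simpa [Pi.norm_single, Pi.single_apply] using this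

variable {W : Type} [NormedAddCommGroup W] [NormedSpace ℝ W] [NormedSpace ℝ E]
  [IsScalarTower ℝ ℂ E]

theorem canca_cd {e : E} {f g : W → E} {w : W} (hf : ContDiffAt ℝ 1 f w) (hg : ContDiffAt ℝ 1 g w)
    (h : ND e (f w)) : ContDiffAt ℝ 1 (fun w => qq e (f w) (g w)) w := by
  have h0 : (‖f w‖ : ℂ) ≠ 0 := Complex.ofReal_ne_zero.2 (norm_ne_zero_iff.2 (canca_ne h))
  have h1 : ContDiffAt ℝ 1 (fun w => (‖f w‖ : ℂ)) w :=
    Complex.ofRealCLM.contDiff.contDiffAt.comp w (hf.norm ℂ (canca_ne h))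
  have h2 : ContDiffAt ℝ 1 (fun w => el e (f w) (g w)) w :=
    ((hf.add (h1.smul contDiffAt_const)).inner ℂ hg).mul
      ((h1.mul (h1.add (contDiffAt_const.inner ℂ hf))).inv (mul_ne_zero h0 h))
  have h3 := hg.sub (h2.smul hf)
  exact h3.sub ((contDiffAt_const.inner ℂ h3).smul contDiffAt_const)

/-- `ND e f` implies `f ≠ 0`, where the norm is smooth (`ContDiffAt.norm ℂ`). -/
theorem contDiffAt_St {F : W → Fin (T + 1) → E} {p : ℕ → W → E} (hF : ContDiff ℝ 1 F)
    (hp : ∀ j, ContDiff ℝ 1 (p j)) {w : W} (hD : DmN e (F w) (fun j => p j w) n) :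
    ContDiffAt ℝ 1 (fun w => St e (F w) (fun j => p j w) n) w := by
  induction n with
  | zero => exact hF.contDiffAt
  | succ n ih =>
    have h := contDiffAt_pi.1 (ih fun j hj => hD j (Nat.lt_succ_of_lt hj))
    exact contDiffAt_pi.2 fun i =>
      canca_cd ((h _).add (hp n).contDiffAt) (h i) (hD n (Nat.lt_succ_self n))

theorem isOpen_DmN {F : W → Fin (T + 1) → E} {p : ℕ → W → E} (hF : ContDiff ℝ 1 F)
    (hp : ∀ j, ContDiff ℝ 1 (p j)) (n : ℕ) : IsOpen {w | DmN e (F w) (fun j => p j w) n} := by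
  refine isOpen_iff_mem_nhds.2 fun w hw => ?_
  have : ∀ j ∈ Finset.range n, ∀ᶠ w' in 𝓝 w, ND (e j) (fv e (F w') (fun j => p j w') j) := by
    intro j hj
    have hj' := Finset.mem_range.1 hj
    have h1 : ContinuousAt (fun w' => fv e (F w') (fun j => p j w') j) w :=
      ((contDiffAt_pi.1 (contDiffAt_St hF hp (n := j) fun i hi => hw i (hi.trans hj')) _).add
        (hp j).contDiffAt).continuousAt
    exact ((Complex.continuous_ofReal.continuousAt.comp h1.norm).add
      (continuousAt_const.inner h1)).eventually_ne (hw j hj')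
  filter_upwards [(Finset.eventually_all _).2 this] with w' h j hj
  exact h j (Finset.mem_range.2 hj)

end Vale.Agent.P093
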