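import Vale.Agent.P093.Par

/-! Spheres and the tautological projections. -/

open Filter Topology Set
open scoped ENNReal NNReal Matrix

noncomputable section

namespace Vale.Agent.P093

variable {I : Type} [Fintype I] [DecidableEq I] {e : I → ℝ × ℂ}

omit [Fintype I] [DecidableEq I] in
theorem sph_c (he : Sph e) (i : I) :
    ((e i).1 : ℂ) ^ 2 + (e i).2 * (starRingEnd ℂ) (e i).2 = 1 := by
  rw [Complex.mul_conj']
  exact_mod_cast he i

theorem sph_pm00 (x : ℝ × ℂ) : pm x 0 0 = (1 + (x.1 : ℂ)) / 2 := rfl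
theorem sph_pm01 (x : ℝ × ℂ) : pm x 0 1 = x.2 / 2 := rfl
theorem sph_pm10 (x : ℝ × ℂ) : pm x 1 0 = (starRingEnd ℂ) x.2 / 2 := rfl
theorem sph_pm11 (x : ℝ × ℂ) : pm x 1 1 = (1 - (x.1 : ℂ)) / 2 := rfl

omit [Fintype I] [DecidableEq I] in
theorem sph_idem (he : Sph e) (i : I) (a b : Fin 2) :
    pm (e i) a 0 * pm (e i) 0 b + pm (e i) a 1 * pm (e i) 1 b = pm (e i) a b := by
  have h := sph_c he i
  fin_cases a <;> fin_cases b <;>
    simp only [Fin.zero_eta, Fin.mk_one, Fin.isValue, sph_pm00, sph_pm01, sph_pm10, sph_pm11]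
  · linear_combination h / 4
  · ring
  · ring
  · linear_combination h / 4

omit [Fintype I] [DecidableEq I] in
theorem sph_norm (he : Sph e) (i : I) (a b : Fin 2) : ‖pm (e i) a b‖ ≤ 1 := by
  have h := he i
  have h1 : |(e i).1| ≤ 1 := abs_le_one_iff_mul_self_le_one.2 (by nlinarith [sq_nonneg ‖(e i).2‖])
  have h2 : ‖(e i).2‖ ≤ 1 := by nlinarith [sq_nonneg (e i).1, norm_nonneg (e i).2]
  have h3 : ‖((e i).1 : ℂ)‖ ≤ 1 := by rwa [Complex.norm_real, Real.norm_eq_abs]
  have h4 := norm_add_le (1 : ℂ) ((e i).1 : ℂ)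
  have h5 := norm_sub_le (1 : ℂ) ((e i).1 : ℂ)
  rw [norm_one] at h4 h5
  fin_cases a <;> fin_cases b <;>
    simp only [Fin.zero_eta, Fin.mk_one, Fin.isValue, sph_pm00, sph_pm01, sph_pm10, sph_pm11,
      norm_div, Complex.norm_ofNat, Complex.norm_conj] <;> linarith

theorem PM_mulVec (e : I → ℝ × ℂ) (w : I × Fin 2 → ℂ) (a : I × Fin 2) :
    (PM e *ᵥ w) a = pm (e a.1) a.2 0 * w (a.1, 0) + pm (e a.1) a.2 1 * w (a.1, 1) := by
  simp [Matrix.mulVec, dotProduct, PM, Fintype.sum_prod_type, Fin.sum_univ_two]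

theorem PM_idem (he : Sph e) : PM e * PM e = PM e := by
  ext a b
  have h := PM_mulVec e (fun c => PM e c b) a
  refine Eq.trans h ?_
  by_cases hab : a.1 = b.1
  · simp only [PM, if_pos hab]
    exact sph_idem he _ _ _
  · simp only [PM, if_neg hab, mul_zero, add_zero]

omit [Fintype I] in
theorem PM_herm (e : I → ℝ × ℂ) : (PM e)ᴴ = PM e := by
  ext ⟨i, a⟩ ⟨j, b⟩
  rw [Matrix.conjTranspose_apply]
  by_cases hij : i = j
  · subst hij
    simp only [PM, if_true]
    fin_cases a <;> fin_cases b <;>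
      simp [sph_pm00, sph_pm01, sph_pm10, sph_pm11]
  · simp only [PM, if_neg hij, if_neg (Ne.symm hij), star_zero]

theorem PM_trace (e : I → ℝ × ℂ) : (PM e).trace = Fintype.card I := by
  have h : ∀ i, pm (e i) 0 0 + pm (e i) 1 1 = 1 := fun i => by
    rw [sph_pm00, sph_pm11]
    ring
  simp [Matrix.trace, PM, Fintype.sum_prod_type, Fin.sum_univ_two, h]

theorem norm_PM_mulVec (he : Sph e) (w : I × Fin 2 → ℂ) : ‖PM e *ᵥ w‖ ≤ 2 * ‖w‖ := by
  refine (pi_norm_le_iff_of_nonneg (by positivity)).2 fun a => ?_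
  rw [PM_mulVec]
  have k : ∀ b : Fin 2, ‖pm (e a.1) a.2 b * w (a.1, b)‖ ≤ ‖w‖ := fun b => by
    rw [norm_mul]
    exact (mul_le_of_le_one_left (norm_nonneg _) (sph_norm he _ _ _)).trans (norm_le_pi_norm w _)
  linarith [norm_add_le (pm (e a.1) a.2 0 * w (a.1, 0)) (pm (e a.1) a.2 1 * w (a.1, 1)), k 0, k 1]

theorem contDiff_pm (a b : Fin 2) : ContDiff ℝ 1 fun e : ℝ × ℂ => pm e a b := by
  have h1 : ContDiff ℝ 1 fun e : ℝ × ℂ => (e.1 : ℂ) :=
    Complex.ofRealCLM.contDiff.comp contDiff_fst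
  have h2 : ContDiff ℝ 1 fun e : ℝ × ℂ => (starRingEnd ℂ) e.2 :=
    Complex.conjCLE.contDiff.comp contDiff_snd
  fin_cases a <;> fin_cases b <;>
    simp only [Fin.zero_eta, Fin.mk_one, Fin.isValue, sph_pm00, sph_pm01, sph_pm10, sph_pm11]
  · exact (contDiff_const.add h1).div_const _
  · exact contDiff_snd.div_const _
  · exact h2.div_const _
  · exact (contDiff_const.sub h1).div_const _

omit [Fintype I] in
theorem continuous_PM : Continuous (PM (I := I)) := by
  refine continuous_pi fun a => continuous_pi fun b => ?_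
  by_cases hab : a.1 = b.1
  · simp only [PM, if_pos hab]
    exact (contDiff_pm a.2 b.2).continuous.comp (continuous_apply a.1)
  · simp only [PM, if_neg hab]
    exact continuous_const

theorem contDiff_PM :
    ContDiff ℝ 1 fun p : (I → ℝ × ℂ) × (I × Fin 2 → ℂ) => PM p.1 *ᵥ p.2 := by
  refine contDiff_pi.2 fun a => ?_
  simp only [PM_mulVec]
  have k : ∀ b : Fin 2, ContDiff ℝ 1 fun p : (I → ℝ × ℂ) × (I × Fin 2 → ℂ) =>
      pm (p.1 a.1) a.2 b * p.2 (a.1, b) := fun b =>
    ((contDiff_pm a.2 b).comp (contDiff_pi.1 contDiff_fst a.1)).mul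
      (contDiff_pi.1 contDiff_snd (a.1, b))
  exact (k 0).add (k 1)

omit [DecidableEq I] in
theorem contDiff_s0 : ContDiff ℝ 1 (s0 (I := I)) :=
  contDiff_pi.2 fun a => (contDiff_pm a.2 1).comp (contDiff_apply ℝ (ℝ × ℂ) a.1)

theorem PM_s0 (he : Sph e) : PM e *ᵥ s0 e = s0 e := by
  funext a
  rw [PM_mulVec]
  exact sph_idem he _ _ _

omit [DecidableEq I] in
theorem norm_s0 (he : Sph e) : ‖s0 e‖ ≤ 1 :=
  (pi_norm_le_iff_of_nonneg zero_le_one).2 fun _ => sph_norm he _ _ _

omit [Fintype I] [DecidableEq I] in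
theorem s0_south {i : I} (hi : (e i).1 = -1) : s0 e ≠ 0 := by
  intro h
  have k : pm (e i) 1 1 = 0 := congrFun h (i, 1)
  rw [sph_pm11, hi] at k
  norm_num at k

theorem contDiff_st : ContDiff ℝ 1 st := by
  have h1 : ContDiff ℝ 1 fun w : ℂ => ‖w‖ ^ 2 := contDiff_norm_sq ℂ
  have h2 : ∀ w : ℂ, 1 + ‖w‖ ^ 2 ≠ 0 := fun w => by positivity
  exact ((contDiff_const.sub h1).div (contDiff_const.add h1) h2).prodMk
    ((contDiff_const.div (contDiff_const.add h1) h2).smul contDiff_id)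

omit [Fintype I] [DecidableEq I] in
theorem sph_st (w : I → ℂ) : Sph fun i => st (w i) := by
  intro i
  have h2 : 0 < 1 + ‖w i‖ ^ 2 := by positivity
  simp only [st]
  rw [norm_smul, Real.norm_of_nonneg (by positivity)]
  field_simp
  ring

omit [Fintype I] [DecidableEq I] in
theorem st_left (he : Sph e) {i : I} (hi : (e i).1 ≠ -1) :
    st ((e i).2 / (1 + ((e i).1 : ℂ))) = e i := by
  have h0 : 1 + (e i).1 ≠ 0 := fun h => hi (by linarith)
  have h1 : (1 + ((e i).1 : ℂ)) = ((1 + (e i).1 : ℝ) : ℂ) := by push_cast; rfl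
  have h2 : ‖(e i).2 / (1 + ((e i).1 : ℂ))‖ ^ 2 = (1 - (e i).1) / (1 + (e i).1) := by
    rw [norm_div, h1, Complex.norm_real, div_pow, Real.norm_eq_abs, sq_abs,
      eq_sub_of_add_eq' (he i)]
    field_simp
    ring
  have h3 : 1 + (1 - (e i).1) / (1 + (e i).1) = 2 / (1 + (e i).1) := by
    field_simp
    ring
  refine Prod.ext ?_ ?_
  · simp only [st]
    rw [h2, h3]
    field_simp
    ring
  · simp only [st]
    have h4 : (2 / (2 / (1 + (e i).1)) : ℝ) = 1 + (e i).1 := by field_simp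
    have h5 : ((1 + (e i).1 : ℝ) : ℂ) ≠ 0 := Complex.ofReal_ne_zero.2 h0
    rw [h2, h3, h4, h1, Complex.real_smul, mul_div_cancel₀ _ h5]

theorem st_north {w : ℂ} : st w = (1, 0) ↔ w = 0 := by
  constructor
  · intro h
    have k : (2 / (1 + ‖w‖ ^ 2) : ℝ) • w = 0 := congrArg Prod.snd h
    exact (smul_eq_zero.1 k).resolve_left (by positivity)
  · rintro rfl
    simp [st]

/-- A vector in the range is determined by its first coordinates. -/
theorem chart_zero (he : Sph e) (hs : ∀ i, (e i).1 ≠ -1) {s : I × Fin 2 → ℂ} (h : PM e *ᵥ s = s)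
    {μ : ℝ} (h0 : ∀ i, (e i).2 / (1 + ((e i).1 : ℂ)) +
      μ * (2 * s (i, 0) / (1 + ((e i).1 : ℂ))) = 0) : s0 e + (μ : ℂ) • s = 0 := by
  funext ⟨i, a⟩
  have k0 : (1 + ((e i).1 : ℂ)) ≠ 0 := fun k => hs i (by
    have : ((e i).1 : ℂ) = ((-1 : ℝ) : ℂ) := by
      push_cast
      linear_combination k
    exact_mod_cast this)
  have k1 : (e i).2 + μ * (2 * s (i, 0)) = 0 := by
    have := h0 i
    rw [← mul_div_assoc, ← add_div, div_eq_zero_iff] at this
    exact this.resolve_right k0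
  have k2 := congrFun h (i, 1)
  rw [PM_mulVec] at k2
  simp only [sph_pm10, sph_pm11] at k2
  have k3 := sph_c he i
  change pm (e i) a 1 + μ * s (i, a) = 0
  fin_cases a
  · simp only [Fin.zero_eta, Fin.isValue, sph_pm01]
    linear_combination k1 / 2
  · simp only [Fin.mk_one, Fin.isValue, sph_pm11]
    refine (mul_eq_zero.1 ?_).resolve_left k0
    linear_combination (-2 * μ : ℂ) * k2 + (starRingEnd ℂ) (e i).2 / 2 * k1 - k3 / 2

/-- The kernel is spanned by a column of `1 - pm`: the column `0` if `(e i).1 ≠ 1`, else the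
column `1`. -/
theorem ker_chart (he : Sph e) (c : I × Fin 2 → ℂ) : ∃ (j : I → Fin 2) (u : I → ℂ),
    ∀ a, c a = (PM e *ᵥ c) a + u a.1 * (1 - pm (e a.1)) a.2 (j a.1) := by
  have key : ∀ i, ∃ (j : Fin 2) (u : ℂ), ∀ a : Fin 2, c (i, a) =
      pm (e i) a 0 * c (i, 0) + pm (e i) a 1 * c (i, 1) + u * (1 - pm (e i)) a j := by
    intro i
    have k3 := sph_c he i
    by_cases h : ((e i).1 : ℂ) = 1
    · have hz : (e i).2 = 0 := by
        rw [h, Complex.mul_conj'] at k3
        have : ((‖(e i).2‖ : ℂ)) ^ 2 = 0 := by linear_combination k3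
        simpa using this
      refine ⟨1, c (i, 1), fun a => ?_⟩
      fin_cases a <;>
        simp [Matrix.sub_apply, sph_pm00, sph_pm01, sph_pm10, sph_pm11, h, hz]
    · have h' : 1 - ((e i).1 : ℂ) ≠ 0 := sub_ne_zero.2 (Ne.symm h)
      refine ⟨0, c (i, 0) - c (i, 1) * (e i).2 / (1 - ((e i).1 : ℂ)), fun a => ?_⟩
      fin_cases a
      · simp only [Fin.zero_eta, Fin.isValue, Matrix.sub_apply, Matrix.one_apply_eq, sph_pm00,
          sph_pm01]
        field_simp
        ring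
      · simp only [Fin.mk_one, Fin.isValue, Matrix.sub_apply, sph_pm10, sph_pm11,
          Matrix.one_apply_ne (one_ne_zero (α := Fin 2))]
        field_simp
        linear_combination (-c (i, 1)) * k3
  choose j u hu using key
  refine ⟨j, u, fun a => ?_⟩
  rw [PM_mulVec]
  exact hu a.1 a.2

theorem sph_par (T : Finset I) : Par (2 * (Fintype.card I - T.card))
    {e : I → ℝ × ℂ | Sph e ∧ ∀ i, (e i).1 = -1 ↔ i ∈ T} := by
  have hF : Module.finrank ℝ ({i // i ∉ T} → ℂ) ≤ 2 * (Fintype.card I - T.card) := by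
    rw [Module.finrank_pi_fintype]
    simp [Complex.finrank_real_complex, mul_comm]
  have hf : ContDiff ℝ 1 fun (u : {i // i ∉ T} → ℂ) (i : I) =>
      if h : i ∈ T then ((-1, 0) : ℝ × ℂ) else st (u ⟨i, h⟩) := by
    refine contDiff_pi.2 fun i => ?_
    by_cases h : i ∈ T
    · simp only [dif_pos h]
      exact contDiff_const
    · simp only [dif_neg h]
      exact contDiff_st.comp (contDiff_apply ℝ ℂ (⟨i, h⟩ : {i // i ∉ T}))
  refine (Par.of hF (S := univ) fun x _ => hf.contDiffAt).mono ?_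
  rintro e ⟨he, hT⟩
  refine ⟨fun i => (e i).2 / (1 + ((e i).1 : ℂ)), mem_univ _, funext fun i => ?_⟩
  by_cases h : i ∈ T
  · simp only [dif_pos h]
    have h1 := (hT i).2 h
    have h2 := he i
    rw [h1] at h2
    have h3 : ‖(e i).2‖ ^ 2 = 0 := by linarith
    exact Prod.ext h1.symm (by simpa using h3 : (e i).2 = 0).symm
  · simp only [dif_neg h]
    exact st_left he fun k => h ((hT i).1 k)

omit [DecidableEq I] in
/-- Union over the set `Σ : Finset I` of the south poles of the images of `{i // i ∉ Σ} → ℂ`. -/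
theorem par_sph : Par (2 * Fintype.card I) {e : I → ℝ × ℂ | Sph e} := by
  classical
  refine (Par.iUnion fun T : Finset I => (sph_par T).le (by omega)).mono fun e he => ?_
  exact mem_iUnion.2 ⟨Finset.univ.filter fun i => (e i).1 = -1, he, fun i => by simp⟩

omit [DecidableEq I] in
theorem par_south :
    Par (2 * Fintype.card I - 2) {e : I → ℝ × ℂ | Sph e ∧ ∃ i, (e i).1 = -1} := by
  classical
  refine (Par.iUnion fun T : {T : Finset I // T.Nonempty} => (sph_par T.1).le (by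
    have := T.2.card_pos
    omega)).mono fun e he => ?_
  obtain ⟨he, i, hi⟩ := he
  exact mem_iUnion.2 ⟨⟨Finset.univ.filter fun i => (e i).1 = -1, i, by simpa using hi⟩, he,
    fun i => by simp⟩

end Vale.Agent.P093
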