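import Vale.Agent.P093.CancA
import Vale.Agent.P093.Sph

/-! Cancellation of trivial summands, the events. -/

open Filter Topology Set
open scoped ENNReal NNReal Matrix

noncomputable section

namespace Vale.Agent.P093

section Aux

variable {I : Type} [Fintype I] [DecidableEq I] {T : ℕ}

/-- The basis vectors of the trivial part. -/
def cancb_e (I : Type) [DecidableEq I] (T : ℕ) (j : ℕ) : Ef I T :=
  if h : j < T then EuclideanSpace.single (Sum.inr ⟨j, h⟩) 1 else 0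

/-- The parameter of the step `j`. -/
def cancb_c (c : CC I T) (j : ℕ) : (I × Fin 2 → ℂ) × ℂ :=
  if h : j < T + 1 then c ⟨j, h⟩ else 0

/-- The perturbation of the step `j`. -/
def cancb_p (ε : I → ℝ × ℂ) (c : CC I T) (j : ℕ) : Ef I T :=
  WithLp.toLp 2 (Sum.elim (PM ε *ᵥ (cancb_c c j).1) 0) + (cancb_c c j).2 • cancb_e I T j

omit [Fintype I] in
theorem cancb_e_inl (j : ℕ) (a : I × Fin 2) : cancb_e I T j (Sum.inl a) = 0 := by
  unfold cancb_e
  split_ifs <;> simp

omit [Fintype I] in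
theorem cancb_e_inr (j : ℕ) (k : Fin T) :
    cancb_e I T j (Sum.inr k) = if (k : ℕ) = j then 1 else 0 := by
  unfold cancb_e
  split_ifs with h h' h'
  · have : k = ⟨j, h⟩ := Fin.ext h'
    subst this
    simp
  · have : k ≠ ⟨j, h⟩ := fun hk => h' (by rw [hk])
    simp [this]
  · exact absurd (h' ▸ k.2) h
  · simp

theorem cancb_norm_e {j : ℕ} (h : j < T) : ‖cancb_e I T j‖ = 1 := by
  unfold cancb_e
  rw [dif_pos h]
  simp

theorem cancb_norm_e_le (j : ℕ) : ‖cancb_e I T j‖ ≤ 1 := by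
  by_cases h : j < T
  · exact (cancb_norm_e h).le
  · unfold cancb_e
    rw [dif_neg h]
    simp

theorem cancb_inner {j : ℕ} (h : j < T) (v : Ef I T) :
    inner ℂ (cancb_e I T j) v = v (Sum.inr ⟨j, h⟩) := by
  unfold cancb_e
  rw [dif_pos h, EuclideanSpace.inner_single_left]
  simp

theorem cancb_inner_zero {j : ℕ} {v : Ef I T} (hv : ∀ h : j < T, v (Sum.inr ⟨j, h⟩) = 0) :
    inner ℂ (cancb_e I T j) v = 0 := by
  by_cases h : j < T
  · rw [cancb_inner h, hv h]
  · unfold cancb_e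
    rw [dif_neg h, inner_zero_left]

theorem cancb_xi_p (ε : I → ℝ × ℂ) (c : CC I T) (j : ℕ) :
    xi (cancb_p ε c j) = PM ε *ᵥ (cancb_c c j).1 := by
  funext a
  simp [xi, cancb_p, cancb_e_inl]

theorem cancb_p_inr (ε : I → ℝ × ℂ) (c : CC I T) (j : ℕ) (k : Fin T) :
    cancb_p ε c j (Sum.inr k) = if (k : ℕ) = j then (cancb_c c j).2 else 0 := by
  simp [cancb_p, cancb_e_inr]

omit [DecidableEq I] in
theorem cancb_norm_le {v : Ef I T} (hv : ∀ k, v (Sum.inr k) = 0) :
    ‖v‖ ≤ 2 * Fintype.card I * ‖xi v‖ := by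
  have h1 : ‖v‖ ≤ ∑ a, ‖v a‖ := by
    rw [EuclideanSpace.norm_eq, Real.sqrt_le_iff]
    exact ⟨Finset.sum_nonneg fun _ _ => norm_nonneg _,
      Finset.sum_sq_le_sq_sum_of_nonneg fun _ _ => norm_nonneg _⟩
  refine h1.trans ?_
  rw [Fintype.sum_sum_type]
  have h2 : ∑ a : I × Fin 2, ‖v (Sum.inl a)‖ ≤ ∑ _a : I × Fin 2, ‖xi v‖ :=
    Finset.sum_le_sum fun a _ => norm_le_pi_norm (xi v) a
  simp only [hv, norm_zero, Finset.sum_const_zero, add_zero]
  refine h2.trans (le_of_eq ?_)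
  simp only [Finset.sum_const, Finset.card_univ, Fintype.card_prod, Fintype.card_fin,
    nsmul_eq_mul, Nat.cast_mul, Nat.cast_ofNat]
  ring

omit [DecidableEq I] in
theorem cancb_norm_c (c : CC I T) (j : ℕ) : ‖cancb_c c j‖ ≤ ‖c‖ := by
  unfold cancb_c
  split_ifs with h
  · exact norm_le_pi_norm c _
  · simp

theorem cancb_norm_p {ε : I → ℝ × ℂ} (hε : Sph ε) (c : CC I T) (j : ℕ) :
    ‖cancb_p ε c j‖ ≤ (4 * Fintype.card I + 1) * ‖c‖ := by
  have h1 := (norm_fst_le (cancb_c c j)).trans (cancb_norm_c c j)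
  have h2 := (norm_snd_le (cancb_c c j)).trans (cancb_norm_c c j)
  have h3 := cancb_norm_le (I := I) (T := T)
    (v := WithLp.toLp 2 (Sum.elim (PM ε *ᵥ (cancb_c c j).1) 0)) (fun k => by simp)
  have h4 : xi (I := I) (T := T) (WithLp.toLp 2 (Sum.elim (PM ε *ᵥ (cancb_c c j).1) 0)) =
      PM ε *ᵥ (cancb_c c j).1 := by
    funext a
    simp [xi]
  rw [h4] at h3
  have h5 := norm_PM_mulVec hε (cancb_c c j).1
  have h6 : ‖(cancb_c c j).2 • cancb_e I T j‖ ≤ ‖c‖ := by
    rw [norm_smul]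
    calc _ ≤ ‖c‖ * 1 := mul_le_mul h2 (cancb_norm_e_le j) (norm_nonneg _) (norm_nonneg _)
      _ = ‖c‖ := mul_one _
  have h7 : (0 : ℝ) ≤ Fintype.card I := Nat.cast_nonneg _
  have h8 : 2 * (Fintype.card I : ℝ) * ‖PM ε *ᵥ (cancb_c c j).1‖ ≤
      2 * Fintype.card I * (2 * ‖c‖) :=
    mul_le_mul_of_nonneg_left (h5.trans (by linarith)) (by positivity)
  refine (norm_add_le _ _).trans ?_
  linarith

omit [DecidableEq I] in
theorem cancb_cd_c (j : ℕ) : ContDiff ℝ 1 fun c : CC I T => cancb_c c j := by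
  unfold cancb_c
  split_ifs with h
  · exact contDiff_apply ℝ _ _
  · exact contDiff_const

omit [DecidableEq I] in
theorem cancb_cd_co (a : I × Fin 2 ⊕ Fin T) : ContDiff ℝ 1 fun v : Ef I T => v a :=
  ((EuclideanSpace.proj (𝕜 := ℂ) a).restrictScalars ℝ).contDiff

omit [DecidableEq I] in
theorem cancb_cd_xi : ContDiff ℝ 1 (xi (I := I) (T := T)) :=
  contDiff_pi.2 fun a => cancb_cd_co (Sum.inl a)

theorem cancb_cd_PM {W : Type} [NormedAddCommGroup W] [NormedSpace ℝ W] {ε : W → I → ℝ × ℂ}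
    {c : W → I × Fin 2 → ℂ} (hε : ContDiff ℝ 1 ε) (hc : ContDiff ℝ 1 c) :
    ContDiff ℝ 1 fun w => PM (ε w) *ᵥ c w := by
  have := contDiff_PM.comp (hε.prodMk hc)
  simpa only [Function.comp_def] using this

theorem cancb_cd_p {W : Type} [NormedAddCommGroup W] [NormedSpace ℝ W] {ε : W → I → ℝ × ℂ}
    {c : W → CC I T} (hε : ContDiff ℝ 1 ε) (hc : ContDiff ℝ 1 c) (j : ℕ) :
    ContDiff ℝ 1 fun w => cancb_p (ε w) (c w) j := by
  have h1 : ContDiff ℝ 1 fun w => cancb_c (c w) j := by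
    have := (cancb_cd_c j).comp hc
    simpa only [Function.comp_def] using this
  have h2 := cancb_cd_PM hε h1.fst
  have h3 : ContDiff ℝ 1 fun w => (Sum.elim (PM (ε w) *ᵥ (cancb_c (c w) j).1) 0 :
      I × Fin 2 ⊕ Fin T → ℂ) := by
    refine contDiff_pi.2 fun a => ?_
    rcases a with a | k
    · exact contDiff_pi.1 h2 a
    · exact contDiff_const
  have h4 := (PiLp.contDiff_toLp (𝕜 := ℝ) (p := 2)).comp h3
  have h5 : ContDiff ℝ 1 fun w => (cancb_c (c w) j).2 • cancb_e I T j :=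
    h1.snd.smul contDiff_const
  have h6 := h4.add h5
  simpa only [Function.comp_def, cancb_p] using h6

omit [Fintype I] [DecidableEq I] in
theorem cancb_c_update (c : CC I T) (t : Fin (T + 1)) (x : (I × Fin 2 → ℂ) × ℂ) {j : ℕ}
    (hj : j < t) : cancb_c (Function.update c t x) j = cancb_c c j := by
  unfold cancb_c
  split_ifs with h
  · refine Function.update_of_ne (fun h' => ?_) _ _
    rw [← h'] at hj
    exact lt_irrefl _ hj
  · rfl

omit [DecidableEq I] in
theorem cancb_rank : Module.finrank ℝ ((I × Fin 2 → ℂ) × ℂ) = 4 * Fintype.card I + 2 := by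
  rw [Module.finrank_prod, Module.finrank_pi_fintype]
  simp only [Complex.finrank_real_complex, Finset.sum_const, Finset.card_univ, Fintype.card_prod,
    Fintype.card_fin, smul_eq_mul]
  ring

omit [DecidableEq I] in
theorem cancb_rank' : Module.finrank ℝ (I → ℂ) = 2 * Fintype.card I := by
  rw [Module.finrank_pi_fintype]
  simp only [Complex.finrank_real_complex, Finset.sum_const, Finset.card_univ, smul_eq_mul]
  ring

variable {B : Type} [NormedAddCommGroup B] [NormedSpace ℝ B]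
  {F : B × (I → ℝ × ℂ) → Fin (T + 1) → Ef I T}

theorem cancb_cd_pw (j : ℕ) :
    ContDiff ℝ 1 fun w : (B × (I → ℝ × ℂ)) × CC I T => cancb_p w.1.2 w.2 j :=
  cancb_cd_p contDiff_fst.snd contDiff_snd j

theorem cancb_cd_St (hF : ContDiff ℝ 1 F) {n : ℕ} {w : (B × (I → ℝ × ℂ)) × CC I T}
    (hD : DmN (cancb_e I T) (F w.1) (cancb_p w.1.2 w.2) n) (i : Fin (T + 1)) :
    ContDiffAt ℝ 1 (fun w : (B × (I → ℝ × ℂ)) × CC I T =>
      St (cancb_e I T) (F w.1) (cancb_p w.1.2 w.2) n i) w :=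
  contDiffAt_pi.1 (contDiffAt_St (F := fun w : (B × (I → ℝ × ℂ)) × CC I T => F w.1)
    (p := fun j w => cancb_p w.1.2 w.2 j) (hF.comp contDiff_fst) cancb_cd_pw hD) i

/-- The general form of an event. -/
theorem cancb_ev (hF : ContDiff ℝ 1 F) (t : Fin (T + 1)) (i : Fin (T + 1)) {A : Type}
    [NormedAddCommGroup A] [NormedSpace ℝ A] [FiniteDimensional ℝ A]
    {G : ((I → ℝ × ℂ) × A) × Ef I T → (I × Fin 2 → ℂ) × ℂ} (hG : ContDiff ℝ 1 G) {D : ℕ}
    (hD : Module.finrank ℝ (CC I T) + Module.finrank ℝ A ≤ D + 2 * Fintype.card I + 2) :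
    RPar D {w : (B × (I → ℝ × ℂ)) × CC I T | Sph w.1.2 ∧
      DmN (cancb_e I T) (F w.1) (cancb_p w.1.2 w.2) t ∧ ∃ a : A,
        (PM w.1.2 *ᵥ (w.2 t).1, (w.2 t).2) =
          G ((w.1.2, a), St (cancb_e I T) (F w.1) (cancb_p w.1.2 w.2) t i)} := by
  have key : ∀ j : I → Fin 2, RPar D _ := fun j =>
    RPar.update (Z := B × (I → ℝ × ℂ)) (F := (I → ℂ) × A) (D := D) t
      (S := {x | DmN (cancb_e I T) (F x.1.1) (cancb_p x.1.1.2 x.1.2) t})
      (f := fun x => G ((x.1.1.2, x.2.2), St (cancb_e I T) (F x.1.1) (cancb_p x.1.1.2 x.1.2) t i) +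
        (fun a => x.2.1 a.1 * (1 - pm (x.1.1.2 a.1)) a.2 (j a.1), 0))
      (fun x hx => by
        refine ContDiffAt.add (hG.contDiffAt.comp x (ContDiffAt.prodMk ?_ ?_))
          (ContDiffAt.prodMk (contDiffAt_pi.2 fun a => ContDiffAt.mul ?_ ?_) contDiffAt_const)
        · exact contDiffAt_fst.fst.snd.prodMk contDiffAt_snd.snd
        · exact (cancb_cd_St hF hx i).comp x contDiffAt_fst
        · exact contDiffAt_pi.1 contDiffAt_snd.fst a.1
        · simp only [Matrix.sub_apply]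
          exact contDiffAt_const.sub ((contDiff_pm a.2 (j a.1)).contDiffAt.comp x
            (contDiffAt_pi.1 contDiffAt_fst.fst.snd a.1)))
      (by rw [Module.finrank_prod, cancb_rank, cancb_rank']; unfold CC at hD; omega)
  refine (RPar.iUnion key).mono ?_
  rintro w ⟨hs, hd, a, ha⟩
  obtain ⟨j, u, hu⟩ := ker_chart hs (w.2 t).1
  have hp : ∀ k < (t : ℕ), cancb_p w.1.2 w.2 k = cancb_p w.1.2 (Function.update w.2 t 0) k :=
    fun k hk => by simp only [cancb_p, cancb_c_update w.2 t 0 hk]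
  refine mem_iUnion.2 ⟨j, (u, a), hd.congr hp, ?_⟩
  simp only
  rw [← St_congr hp, ← ha]
  refine Prod.ext (funext fun b => ?_) (add_zero _)
  exact (hu b).symm

end Aux

/-- Let `e j : Ef I T` be the basis vector of `Sum.inr j` (`0` if `T ≤ j`), `c' j = c ⟨j, _⟩`
(`0` if `T < j`), `p j (z, c) = toLp (Sum.elim (PM z.2 *ᵥ (c' j).1) 0) + (c' j).2 • e j`,
`Dm = {DmN … T}`, `s (z, c) = xi (St … T 0) + PM z.2 *ᵥ (c (Fin.last T)).1`.
Range: `St_mem` with `W = {w | PM ε *ᵥ xi w = xi w}`. Lower bound: `St … T 0` vanishes on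
`Sum.inr` (`St_orth`), `St_low`, comparison of the norms; `δ` small in terms of `σ`, `T`, `card I`.
Events: `RPar.update` with the auxiliary space `(I → ℂ) × ℝ`, `(I → ℂ) × ℝ × ℂ`, `(I → ℂ) × ℂ`,
union over the charts `j : I → Fin 2` of `ker_chart` and over the first degenerate step `t < T`:
there `fv = -‖fv‖ • e t` (`eq_of_not_nd`), so `PM ε *ᵥ (c t).1 = -xi (St … t (t + 1))` and
`(c t).2 = -St … t (t + 1) (Sum.inr t) - μ`. The state `St … t` does not depend on `c t`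
(`St_congr`). `finrank ℝ ((I × Fin 2 → ℂ) × ℂ) = 4 * card I + 2`. -/
theorem canc (I : Type) [Fintype I] [DecidableEq I] (T : ℕ) {σ : ℝ} (hσ : 0 < σ) :
    ∃ δ > 0, ∃ σ' > 0, ∃ D : ℕ, D + 2 * Fintype.card I + 1 = Module.finrank ℝ (CC I T) ∧
    ∀ (B : Type) [NormedAddCommGroup B] [NormedSpace ℝ B]
      (F : B × (I → ℝ × ℂ) → Fin (T + 1) → Ef I T), ContDiff ℝ 1 F →
      (∀ z t, Sph z.2 → PM z.2 *ᵥ xi (F z t) = xi (F z t)) →
      ∃ (Dm : Set ((B × (I → ℝ × ℂ)) × CC I T))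
        (s : (B × (I → ℝ × ℂ)) × CC I T → I × Fin 2 → ℂ), IsOpen Dm ∧ ContinuousOn s Dm ∧
        (∀ w, Sph w.1.2 → PM w.1.2 *ᵥ s w = s w) ∧
        (∀ w ∈ Dm, Sph w.1.2 → Ind σ (F w.1) → ‖w.2‖ ≤ δ → σ' ≤ ‖s w‖) ∧
        RPar D {w | Sph w.1.2 ∧ w ∉ Dm} ∧
        RPar (D + 2) {w | Sph w.1.2 ∧ w ∈ Dm ∧ ∃ μ : ℝ, s w = (μ : ℂ) • s0 w.1.2} ∧
        ∀ μ : ℝ, RPar (D + 1) {w | Sph w.1.2 ∧ w ∈ Dm ∧ s w = (μ : ℂ) • s0 w.1.2} := by
  have hrk : Module.finrank ℝ (CC I T) = (T + 1) * (4 * Fintype.card I + 2) := by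
    rw [Module.finrank_pi_fintype, cancb_rank]
    simp
  have hn : (0 : ℝ) ≤ Fintype.card I := Nat.cast_nonneg _
  have hT : (0 : ℝ) ≤ T := Nat.cast_nonneg _
  refine ⟨σ / (8 * (T + 1) * (4 * Fintype.card I + 2)), by positivity,
    σ / (4 * (2 * Fintype.card I + 1)), by positivity,
    T * (4 * Fintype.card I + 2) + 2 * Fintype.card I + 1, by rw [hrk]; ring, ?_⟩
  intro B _ _ F hF hr
  have hcl : ∀ c : CC I T, cancb_c c T = c (Fin.last T) := fun c => by
    unfold cancb_c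
    rw [dif_pos (Nat.lt_succ_self T)]
    rfl
  refine ⟨{w | DmN (cancb_e I T) (F w.1) (cancb_p w.1.2 w.2) T},
    fun w => xi (St (cancb_e I T) (F w.1) (cancb_p w.1.2 w.2) T 0) +
      PM w.1.2 *ᵥ (w.2 (Fin.last T)).1, ?_, ?_, ?_, ?_, ?_, ?_, ?_⟩
  · exact isOpen_DmN (F := fun w : (B × (I → ℝ × ℂ)) × CC I T => F w.1)
      (p := fun j w => cancb_p w.1.2 w.2 j) (hF.comp contDiff_fst) cancb_cd_pw T
  · intro w hw
    refine ContinuousAt.continuousWithinAt (ContinuousAt.add ?_ ?_)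
    · exact (cancb_cd_xi.contDiffAt.comp w (cancb_cd_St hF hw 0)).continuousAt
    · exact (cancb_cd_PM contDiff_fst.snd
        (contDiff_pi.1 contDiff_snd (Fin.last T)).fst).continuous.continuousAt
  · intro w hs
    let W : Submodule ℂ (Ef I T) :=
      { carrier := {v | PM w.1.2 *ᵥ xi v = xi v}
        add_mem' := fun {a b} ha hb => by
          have : xi (a + b) = xi a + xi b := rfl
          simp only [mem_ofPred_eq] at ha hb ⊢
          rw [this, Matrix.mulVec_add, ha, hb]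
        zero_mem' := by
          have : xi (0 : Ef I T) = 0 := rfl
          simp only [mem_ofPred_eq]
          rw [this, Matrix.mulVec_zero]
        smul_mem' := fun c a ha => by
          have : xi (c • a) = c • xi a := rfl
          simp only [mem_ofPred_eq] at ha ⊢
          rw [this, Matrix.mulVec_smul, ha] }
    have h1 : St (cancb_e I T) (F w.1) (cancb_p w.1.2 w.2) T 0 ∈ W := by
      refine St_mem W (fun i => hr w.1 i hs) (fun j => ?_) (fun j => ?_) T 0
      · have : xi (cancb_e I T j) = 0 := funext fun a => cancb_e_inl j a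
        show PM w.1.2 *ᵥ xi _ = xi _
        rw [this, Matrix.mulVec_zero]
      · show PM w.1.2 *ᵥ xi _ = xi _
        rw [cancb_xi_p, Matrix.mulVec_mulVec, PM_idem hs]
    have h2 : PM w.1.2 *ᵥ xi (St (cancb_e I T) (F w.1) (cancb_p w.1.2 w.2) T 0) =
        xi (St (cancb_e I T) (F w.1) (cancb_p w.1.2 w.2) T 0) := h1
    simp only
    rw [Matrix.mulVec_add, h2, Matrix.mulVec_mulVec, PM_idem hs]
  · intro w hw hs hI hc
    set δ := σ / (8 * (T + 1) * (4 * Fintype.card I + 2)) with hδ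
    have hδσ : δ * (8 * (T + 1) * (4 * Fintype.card I + 2)) = σ :=
      div_mul_cancel₀ _ (by positivity)
    have hδ0 : 0 < δ := by positivity
    have h0 : (T : ℝ) * ((4 * Fintype.card I + 1) * δ) ≤ σ / 2 := by
      rw [← hδσ]
      nlinarith [mul_nonneg hT hn, mul_nonneg (mul_nonneg hT hn) hδ0.le, mul_nonneg hT hδ0.le,
        mul_nonneg hn hδ0.le]
    have h1 := St_low (δ := (4 * Fintype.card I + 1) * δ) hI (fun j hj => cancb_norm_e hj)
      (fun j => (cancb_norm_p hs w.2 j).trans (mul_le_mul_of_nonneg_left hc (by positivity)))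
      (by linarith) hw
    have h2 : ∀ k, St (cancb_e I T) (F w.1) (cancb_p w.1.2 w.2) T 0 (Sum.inr k) = 0 := fun k => by
      have := St_orth (e := cancb_e I T) (F := F w.1) (p := cancb_p w.1.2 w.2) (n := T)
        (fun j hj => cancb_norm_e hj)
        (fun j j' h => cancb_inner_zero fun _ => by rw [cancb_e_inr, if_neg h.ne])
        (fun j j' h => cancb_inner_zero fun _ => by rw [cancb_p_inr, if_neg h.ne]) k.2 0
      rwa [cancb_inner k.2] at this
    have h3 := cancb_norm_le h2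
    have h4 : ‖PM w.1.2 *ᵥ (w.2 (Fin.last T)).1‖ ≤ 2 * δ :=
      (norm_PM_mulVec hs _).trans (by
        linarith [(norm_fst_le (w.2 (Fin.last T))).trans ((norm_le_pi_norm w.2 _).trans hc)])
    have h5 := norm_sub_le (xi (St (cancb_e I T) (F w.1) (cancb_p w.1.2 w.2) T 0) +
      PM w.1.2 *ᵥ (w.2 (Fin.last T)).1) (PM w.1.2 *ᵥ (w.2 (Fin.last T)).1)
    rw [add_sub_cancel_right] at h5
    simp only
    set x := ‖xi (St (cancb_e I T) (F w.1) (cancb_p w.1.2 w.2) T 0)‖
    set y := ‖xi (St (cancb_e I T) (F w.1) (cancb_p w.1.2 w.2) T 0) +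
      PM w.1.2 *ᵥ (w.2 (Fin.last T)).1‖
    have hx : 0 ≤ x := norm_nonneg _
    have h6 : σ / 2 ≤ (2 * Fintype.card I + 1) * x := by linarith
    have h7 : (2 * Fintype.card I + 1) * x ≤ (2 * Fintype.card I + 1) * (y + 2 * δ) :=
      mul_le_mul_of_nonneg_left (by linarith) (by positivity)
    have h8 : (2 * Fintype.card I + 1) * (2 * δ) ≤ σ / 4 := by
      rw [← hδσ]
      nlinarith [mul_nonneg hT hn, mul_nonneg (mul_nonneg hT hn) hδ0.le, mul_nonneg hT hδ0.le,
        mul_nonneg hn hδ0.le]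
    rw [div_le_iff₀ (by positivity)]
    nlinarith
  · have key : ∀ t : Fin T, RPar (T * (4 * Fintype.card I + 2) + 2 * Fintype.card I + 1) _ :=
      fun t => cancb_ev (A := ℝ) hF t.castSucc (Fin.ofNat (T + 1) (t + 1))
        (G := fun x => (-xi x.2, -x.2 (Sum.inr t) - x.1.2))
        ((cancb_cd_xi.comp contDiff_snd).neg.prodMk (((cancb_cd_co _).comp contDiff_snd).neg.sub
          (Complex.ofRealCLM.contDiff.comp contDiff_fst.snd)))
        (by rw [hrk, Module.finrank_self]; exact le_of_eq (by ring))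
    refine (RPar.iUnion key).mono ?_
    rintro w ⟨hs, hw⟩
    have hex : ∃ j, j < T ∧ ¬ND (cancb_e I T j) (fv (cancb_e I T) (F w.1) (cancb_p w.1.2 w.2) j) := by
      by_contra h
      exact hw fun j hj => by_contra fun h' => h ⟨j, hj, h'⟩
    classical
    obtain ⟨ht, hnd⟩ := Nat.find_spec hex
    set t := Nat.find hex with htd
    have hfv := eq_of_not_nd (cancb_norm_e ht) hnd
    have hct : cancb_c w.2 t = w.2 (Fin.castSucc ⟨t, ht⟩) := by
      unfold cancb_c
      rw [dif_pos (Nat.lt_succ_of_lt ht)]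
      rfl
    refine mem_iUnion.2 ⟨⟨t, ht⟩, hs, fun j hj => ?_,
      ‖fv (cancb_e I T) (F w.1) (cancb_p w.1.2 w.2) t‖, Prod.ext ?_ ?_⟩
    · by_contra h'
      exact Nat.find_min hex hj ⟨lt_trans hj ht, h'⟩
    · funext a
      have h1 := congrArg (fun v : Ef I T => v (Sum.inl a)) hfv
      have h2 := congrFun (cancb_xi_p w.1.2 w.2 t) a
      rw [hct] at h2
      simp only [PiLp.neg_apply, PiLp.smul_apply, cancb_e_inl, smul_zero, neg_zero] at h1
      rw [fv, PiLp.add_apply] at h1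
      simp only [← h2]
      exact eq_neg_of_add_eq_zero_right h1
    · have h1 := congrArg (fun v : Ef I T => v (Sum.inr ⟨t, ht⟩)) hfv
      have h2 := cancb_p_inr w.1.2 w.2 t ⟨t, ht⟩
      rw [if_pos rfl, hct] at h2
      simp only [PiLp.neg_apply, PiLp.smul_apply, cancb_e_inr, if_true, smul_eq_mul,
        mul_one] at h1
      set μ := ‖fv (cancb_e I T) (F w.1) (cancb_p w.1.2 w.2) t‖
      rw [fv, PiLp.add_apply, h2] at h1
      show (w.2 (Fin.castSucc ⟨t, ht⟩)).2 = -St (cancb_e I T) (F w.1) (cancb_p w.1.2 w.2) t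
        (Fin.ofNat (T + 1) (t + 1)) (Sum.inr ⟨t, ht⟩) - μ
      linear_combination h1
  · refine (cancb_ev (A := ℝ × ℂ) hF (Fin.last T) 0
      (G := fun x => ((x.1.2.1 : ℂ) • s0 x.1.1 - xi x.2, x.1.2.2))
      ((((Complex.ofRealCLM.contDiff.comp contDiff_fst.snd.fst).smul
        (contDiff_s0.comp contDiff_fst.fst)).sub (cancb_cd_xi.comp contDiff_snd)).prodMk
        contDiff_fst.snd.snd) ?_).mono ?_
    · rw [hrk, Module.finrank_prod, Module.finrank_self, Complex.finrank_real_complex]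
      exact le_of_eq (by ring)
    · rintro w ⟨hs, hw, μ, hμ⟩
      exact ⟨hs, hw, (μ, (w.2 (Fin.last T)).2), Prod.ext (eq_sub_of_add_eq' hμ) rfl⟩
  · intro μ
    refine (cancb_ev (A := ℂ) hF (Fin.last T) 0
      (G := fun x => ((μ : ℂ) • s0 x.1.1 - xi x.2, x.1.2))
      ((((contDiff_s0.comp contDiff_fst.fst).const_smul (μ : ℂ)).sub
        (cancb_cd_xi.comp contDiff_snd)).prodMk contDiff_fst.snd) ?_).mono ?_
    · rw [hrk, Complex.finrank_real_complex]
      exact le_of_eq (by ring)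
    · rintro w ⟨hs, hw, hμ⟩
      exact ⟨hs, hw, (w.2 (Fin.last T)).2, Prod.ext (eq_sub_of_add_eq' hμ) rfl⟩

end Vale.Agent.P093
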