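import Vale.Agent.P093.Base

/-! Codes. -/

open Filter Topology Set
open scoped ENNReal NNReal Matrix

noncomputable section

namespace Vale.Agent.P093

variable {V : Type} [NormedAddCommGroup V] [NormedSpace ℝ V]

/-- A polynomial has few roots. -/
theorem code_roots {J : Type} [Fintype J] {pt : J → ℝ} (h : Function.Injective pt)
    {p : Polynomial ℝ} (hp : p ≠ 0) :
    Fintype.card J ≤ cnt (fun j => p.eval (pt j) ≠ 0) + p.natDegree := by
  classical
  rw [← cnt_add_not fun j => p.eval (pt j) = 0, add_comm]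
  refine Nat.add_le_add_left ?_ _
  rw [cnt_eq, ← Finset.card_image_of_injective _ h]
  refine Polynomial.card_le_degree_of_subset_roots fun x hx => ?_
  obtain ⟨j, hj, rfl⟩ := Finset.mem_image.1 hx
  exact (Polynomial.mem_roots hp).2 (Finset.mem_filter.1 hj).2

theorem code_pt (J : Type) [Fintype J] : ∃ pt : J → ℝ, Function.Injective pt :=
  ⟨fun c => (Fintype.equivFin J c : ℕ), fun _ _ h =>
    (Fintype.equivFin J).injective (Fin.ext (Nat.cast_injective h))⟩

/-- Evaluate the polynomial with the coefficients `Module.finBasis` coordinates of `v` at distinct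
points (fewer than `finrank` roots), then scale. -/
theorem exists_inner [FiniteDimensional ℝ V] {K a : ℕ} (h : Module.finrank ℝ V + a ≤ K) :
    ∃ φ : V →ₗ[ℝ] Fin K → ℝ, Cd φ a ∧ ∀ v, ‖φ v‖ ≤ ‖v‖ / 12 := by
  obtain ⟨pt, hpt⟩ := code_pt (Fin K)
  obtain ⟨e, -⟩ : ∃ e : V ≃ₗ[ℝ] Polynomial.degreeLT ℝ (Module.finrank ℝ V), True :=
    ⟨(Module.finBasis ℝ V).equivFun.trans (Polynomial.degreeLTEquiv ℝ _).symm, trivial⟩
  obtain ⟨φ, hφ⟩ : ∃ φ : V →ₗ[ℝ] Fin K → ℝ, ∀ v j, φ v j = (e v).1.eval (pt j) :=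
    ⟨LinearMap.pi fun j => Polynomial.leval (pt j) ∘ₗ Submodule.subtype _ ∘ₗ e.toLinearMap,
      fun _ _ => rfl⟩
  obtain ⟨C, hC, hb⟩ := (LinearMap.toContinuousLinearMap φ).bound
  refine ⟨(12 * C)⁻¹ • φ, fun v hv => ?_, fun v => ?_⟩
  · have h1 : (e v).1 ≠ 0 := fun h => hv (e.map_eq_zero_iff.1 (Subtype.ext h))
    have h2 := code_roots hpt h1
    have h3 := (Polynomial.natDegree_lt_iff_degree_lt h1).2 (Polynomial.mem_degreeLT.1 (e v).2)
    have h4 : cnt (fun j => (e v).1.eval (pt j) ≠ 0) ≤ cnt fun j => ((12 * C)⁻¹ • φ) v j ≠ 0 :=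
      cnt_mono fun j hj => mul_ne_zero (by positivity) (by rwa [hφ])
    rw [Fintype.card_fin] at h2
    omega
  · rw [LinearMap.smul_apply, norm_smul, Real.norm_of_nonneg (by positivity),
      inv_mul_le_iff₀ (by positivity)]
    exact (hb v).trans_eq (by ring)

/-- Lagrange interpolation: `ext v c = ∑ i, (κ c * eval (pt c) (Lagrange.basis univ pt' i)) • v i`
with distinct nodes, `κ c = 1` on `A` and `κ c > 0` small on `P`. If `v i₀ ≠ 0` take a linear
functional `f` with `f (v i₀) ≠ 0`; the interpolation polynomial of `f ∘ v` is not zero and has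
degree less than `card A`, so `ext v` has less than `card A` zeros. -/
theorem exists_outer (A P : Type) [Fintype A] [Fintype P] :
    ∃ ext : (A → V) →ₗ[ℝ] A ⊕ P → V, (∀ v i, ext v (Sum.inl i) = v i) ∧ (∀ v, ‖ext v‖ ≤ ‖v‖) ∧
      ∀ v, v ≠ 0 → Fintype.card P < cnt fun c => ext v c ≠ 0 := by
  classical
  obtain ⟨pt, hpt⟩ := code_pt (A ⊕ P)
  have hi : Set.InjOn (fun i => pt (Sum.inl i)) (Finset.univ : Finset A) :=
    (hpt.comp Sum.inl_injective).injOn
  obtain ⟨L, hL⟩ : ∃ L : A ⊕ P → A → ℝ, ∀ c i,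
      L c i = (Lagrange.basis Finset.univ (fun i => pt (Sum.inl i)) i).eval (pt c) :=
    ⟨_, fun _ _ => rfl⟩
  have h1 : ∀ i j, L (Sum.inl i) j = if j = i then 1 else 0 := fun i j => by
    rw [hL]
    split_ifs with h
    · rw [h]
      exact Lagrange.eval_basis_self hi (Finset.mem_univ _)
    · exact Lagrange.eval_basis_of_ne (v := fun i => pt (Sum.inl i)) h (Finset.mem_univ _)
  obtain ⟨ext, he⟩ : ∃ ext : (A → V) →ₗ[ℝ] A ⊕ P → V, ∀ v c,
      ext v c = (max 1 (∑ i, |L c i|))⁻¹ • ∑ i, L c i • v i :=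
    ⟨LinearMap.pi fun c => (max 1 (∑ i, |L c i|))⁻¹ • ∑ i, L c i • LinearMap.proj i,
      fun v c => by simp⟩
  have h2 : ∀ c, 0 < max 1 (∑ i, |L c i|) := fun c => lt_max_of_lt_left one_pos
  refine ⟨ext, fun v i => ?_, fun v => ?_, fun v hv => ?_⟩
  · simp [he, h1, apply_ite abs]
  · refine (pi_norm_le_iff_of_nonneg (norm_nonneg _)).2 fun c => ?_
    rw [he, norm_smul, Real.norm_of_nonneg (inv_pos.2 (h2 c)).le, inv_mul_le_iff₀ (h2 c)]
    refine (norm_sum_le _ _).trans (le_trans ?_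
      (mul_le_mul_of_nonneg_right (le_max_right _ _) (norm_nonneg _)))
    rw [Finset.sum_mul]
    refine Finset.sum_le_sum fun i _ => ?_
    rw [norm_smul]
    exact mul_le_mul_of_nonneg_left (norm_le_pi_norm v i) (norm_nonneg _)
  · obtain ⟨i, h3⟩ := Function.ne_iff.1 hv
    obtain ⟨f, hf⟩ := not_forall.1 ((Module.forall_dual_apply_eq_zero_iff ℝ (v i)).not.2 h3)
    have h4 : Lagrange.interpolate Finset.univ (fun i => pt (Sum.inl i)) (fun i => f (v i)) ≠ 0 :=
      fun h => hf (by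
        rw [← Lagrange.eval_interpolate_at_node (fun i => f (v i)) hi (Finset.mem_univ i), h,
          Polynomial.eval_zero])
    have h5 := code_roots hpt h4
    have h6 := (Polynomial.natDegree_lt_iff_degree_lt h4).2 (Lagrange.degree_interpolate_lt _ hi)
    rw [Fintype.card_sum] at h5
    rw [Finset.card_univ] at h6
    refine lt_of_lt_of_le (by omega) (cnt_mono (p := fun c => (Lagrange.interpolate Finset.univ
      (fun i => pt (Sum.inl i)) fun i => f (v i)).eval (pt c) ≠ 0) fun c hc h => hc ?_)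
    rw [he, smul_eq_zero_iff_right (inv_pos.2 (h2 c)).ne'] at h
    have h7 := congrArg f h
    rw [map_sum, map_zero] at h7
    rw [Lagrange.interpolate_apply, Polynomial.eval_finsetSum, ← h7]
    refine Finset.sum_congr rfl fun i _ => ?_
    rw [Polynomial.eval_mul, Polynomial.eval_C, map_smul, hL, smul_eq_mul, mul_comm]

/-- Decoding is Lipschitz. -/
theorem code_lip [FiniteDimensional ℝ V] {J : Type} [Fintype J] {Φ : V →ₗ[ℝ] J → ℝ} {e : ℕ}
    (hΦ : Cd Φ (2 * e)) : ∃ C : ℝ≥0, ∀ (y y' : J → ℝ) v v', cnt (fun j => y j ≠ Φ v j) ≤ e →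
      cnt (fun j => y' j ≠ Φ v' j) ≤ e → dist v v' ≤ C * dist y y' := by
  classical
  have h1 : ∀ S : J → Prop, ∃ K : ℝ≥0, cnt S ≤ 2 * e → ∀ v,
      ‖v‖ ≤ K * ‖fun j => if S j then 0 else Φ v j‖ := fun S => by
    by_cases h : cnt S ≤ 2 * e
    · obtain ⟨Ψ, hΨ⟩ : ∃ Ψ : V →ₗ[ℝ] J → ℝ, ∀ v, Ψ v = fun j => if S j then 0 else Φ v j :=
        ⟨LinearMap.pi fun j => if S j then 0 else LinearMap.proj j ∘ₗ Φ, fun v =>
          funext fun j => by
            rw [LinearMap.pi_apply]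
            split_ifs <;> rfl⟩
      obtain ⟨K, -, hK⟩ := Ψ.exists_antilipschitzWith (LinearMap.ker_eq_bot'.2 fun v hv => by
        by_contra h0
        refine ((hΦ v h0).trans_le (cnt_mono fun j hj => ?_)).not_ge h
        by_contra h2
        have h3 := congrFun ((hΨ v).symm.trans hv) j
        rw [if_neg h2] at h3
        exact hj h3)
      exact ⟨K, fun _ v => by simpa [hΨ] using ZeroHomClass.bound_of_antilipschitz Ψ hK v⟩
    · exact ⟨0, fun h' => (h h').elim⟩
  choose K hK using h1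
  obtain ⟨C, hC⟩ := (Set.finite_range K).bddAbove
  refine ⟨C, fun y y' v v' h h' => ?_⟩
  rw [dist_eq_norm]
  refine (hK (fun j => y j ≠ Φ v j ∨ y' j ≠ Φ v' j) ((cnt_or _ _).trans (by omega)) _).trans
    (mul_le_mul (hC (mem_range_self _)) ((pi_norm_le_iff_of_nonneg dist_nonneg).2 fun j => ?_)
      (norm_nonneg _) C.2)
  split_ifs with h2
  · simp
  · simp only [ne_eq, not_or, not_not] at h2
    rw [map_sub, Pi.sub_apply, ← h2.1, ← h2.2, ← dist_eq_norm]
    exact dist_le_pi_dist y y' j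

/-- There is `C` with `‖v‖ ≤ C * η` whenever `|Φ v j| ≤ η` outside a set of at most `2 * e`
indices (finitely many injective linear maps). So decoding is well defined and Lipschitz on
the set of the `y` near the code; `LipschitzOnWith.extend_finite_dimension`; compose with
`v ↦ (3 / max 3 ‖v‖) • v`. -/
theorem exists_dec [FiniteDimensional ℝ V] {J : Type} [Fintype J] {Φ : V →ₗ[ℝ] J → ℝ} {e : ℕ}
    (hΦ : Cd Φ (2 * e)) : ∃ dec : (J → ℝ) → V, Continuous dec ∧ (∀ y, ‖dec y‖ ≤ 3) ∧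
      ∀ y v, ‖v‖ ≤ 3 → cnt (fun j => y j ≠ Φ v j) ≤ e → dec y = v := by
  obtain ⟨C, hC⟩ := code_lip hΦ
  have h1 : ∀ y : J → ℝ, ∃ w, ∀ v, cnt (fun j => y j ≠ Φ v j) ≤ e → w = v := fun y => by
    by_cases h : ∃ w, cnt (fun j => y j ≠ Φ w j) ≤ e
    · obtain ⟨w, hw⟩ := h
      exact ⟨w, fun v hv => dist_le_zero.1 (by simpa using hC y y w v hw hv)⟩
    · exact ⟨0, fun v hv => (h ⟨v, hv⟩).elim⟩
  choose g hg using h1
  obtain ⟨G, hG, he⟩ := (LipschitzOnWith.of_dist_le_mul (K := C) (f := g)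
    (s := {y | ∃ v, cnt (fun j => y j ≠ Φ v j) ≤ e}) (by
      rintro y ⟨v, hv⟩ y' ⟨v', hv'⟩
      rw [hg y v hv, hg y' v' hv']
      exact hC y y' v v' hv hv')).extend_finite_dimension
  have h2 : ∀ y, 0 < max 3 ‖G y‖ := fun y => lt_max_of_lt_left three_pos
  refine ⟨fun y => (3 / max 3 ‖G y‖) • G y, (continuous_const.div
    (continuous_const.max hG.continuous.norm) fun y => (h2 y).ne').smul hG.continuous,
    fun y => ?_, fun y v hv h => ?_⟩
  · rw [norm_smul, Real.norm_of_nonneg (div_pos three_pos (h2 y)).le, div_mul_eq_mul_div,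
      div_le_iff₀ (h2 y)]
    exact mul_le_mul_of_nonneg_left (le_max_right _ _) three_pos.le
  · simp only [← he ⟨v, h⟩, hg y v h, max_eq_left hv, div_self (three_ne_zero (α := ℝ)), one_smul]

theorem finrank_Vk (k : ℕ) : Module.finrank ℝ (Vk k) = 2 * k + 1 := by
  simp [Module.finrank_prod, Module.finrank_pi_fintype, Complex.finrank_real_complex]
  ring

end Vale.Agent.P093
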