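import Vale.Agent.P093.MainB

/-! Properties of the realized mean dimension. -/

open Filter Topology Set
open scoped ENNReal NNReal Matrix

noncomputable section

namespace Vale.Agent.P093

section

variable {X : Type} [MetricSpace X] {h : X ≃ₜ X}

theorem rel_le {U : Finset (Set X)} (hU : IsCov U) (T : ℕ → Test X) : rel h T U ≤ mdimU h U :=
  limsup_le_limsup (Eventually.of_forall fun N =>
    ENNReal.div_le_div_right (by exact_mod_cast pull_le hU (T N) N) _)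

theorem le_mdim {U : Finset (Set X)} (hU : IsCov U) : mdimU h U ≤ mdim h :=
  le_iSup₂ (f := fun U (_ : IsCov U) => mdimU h U) U hU

theorem rmd_le : rmd h ≤ mdim h := by
  refine iSup₂_le fun d hd => ENNReal.le_of_forall_pos_le_add fun η hη _ => ?_
  obtain ⟨U, hU, -, T, h2, -⟩ := hd η hη
  exact h2.trans (add_le_add_left ((rel_le hU T).trans (le_mdim hU)) _)

theorem rmd_main [CompactSpace X] [Infinite X] (hm : IsMinimal h) {A : Type} [CStarAlgebra A]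
    [PartialOrder A] [StarOrderedRing A] (hA : IsCrossed h A) : rmd h / 2 ≤ rc A := by
  rw [rmd, ENNReal.iSup_div]
  refine iSup_le fun d => ?_
  rw [ENNReal.iSup_div]
  exact iSup_le fun hd => mainB hm hd hA

theorem rmd_eq (hf : mdim h ≠ ⊤) (H : ∀ t < mdim h, ∃ U, IsCov U ∧ ∃ T : ℕ → Test X,
    t ≤ rel h T U ∧ ∀ V, IsCov V → rel h T V ≤ rel h T U) : rmd h = mdim h := by
  refine le_antisymm rmd_le ?_
  rcases eq_or_ne (mdim h) 0 with h0 | h0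
  · rw [h0]
    exact zero_le
  lift mdim h to ℝ≥0 using hf with d hd
  refine le_iSup₂ (f := fun (d : ℝ≥0) (_ : Realized h d) => (d : ℝ≥0∞)) d fun η hη => ?_
  obtain ⟨U, hU, T, h1, h2⟩ := H (d - η)
    (ENNReal.sub_lt_self ENNReal.coe_ne_top h0 (by exact_mod_cast hη.ne'))
  exact ⟨U, hU, ((le_mdim hU).trans hd.ge).trans le_self_add, T, tsub_le_iff_right.1 h1, h2⟩

theorem pull_cov {V : Finset (Set X)} (hV : IsCov V) (T : Test X) : IsCov (T.pull V) := by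
  classical
  refine ⟨fun u hu => ?_, fun y => ?_⟩
  · obtain ⟨v, hv, rfl⟩ := Finset.mem_image.1 hu
    exact (hV.1 v hv).preimage T.p.continuous
  · obtain ⟨v, hv, hy⟩ := hV.2 (T.p y)
    exact ⟨_, Finset.mem_image_of_mem _ hv, hy⟩

theorem rmd_dim (hf : mdim h ≠ ⊤) (H : ∀ t < mdim h, ∃ U, IsCov U ∧ ∃ T : ℕ → Test X,
    t ≤ rel h T U ∧ limsup (fun N : ℕ => cdim (T N).Y / N) atTop ≤ rel h T U) :
    rmd h = mdim h := by
  refine rmd_eq hf fun t ht => ?_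
  obtain ⟨U, hU, T, h1, h2⟩ := H t ht
  refine ⟨U, hU, T, h1, fun V hV => le_trans (limsup_le_limsup (Eventually.of_forall fun N =>
    ENNReal.div_le_div_right ?_ _)) h2⟩
  exact le_iSup₂ (f := fun (V : Finset (Set (T N).Y)) (_ : IsCov V) => (Dd V : ℝ≥0∞)) _
    (pull_cov (cova_join hV N) (T N))

theorem mdimU_ne_top [CompactSpace X] [Nonempty X] {U : Finset (Set X)} (hU : IsCov U) :
    mdimU h U ≠ ⊤ := by
  obtain ⟨φ₀, Λ₀, _, lab₀, hφ₀⟩ := exists_col (fun s t hst ht => In.anti h hst ht)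
    (dle_one (h := h) hU)
  refine ne_top_of_le_ne_top ENNReal.ofReal_ne_top (lims_le (c := (U.card + 1 : ℕ))
    (Nat.cast_nonneg _) (Eventually.of_forall fun N => ?_))
  have h1 := (dle_iff hU N _).2 (dle_lin hφ₀ N)
  rw [mul_comm]
  exact_mod_cast h1

theorem rmd_att [CompactSpace X] [Nonempty X] {U : Finset (Set X)} (hU : IsCov U)
    (ha : mdimU h U = mdim h) : rmd h = mdim h := by
  classical
  have h1 : ∀ V, rel h (fun _ => ⟨X, ContinuousMap.id X⟩) V = mdimU h V := fun V => by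
    simp [rel, mdimU, Test.pull]
  refine rmd_eq (ha ▸ mdimU_ne_top hU) fun t ht =>
    ⟨U, hU, fun _ => ⟨X, ContinuousMap.id X⟩, ?_, fun V hV => ?_⟩
  · rw [h1, ha]
    exact ht.le
  · rw [h1, h1, ha]
    exact le_mdim hV

end

section Prod

variable {X X₀ X₁ : Type} [MetricSpace X] [CompactSpace X] [MetricSpace X₀] [CompactSpace X₀]
  [TopologicalSpace X₁] [CompactSpace X₁] {h : X ≃ₜ X} {h₀ : X₀ ≃ₜ X₀} {h₁ : X₁ ≃ₜ X₁}
  {e : X ≃ₜ X₀ × X₁}

theorem prod_fine (e : X ≃ₜ X₀ × X₁) {V : Finset (Set X)} (hV : IsCov V) :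
    ∃ V₀ : Finset (Set X₀), IsCov V₀ ∧ ∀ v₀ ∈ V₀, ∀ z, ∃ v ∈ V, ∀ x ∈ v₀, e.symm (x, z) ∈ v := by
  classical
  obtain ⟨δ, hδ, H⟩ := lebesgue_number_lemma_of_metric (c := fun v : V => v.1) isCompact_univ
    (fun v => hV.1 _ v.2) fun x _ =>
      let ⟨v, hv, hx⟩ := hV.2 x
      mem_iUnion.2 ⟨⟨v, hv⟩, hx⟩
  have h1 : ∀ x₀ : X₀, ∃ O : Set X₀, IsOpen O ∧ x₀ ∈ O ∧
      ∀ x ∈ O, ∀ z, dist (e.symm (x, z)) (e.symm (x₀, z)) < δ := fun x₀ => by
    obtain ⟨O, O', a1, -, a3, a4, a5⟩ := generalized_tube_lemma (isCompact_singleton (x := x₀))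
      (isCompact_univ (X := X₁))
      (n := {q : X₀ × X₁ | dist (e.symm q) (e.symm (x₀, q.2)) < δ})
      (isOpen_lt (by fun_prop) continuous_const) (by
        rintro ⟨x, z⟩ ⟨hx, -⟩
        obtain rfl : x = x₀ := hx
        simpa using hδ)
    exact ⟨O, a1, a3 rfl, fun x hx z => a5 (mk_mem_prod hx (a4 (mem_univ z)))⟩
  choose O a1 a2 a3 using h1
  obtain ⟨t, ht⟩ := isCompact_univ.elim_finite_subcover O a1 fun x _ => mem_iUnion.2 ⟨x, a2 x⟩
  refine ⟨t.image O, ⟨fun u hu => ?_, fun x => ?_⟩, fun v₀ hv z => ?_⟩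
  · obtain ⟨z, -, rfl⟩ := Finset.mem_image.1 hu
    exact a1 z
  · obtain ⟨z, hz, hx⟩ := mem_iUnion₂.1 (ht (mem_univ x))
    exact ⟨_, Finset.mem_image_of_mem _ hz, hx⟩
  · obtain ⟨x₀, -, rfl⟩ := Finset.mem_image.1 hv
    obtain ⟨v, hv'⟩ := H (e.symm (x₀, z)) (mem_univ _)
    exact ⟨v.1, v.2, fun x hx => hv' (a3 x₀ x hx z)⟩

omit [CompactSpace X] [CompactSpace X₀] [CompactSpace X₁] in
theorem prod_pow (he : ∀ x, e (h x) = (h₀ (e x).1, h₁ (e x).2)) (j : ℕ) (x : X₀) (z : X₁) :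
    (h ^ j) (e.symm (x, z)) = e.symm ((h₀ ^ j) x, (h₁ ^ j) z) := by
  induction j with
  | zero => rfl
  | succ j ih =>
    rw [add_comm, pw_add, pw_add, pw_add, ih, pow_one, pow_one, pow_one, eq_comm,
      Homeomorph.symm_apply_eq, he, Homeomorph.apply_symm_apply]

theorem rmd_prod [Nonempty X₁] (he : ∀ x, e (h x) = (h₀ (e x).1, h₁ (e x).2)) :
    rmd h₀ ≤ rmd h := by
  classical
  obtain ⟨z₀⟩ := ‹Nonempty X₁›
  refine iSup₂_le fun d hd =>
    le_iSup₂ (f := fun (d : ℝ≥0) (_ : Realized h d) => (d : ℝ≥0∞)) d fun η hη => ?_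
  obtain ⟨U, hU, h1, T, h2, h3⟩ := hd η hη
  let T₀ : Test X₀ := ⟨X, ⟨fun x => (e x).1, by fun_prop⟩⟩
  let T' : ℕ → Test X := fun N => ⟨(T N).Y, ⟨fun y => e.symm ((T N).p y, z₀), by fun_prop⟩⟩
  have hU' := pull_cov hU T₀
  have hp : ∀ (j : ℕ) (x : X), (e ((h ^ j) x)).1 = (h₀ ^ j) (e x).1 := fun j x => by
    have h4 := prod_pow he j (e x).1 (e x).2
    rw [Prod.mk.eta, Homeomorph.symm_apply_apply] at h4
    rw [h4, Homeomorph.apply_symm_apply]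
  have h4 : rel h₀ T U ≤ rel h T' (T₀.pull U) := by
    refine limsup_le_limsup (Eventually.of_forall fun N => ENNReal.div_le_div_right ?_ _)
    obtain ⟨ι, _, W, a1, a2, a3, a4⟩ := (dle_pull (h := h) hU' (T' N) N _).1 le_rfl
    refine Nat.cast_le.2 ((dle_pull hU (T N) N _).2 ⟨ι, _, W, a1, a2, fun i j hj => ?_, a4⟩)
    obtain ⟨u, hu, a5⟩ := a3 i j hj
    obtain ⟨v, hv, rfl⟩ := Finset.mem_image.1 hu
    refine ⟨v, hv, ?_⟩
    rintro _ ⟨y, hy, rfl⟩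
    have a6 : (e ((h ^ (0 + j)) (e.symm ((T N).p y, z₀)))).1 ∈ v := a5 _ (mem_image_of_mem _ hy)
    rwa [hp, Homeomorph.apply_symm_apply] at a6
  refine ⟨T₀.pull U, hU', le_trans ?_ h1, T', h2.trans (add_le_add_left h4 _), fun V hV => ?_⟩
  · refine limsup_le_limsup (Eventually.of_forall fun N => ENNReal.div_le_div_right ?_ _)
    obtain ⟨ι, _, W, a1, a2, a3, a4⟩ := (dle_iff (h := h₀) hU N _).1 le_rfl
    refine Nat.cast_le.2 ((dle_iff hU' N _).2 ⟨ι, _, fun i => T₀.p ⁻¹' W i,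
      fun i => (a1 i).preimage T₀.p.continuous, fun y => a2 _, fun i j hj => ?_, fun y => a4 _⟩)
    obtain ⟨u, hu, a5⟩ := a3 i j hj
    refine ⟨_, Finset.mem_image_of_mem _ hu, fun x hx => ?_⟩
    change (e ((h ^ (0 + j)) x)).1 ∈ u
    rw [hp]
    exact a5 _ hx
  obtain ⟨V₀, hV₀, H⟩ := prod_fine e hV
  refine le_trans (limsup_le_limsup (Eventually.of_forall fun N =>
    ENNReal.div_le_div_right ?_ _)) ((h3 V₀ hV₀).trans h4)
  obtain ⟨ι, _, W, a1, a2, a3, a4⟩ := (dle_pull (h := h₀) hV₀ (T N) N _).1 le_rfl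
  refine Nat.cast_le.2 ((dle_pull hV (T' N) N _).2 ⟨ι, _, W, a1, a2, fun i j hj => ?_, a4⟩)
  obtain ⟨u, hu, a5⟩ := a3 i j hj
  obtain ⟨v, hv, a6⟩ := H u hu ((h₁ ^ (0 + j)) z₀)
  refine ⟨v, hv, ?_⟩
  rintro _ ⟨y, hy, rfl⟩
  change (h ^ (0 + j)) (e.symm ((T N).p y, z₀)) ∈ v
  rw [prod_pow he]
  exact a6 _ (a5 _ (mem_image_of_mem _ hy))

end Prod

end Vale.Agent.P093
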