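import Vale.Agent.P093.Pw

/-! Covers: comparison with the definitions, fine covers, partitions of unity. -/

open Filter Topology Set
open scoped ENNReal NNReal Matrix

noncomputable section

namespace Vale.Agent.P093

variable {X : Type} [MetricSpace X] [CompactSpace X] {h : X ≃ₜ X} {U : Finset (Set X)}
  {P : Set X → Prop} {n : ℕ}

omit [CompactSpace X] in
theorem DLe.mono (hP : DLe P n) {n' : ℕ} (hn : n ≤ n') : DLe P n' := by
  obtain ⟨ι, _, W, h1, h2, h3, h4⟩ := hP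
  exact ⟨ι, _, W, h1, h2, h3, fun x => (h4 x).trans (by omega)⟩

omit [CompactSpace X] in
/-- Replace `W i` by its preimage under `h⁻¹ ^ a`. -/
theorem DLe.shift {a N : ℕ} (hP : DLe (In h U a N) n) : DLe (In h U 0 N) n := by
  obtain ⟨ι, _, W, h1, h2, h3, h4⟩ := hP
  refine ⟨ι, _, fun i => (h⁻¹ ^ a) ⁻¹' W i, fun i => (h1 i).preimage (h⁻¹ ^ a).continuous,
    fun x => h2 _, fun i j hj => ?_, fun x => h4 _⟩
  obtain ⟨u, hu, hx⟩ := h3 i j hj
  refine ⟨u, hu, fun x hx' => ?_⟩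
  have := hx _ hx'
  rwa [inv_pw, pw_cast, ← zpw_add, Nat.cast_add, add_comm (a : ℤ), add_neg_cancel_right,
    ← pw_cast, ← zero_add j] at this

omit [CompactSpace X] in
theorem cova_mem {N : ℕ} {s : Set X} : (∃ v ∈ join h U N, s ⊆ v) ↔ In h U 0 N s := by
  classical
  constructor
  · rintro ⟨v, hv, hs⟩ j hj
    obtain ⟨σ, hσ, rfl⟩ := Finset.mem_image.1 hv
    refine ⟨σ ⟨j, hj⟩, Fintype.mem_piFinset.1 hσ _, fun x hx => ?_⟩
    rw [zero_add]
    exact mem_iInter.1 (hs hx) ⟨j, hj⟩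
  · intro hs
    choose σ hσ hx using fun j : Fin N => hs j j.2
    refine ⟨_, Finset.mem_image.2 ⟨σ, Fintype.mem_piFinset.2 hσ, rfl⟩, fun x hx' => ?_⟩
    refine mem_iInter.2 fun j => ?_
    have := hx j x hx'
    rwa [zero_add] at this

omit [CompactSpace X] in
theorem cova_join (hU : IsCov U) (N : ℕ) : IsCov (join h U N) := by
  classical
  refine ⟨fun v hv => ?_, fun x => ?_⟩
  · obtain ⟨σ, hσ, rfl⟩ := Finset.mem_image.1 hv
    exact isOpen_iInter_of_finite fun j =>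
      (hU.1 _ (Fintype.mem_piFinset.1 hσ j)).preimage (h ^ (j : ℕ)).continuous
  · obtain ⟨v, hv, hs⟩ := (cova_mem (h := h) (U := U) (N := N) (s := {x})).2 fun j _ => by
      obtain ⟨u, hu, hx⟩ := hU.2 ((h ^ (0 + j)) x)
      exact ⟨u, hu, fun y hy => by rwa [mem_singleton_iff.1 hy]⟩
    exact ⟨v, hv, hs rfl⟩

omit [MetricSpace X] [CompactSpace X] in
theorem cova_cnt (W : Finset (Set X)) (x : X) : cnt (fun i : W => x ∈ i.1) ≤ ord W + 1 := by
  classical
  have hb : BddAbove {n : ℕ | ∃ S ⊆ W, S.card = n ∧ ∃ x, ∀ s ∈ S, x ∈ s} :=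
    ⟨W.card, by
      rintro _ ⟨S, hS, rfl, -⟩
      exact Finset.card_le_card hS⟩
  have h1 := le_csSup hb (show (W.filter fun s => x ∈ s).card ∈ _ from
    ⟨_, Finset.filter_subset _ _, rfl, x, fun s hs => (Finset.mem_filter.1 hs).2⟩)
  have h2 : cnt (fun i : W => x ∈ i.1) ≤ (W.filter fun s => x ∈ s).card := by
    rw [cnt_eq]
    refine Finset.card_le_card_of_injOn Subtype.val (fun i hi => ?_)
      Subtype.val_injective.injOn
    have : x ∈ i.1 := by simpa using hi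
    simp [this]
  unfold ord
  omega

omit [CompactSpace X] in
/-- A set is contained in a member of `join h U N` iff it satisfies `In h U 0 N`. The set in
the definition of `Dd` is not empty (the join is a cover), so `Nat.sInf_mem` applies; index the
cover `W` by its own members. Conversely take the image of `Finset.univ` under `W`. The set in
the definition of `ord` is bounded by `W.card`. -/
theorem dle_iff (hU : IsCov U) (N n : ℕ) : Dd (join h U N) ≤ n ↔ DLe (In h U 0 N) n := by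
  classical
  constructor
  · intro hd
    obtain ⟨W, hW, hr, ho⟩ := Nat.sInf_mem (s := {n : ℕ | ∃ W, IsCov W ∧
      (∀ w ∈ W, ∃ v ∈ join h U N, w ⊆ v) ∧ ord W = n})
      ⟨_, join h U N, cova_join hU N, fun w hw => ⟨w, hw, subset_rfl⟩, rfl⟩
    have ho' : ord W ≤ n := ho ▸ hd
    refine ⟨W, inferInstance, Subtype.val, fun i => hW.1 _ i.2, fun x => ?_,
      fun i => cova_mem.1 (hr _ i.2), fun x => (cova_cnt W x).trans (by omega)⟩
    obtain ⟨u, hu, hx⟩ := hW.2 x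
    exact ⟨⟨u, hu⟩, hx⟩
  · rintro ⟨ι, _, W, h1, h2, h3, h4⟩
    refine le_trans (Nat.sInf_le (s := {n : ℕ | ∃ W, IsCov W ∧
      (∀ w ∈ W, ∃ v ∈ join h U N, w ⊆ v) ∧ ord W = n}) (m := ord (Finset.univ.image W))
      ⟨Finset.univ.image W, ⟨fun u hu => ?_, fun x => ?_⟩, fun w hw => ?_, rfl⟩) ?_
    · obtain ⟨i, -, rfl⟩ := Finset.mem_image.1 hu
      exact h1 i
    · obtain ⟨i, hi⟩ := h2 x
      exact ⟨W i, Finset.mem_image_of_mem _ (Finset.mem_univ _), hi⟩
    · obtain ⟨i, -, rfl⟩ := Finset.mem_image.1 hw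
      exact cova_mem.2 (h3 i)
    · refine Nat.sub_le_of_le_add (csSup_le' ?_)
      rintro _ ⟨S, hS, rfl, x, hx⟩
      refine le_trans ?_ (h4 x)
      rw [cnt_eq]
      refine le_trans (Finset.card_le_card fun s hs => ?_) (Finset.card_image_le (f := W))
      obtain ⟨i, -, rfl⟩ := Finset.mem_image.1 (hS hs)
      exact Finset.mem_image_of_mem _ (Finset.mem_filter.2 ⟨Finset.mem_univ _, hx _ hs⟩)

omit [CompactSpace X] in
theorem dle_one (hU : IsCov U) : DLe (In h U 0 1) U.card := by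
  refine ⟨U, inferInstance, Subtype.val, fun i => hU.1 _ i.2, fun x => ?_, fun i j hj => ?_,
    fun x => (cnt_le _).trans (by simp)⟩
  · obtain ⟨u, hu, hx⟩ := hU.2 x
    exact ⟨⟨u, hu⟩, hx⟩
  · obtain rfl : j = 0 := by omega
    exact ⟨i.1, i.2, fun x hx => by simpa using hx⟩

/-- Finitely many of the sets `g ⁻¹' ball (g x) (δ / 2)` cover. -/
theorem exists_fine {E : Type} [NormedAddCommGroup E] {g : X → E} (hg : Continuous g) {δ : ℝ}
    (hδ : 0 < δ) : ∃ V : Finset (Set X), IsCov V ∧ ∀ v ∈ V, ∀ x ∈ v, ∀ y ∈ v, ‖g x - g y‖ ≤ δ := by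
  classical
  obtain ⟨t, ht⟩ := isCompact_univ.elim_finite_subcover
    (fun x : X => g ⁻¹' Metric.ball (g x) (δ / 2))
    (fun x => Metric.isOpen_ball.preimage hg) fun x _ =>
      mem_iUnion.2 ⟨x, Metric.mem_ball_self (half_pos hδ)⟩
  refine ⟨t.image fun x => g ⁻¹' Metric.ball (g x) (δ / 2), ⟨fun u hu => ?_, fun x => ?_⟩,
    fun v hv x hx y hy => ?_⟩
  · obtain ⟨z, -, rfl⟩ := Finset.mem_image.1 hu
    exact Metric.isOpen_ball.preimage hg
  · obtain ⟨z, hz, hx⟩ := mem_iUnion₂.1 (ht (mem_univ x))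
    exact ⟨_, Finset.mem_image_of_mem _ hz, hx⟩
  · obtain ⟨z, -, rfl⟩ := Finset.mem_image.1 hv
    have h1 : dist (g x) (g z) < δ / 2 := hx
    have h2 : dist (g y) (g z) < δ / 2 := hy
    rw [← dist_eq_norm]
    linarith [dist_triangle_right (g x) (g y) (g z)]

/-- `PartitionOfUnity.exists_isSubordinate`; `pt w` is any point of `W w` (any point of `X` if
`W w` is empty). -/
theorem exists_pl [Nonempty X] (hP : DLe P n) : ∃ (Ω : Type) (_ : Fintype Ω) (β : X → Ω → ℝ)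
    (pt : Ω → X), Continuous β ∧ (∀ x, cnt (fun w => β x w ≠ 0) ≤ n + 1) ∧ (∀ x w, 0 ≤ β x w) ∧
    (∀ x, ∑ w, β x w = 1) ∧ ∀ x w, β x w ≠ 0 → ∃ s, P s ∧ x ∈ s ∧ pt w ∈ s := by
  classical
  obtain ⟨ι, _, W, h1, h2, h3, h4⟩ := hP
  obtain ⟨f, hf⟩ := PartitionOfUnity.exists_isSubordinate isClosed_univ W h1
    fun x _ => mem_iUnion.2 (h2 x)
  have hs : ∀ x w, f w x ≠ 0 → x ∈ W w := fun x w hx => hf w (subset_tsupport _ hx)
  refine ⟨ι, _, fun x w => f w x, fun w => if hw : (W w).Nonempty then hw.some else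
    Classical.arbitrary X, continuous_pi fun w => (f w).continuous,
    fun x => (cnt_mono (hs x)).trans (h4 x), fun x w => f.nonneg w x, fun x => ?_,
    fun x w hx => ⟨W w, h3 w, hs x w hx, ?_⟩⟩
  · rw [← finsum_eq_sum_of_fintype]
    exact f.sum_eq_one (mem_univ x)
  · have hw : (W w).Nonempty := ⟨x, hs x w hx⟩
    simp only [dif_pos hw]
    exact hw.some_mem

omit [MetricSpace X] [CompactSpace X] in
/-- Convex combinations. -/
theorem pl_close {Ω E : Type} [Fintype Ω] [NormedAddCommGroup E] [NormedSpace ℝ E] {b : Ω → ℝ}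
    (h0 : ∀ w, 0 ≤ b w) (h1 : ∑ w, b w = 1) {v : Ω → E} {v₀ : E} {δ : ℝ}
    (hv : ∀ w, b w ≠ 0 → ‖v w - v₀‖ ≤ δ) : ‖∑ w, b w • v w - v₀‖ ≤ δ := by
  have e : ∑ w, b w • v w - v₀ = ∑ w, b w • (v w - v₀) := by
    simp only [smul_sub, Finset.sum_sub_distrib, ← Finset.sum_smul, h1, one_smul]
  rw [e]
  refine (norm_sum_le _ _).trans ?_
  calc ∑ w, ‖b w • (v w - v₀)‖ ≤ ∑ w, b w * δ := Finset.sum_le_sum fun w _ => by
        rw [norm_smul, Real.norm_of_nonneg (h0 w)]
        by_cases hw : b w = 0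
        · simp [hw]
        · exact mul_le_mul_of_nonneg_left (hv w hw) (h0 w)
    _ = δ := by rw [← Finset.sum_mul, h1, one_mul]

end Vale.Agent.P093
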