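import Vale.Agent.P093.Pw

/-! Colourings and the count of zeros. -/

open Filter Topology Set
open scoped ENNReal NNReal Matrix

noncomputable section

namespace Vale.Agent.P093

variable {X : Type} [MetricSpace X] [CompactSpace X] [Nonempty X] {P : Set X → Prop}

/-- Ostrand. Take continuous `f i ≥ 0` with `0 < f i x ↔ x ∈ W i` (or a partition of unity
subordinate to `W`). For a finset `J` let `O J` be the open set of the `x` with
`0 < f i x` and `f j x < f i x` for all `i ∈ J`, `j ∉ J`. Two finsets `J`, `J'` of the same size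
with `x ∈ O J ∩ O J'` are equal, and `x ∈ O J` for `J = {i | 0 < f i x}`, `1 ≤ J.card ≤ n + 1`.
Let `Ω c` be the union of the `O J` with `J.card = c + 1`; take `φ` from
`BumpCovering.exists_isSubordinate`, and let `lab c x` be the `J` of size `c + 1` with `x ∈ O J`
(`∅` if there is none); `Λ = Finset ι`. `P ∅` follows from `hP`. -/
theorem exists_col (hP : ∀ s t, s ⊆ t → P t → P s) {n : ℕ} (hn : DLe P n) :
    ∃ (φ : Fin (n + 1) → C(X, ℝ)) (Λ : Type) (_ : Fintype Λ) (lab : Fin (n + 1) → X → Λ),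
      Col P φ lab := by
  classical
  obtain ⟨ι, _, W, h1, h2, h3, h4⟩ := hn
  have hP0 : P ∅ := (h2 (Classical.arbitrary X)).elim fun i _ => hP _ _ (empty_subset _) (h3 i)
  obtain ⟨f, hf⟩ := BumpCovering.exists_isSubordinate isClosed_univ W h1 fun x _ =>
    mem_iUnion.2 (h2 x)
  have hW : ∀ i x, 0 < f i x → x ∈ W i := fun i x hx => hf i (subset_tsupport _ hx.ne')
  let O : Finset ι → Set X := fun J => {x | ∀ i ∈ J, 0 < f i x ∧ ∀ j, j ∉ J → f j x < f i x}
  have hO : ∀ J, IsOpen (O J) := fun J => by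
    simp only [O, ofPred_forall, ofPred_and]
    exact isOpen_iInter_of_finite fun i => isOpen_iInter_of_finite fun _ =>
      (isOpen_lt continuous_const (f i).continuous).inter (isOpen_iInter_of_finite fun j =>
        isOpen_iInter_of_finite fun _ => isOpen_lt (f j).continuous (f i).continuous)
  have hu : ∀ x J J', x ∈ O J → x ∈ O J' → J.card = J'.card → J = J' := by
    intro x J J' a1 a2 a3
    by_contra a4
    obtain ⟨i, hi, hi'⟩ := Finset.not_subset.1 fun a5 : J ⊆ J' =>
      a4 (Finset.eq_of_subset_of_card_le a5 a3.ge)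
    obtain ⟨j, hj, hj'⟩ := Finset.not_subset.1 fun a5 : J' ⊆ J =>
      a4 (Finset.eq_of_subset_of_card_le a5 a3.le).symm
    exact lt_asymm ((a1 i hi).2 j hj') ((a2 j hj).2 i hi')
  let Ω : Fin (n + 1) → Set X := fun c => ⋃ (J : Finset ι) (_ : J.card = c + 1), O J
  obtain ⟨φ, hφ⟩ := BumpCovering.exists_isSubordinate isClosed_univ Ω
    (fun c => isOpen_iUnion fun J => isOpen_iUnion fun _ => hO J) fun x _ => by
      have a1 : (Finset.univ.filter fun i => 0 < f i x).card ≤ n + 1 := by
        rw [← cnt_eq]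
        exact (cnt_mono fun i => hW i x).trans (h4 x)
      have a2 : 0 < (Finset.univ.filter fun i => 0 < f i x).card :=
        Finset.card_pos.2 ⟨f.ind x (mem_univ x), by simp [f.ind_apply]⟩
      refine mem_iUnion.2 ⟨⟨(Finset.univ.filter fun i => 0 < f i x).card - 1, by omega⟩,
        mem_iUnion₂.2 ⟨_, (Nat.sub_add_cancel a2).symm, fun i hi => ?_⟩⟩
      have a3 := (Finset.mem_filter.1 hi).2
      exact ⟨a3, fun j hj => lt_of_le_of_lt (by simpa using hj) a3⟩
  let lab : Fin (n + 1) → X → Finset ι := fun c x =>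
    if h : ∃ J : Finset ι, J.card = c + 1 ∧ x ∈ O J then h.choose else ∅
  have hl : ∀ c x, 0 < φ c x → (lab c x).card = c + 1 ∧ x ∈ O (lab c x) := fun c x hx => by
    obtain ⟨J, a1, a2⟩ := mem_iUnion₂.1 (hφ c (subset_tsupport _ hx.ne'))
    have a3 : ∃ J : Finset ι, J.card = c + 1 ∧ x ∈ O J := ⟨J, a1, a2⟩
    simp only [lab, dif_pos a3]
    exact a3.choose_spec
  refine ⟨φ, Finset ι, inferInstance, lab, fun c x => ⟨φ.nonneg c x, φ.le_one c x⟩,
    fun x => ⟨φ.ind x (mem_univ x), φ.ind_apply x _⟩, fun c l => ?_, fun c l => ?_⟩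
  · by_cases a1 : l.card = c + 1
    · refine (congrArg IsOpen (Set.ext fun x => ?_)).mp
        ((isOpen_lt (continuous_const (y := (0 : ℝ))) (φ c).continuous).inter (hO l))
      exact ⟨fun a => ⟨a.1, hu x _ _ (hl c x a.1).2 a.2 ((hl c x a.1).1.trans a1.symm)⟩,
        fun a => ⟨a.1, a.2 ▸ (hl c x a.1).2⟩⟩
    · refine (congrArg IsOpen (Set.ext fun x => ?_)).mp isOpen_empty
      exact ⟨fun a => a.elim, fun a => a1 (a.2 ▸ (hl c x a.1).1)⟩
  · rcases l.eq_empty_or_nonempty with rfl | ⟨i, hi⟩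
    · refine hP _ _ (fun x a => ?_) hP0
      have a1 := (hl c x a.1).1
      rw [a.2] at a1
      simp at a1
    · exact hP _ _ (fun x a => hW i x ((a.2 ▸ (hl c x a.1).2 :) i hi).1) (h3 i)

omit [CompactSpace X] in
/-- Index set: triples `(S, Sp, l)`, `S Sp : Finset A`, `l : A → Option Λ`, `S.card ≤ z`,
`l c = none` for `c ∉ Sp`. The open set is the union over `0 < θ ≤ 1` of the `x` with
`|G' x c| < θ` on `S`, `θ < G' x c` on `Sp`, `G' x c < -θ` elsewhere, intersected with
`-2 < G x c ∧ some (lab c x) = l c` for `c ∈ Sp`. A point lies in the set of its zero set. The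
finsets `S` that occur at `x` are sublevel sets of `|G' x|`, so the map to `S.card ∈ range (z + 1)`
is injective. If `G x c = 2` then `1 ≤ G' x c`, so `c ∈ Sp`. -/
theorem zero_count (hP : ∀ s t, s ⊆ t → P t → P s) {A Λ : Type} [Fintype A] [Fintype Λ]
    {G G' : X → A → ℝ} (hG' : Continuous G') (lab : A → X → Λ)
    (ho : ∀ c l, IsOpen {x | -2 < G x c ∧ lab c x = l})
    (hs : ∀ x, P {x' | ∀ c, G x c = 2 → -2 < G x' c ∧ lab c x' = lab c x})
    (hd : ∀ x c, |G' x c - G x c| ≤ 1) {z : ℕ} (hz : ∀ x, cnt (fun c => G' x c = 0) ≤ z) :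
    DLe P z := by
  classical
  let W : {S : Finset A // S.card ≤ z} × (A → Option Λ) → Set X := fun a =>
    (⋃ θ ∈ Ioc (0 : ℝ) 1, ⋂ c, {x | if c ∈ a.1.1 then |G' x c| < θ else
      if a.2 c = none then G' x c < -θ else θ < G' x c}) ∩
    ⋂ c, {x | if c ∈ a.1.1 then a.2 c = none else
      ∀ l, a.2 c = some l → -2 < G x c ∧ lab c x = l}
  have hW : ∀ a x, x ∈ W a ↔ (∃ θ ∈ Ioc (0 : ℝ) 1, ∀ c, if c ∈ a.1.1 then |G' x c| < θ else
      if a.2 c = none then G' x c < -θ else θ < G' x c) ∧ ∀ c, if c ∈ a.1.1 then a.2 c = none else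
      ∀ l, a.2 c = some l → -2 < G x c ∧ lab c x = l := fun a x => by
    simp only [W, mem_inter_iff, mem_iUnion, mem_iInter, mem_ofPred_eq, exists_prop]
  have hc : ∀ c, Continuous fun x => G' x c := fun c => (continuous_apply c).comp hG'
  refine ⟨_, inferInstance, W, fun a => ?_, fun x => ?_, fun a => ?_, fun x => ?_⟩
  · refine (isOpen_biUnion fun θ _ => isOpen_iInter_of_finite fun c => ?_).inter
      (isOpen_iInter_of_finite fun c => ?_)
    · split_ifs
      · exact isOpen_lt (hc c).abs continuous_const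
      · exact isOpen_lt (hc c) continuous_const
      · exact isOpen_lt continuous_const (hc c)
    · split_ifs
      · exact isOpen_const
      · simp only [ofPred_forall]
        exact isOpen_iInter_of_finite fun l => isOpen_iInter_of_finite fun _ => ho c l
  · obtain ⟨θ, a1, a2⟩ : ∃ θ ∈ Ioc (0 : ℝ) 1, ∀ c, G' x c ≠ 0 → θ < |G' x c| := by
      have a3 : ∀ᶠ θ in 𝓝[>] (0 : ℝ), ∀ c, G' x c ≠ 0 → θ < |G' x c| :=
        eventually_all.2 fun c => by
          by_cases a4 : G' x c = 0
          · exact Eventually.of_forall fun _ a5 => (a5 a4).elim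
          · exact ((eventually_lt_nhds (abs_pos.2 a4)).filter_mono nhdsWithin_le_nhds).mono
              fun _ a5 _ => a5
      exact (Eventually.and (Ioc_mem_nhdsGT one_pos) a3).exists
    refine ⟨(⟨Finset.univ.filter fun c => G' x c = 0, by rw [← cnt_eq]; exact hz x⟩,
      fun c => if 0 < G' x c then some (lab c x) else none), (hW _ _).2
        ⟨⟨θ, a1, fun c => ?_⟩, fun c => ?_⟩⟩
    · rcases lt_trichotomy (G' x c) 0 with a3 | a3 | a3
      · have a4 := a2 c a3.ne
        rw [abs_of_neg a3] at a4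
        simp only [Finset.mem_filter, Finset.mem_univ, true_and, a3.ne, if_false,
          a3.not_gt, if_true]
        linarith
      · simpa [a3] using a1.1
      · have a4 := a2 c a3.ne'
        rw [abs_of_pos a3] at a4
        simpa [a3, a3.ne'] using a4
    · by_cases a3 : G' x c = 0
      · simp [a3]
      · simp only [Finset.mem_filter, Finset.mem_univ, true_and, a3, if_false]
        intro l hl
        split_ifs at hl with a4
        have a5 := abs_le.1 (hd x c)
        exact ⟨by linarith [a5.2], Option.some.inj hl⟩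
  · rcases (W a).eq_empty_or_nonempty with a1 | ⟨x, hx⟩
    · exact hP _ _ (a1 ▸ empty_subset _) (hs (Classical.arbitrary X))
    refine hP _ _ ?_ (hs x)
    intro x' hx' c a2
    obtain ⟨⟨θ, a3, a4⟩, a5⟩ := (hW _ _).1 hx
    have a6 := ((hW _ _).1 hx').2 c
    have a7 := abs_le.1 (hd x c)
    have a8 := a4 c
    have a9 := a5 c
    split_ifs at a8 a6 a9 with b1 b2
    · linarith [(abs_lt.1 a8).2, a3.2, a7.1]
    · linarith [a3.1, a7.1]
    · obtain ⟨l, hl⟩ := Option.ne_none_iff_exists'.1 b2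
      exact ⟨(a6 l hl).1, (a6 l hl).2.trans (a9 l hl).2.symm⟩
  · refine le_trans (cnt_le_of_inj (r := fun _ : Fin (z + 1) => True)
      (fun a => ⟨a.1.1.card, Nat.lt_succ_of_le a.1.2⟩) (fun _ _ => trivial)
      fun a b ha hb hab => ?_) ((cnt_le _).trans (by simp))
    obtain ⟨⟨θ, a1, a2⟩, a3⟩ := (hW _ _).1 ha
    obtain ⟨⟨θ', b1, b2⟩, b3⟩ := (hW _ _).1 hb
    have key : ∀ (a : {S : Finset A // S.card ≤ z} × (A → Option Λ)) (θ : ℝ),
        (∀ c, if c ∈ a.1.1 then |G' x c| < θ else
          if a.2 c = none then G' x c < -θ else θ < G' x c) → ∀ c, c ∈ a.1.1 ↔ |G' x c| < θ := by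
      intro a θ h1 c
      have h2 := h1 c
      split_ifs at h2 with h3 h4
      · exact ⟨fun _ => h2, fun _ => h3⟩
      · exact ⟨fun h5 => (h3 h5).elim, fun h5 => by linarith [(abs_lt.1 h5).1]⟩
      · exact ⟨fun h5 => (h3 h5).elim, fun h5 => by linarith [(abs_lt.1 h5).2]⟩
    have c1 : a.1.1.card = b.1.1.card := congrArg Fin.val hab
    have c2 : a.1.1 = b.1.1 := by
      rcases le_total θ θ' with c3 | c3
      · exact Finset.eq_of_subset_of_card_le (fun c hc' =>
          (key b θ' b2 c).2 (((key a θ a2 c).1 hc').trans_le c3)) c1.ge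
      · exact (Finset.eq_of_subset_of_card_le (fun c hc' =>
          (key a θ a2 c).2 (((key b θ' b2 c).1 hc').trans_le c3)) c1.le).symm
    refine Prod.ext (Subtype.ext c2) (funext fun c => ?_)
    have d1 := a2 c
    have d2 := b2 c
    have d3 := a3 c
    have d4 := b3 c
    rw [← c2] at d2 d4
    split_ifs at d1 d2 d3 d4 with e1 e2 e3 e4
    · rw [d3, d4]
    · rw [e2, e3]
    · linarith [a1.1, b1.1]
    · linarith [a1.1, b1.1]
    · obtain ⟨l, hl⟩ := Option.ne_none_iff_exists'.1 e2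
      obtain ⟨l', hl'⟩ := Option.ne_none_iff_exists'.1 e4
      rw [hl, hl', ← (d3 l hl).2, ← (d4 l' hl').2]

end Vale.Agent.P093
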