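import Vale.Agent.P093.Defs

/-! Mean dimension that is witnessed by cubes. -/

open Filter Topology
open scoped ENNReal

noncomputable section

namespace Vale.Agent.P093

variable {X : Type} [TopologicalSpace X]

/-- No member of `V` meets the images of two opposite faces of the cube. -/
def Sep (V : Finset (Set X)) {k : ℕ} (p : C(Fin k → unitInterval, X)) : Prop :=
  ∀ v ∈ V, ∀ i y y', y i = 0 → y' i = 1 → p y ∈ v → p y' ∉ v

/-- The largest dimension of a cube that is separated by `V`. -/
def cub (V : Finset (Set X)) : ℕ := sSup {k : ℕ | ∃ p : C(Fin k → unitInterval, X), Sep V p}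

/-- The cubical mean dimension of a cover. -/
def cubU (h : X ≃ₜ X) (U : Finset (Set X)) : ℝ≥0∞ :=
  limsup (fun N : ℕ => (cub (join h U N) : ℝ≥0∞) / N) atTop

end Vale.Agent.P093
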