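import Vale.Agent.P093.Cor
import Vale.Agent.P093.Defs3
import Vale.Agent.Lib.Brouwer

/-! The covering dimension of cubes. -/

open Filter Topology Set MeasureTheory
open scoped ENNReal NNReal

noncomputable section

namespace Vale.Agent.P093

section
variable {κ : Type} [Fintype κ] {P : Set (κ → unitInterval) → Prop}

theorem cube_surj {g : (κ → unitInterval) → κ → ℝ} (hg : Continuous g)
    (h0 : ∀ y i, y i = 0 → g y i = 0) (h1 : ∀ y i, y i = 1 → g y i = 1) {c : κ → ℝ}
    (hc : ∀ i, c i ∈ Ioo (0 : ℝ) 1) : ∃ y, g y = c := by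
  let r : (κ → ℝ) → κ → unitInterval := fun x i => projIcc 0 1 zero_le_one (x i)
  have hr : Continuous r := continuous_pi fun i => continuous_projIcc.comp (continuous_apply i)
  have h2 : Continuous fun y : κ → unitInterval => (fun i => (y i : ℝ)) - g y + c := by fun_prop
  obtain ⟨C, hC⟩ := isCompact_univ.exists_bound_of_continuousOn h2.continuousOn
  obtain ⟨x, hx⟩ := Lib.Brouwer.exists_fixed _ (h2.comp hr) C fun x => hC _ (mem_univ _)
  refine ⟨r x, funext fun i => ?_⟩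
  have h3 : (r x i : ℝ) - g (r x) i + c i = x i := congrFun hx i
  rcases le_total (x i) 0 with h4 | h4
  · have h5 : r x i = 0 := projIcc_of_le_left _ h4
    rw [h0 _ _ h5, h5] at h3
    simp only [Icc.coe_zero] at h3
    linarith [(hc i).1]
  rcases le_total 1 (x i) with h5 | h5
  · have h6 : r x i = 1 := projIcc_of_right_le _ h5
    rw [h1 _ _ h6, h6] at h3
    simp only [Icc.coe_one] at h3
    linarith [(hc i).2]
  · have h6 : (r x i : ℝ) = x i := congrArg Subtype.val (projIcc_of_mem _ ⟨h4, h5⟩)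
    linarith

/-- The covering lemma of Lebesgue. -/
theorem cube_low {n : ℕ} (hP : DLe P n)
    (hs : ∀ s, P s → ∀ i y y', y i = 0 → y' i = 1 → y ∈ s → y' ∉ s) : Fintype.card κ ≤ n := by
  classical
  obtain ⟨ι, _, W, h1, h2, h3, h4⟩ := hP
  obtain ⟨f, hf⟩ := PartitionOfUnity.exists_isSubordinate isClosed_univ W h1
    fun x _ => mem_iUnion.2 (h2 x)
  have a1 : ∀ x w, f w x ≠ 0 → x ∈ W w := fun x w hx => hf w (subset_tsupport _ hx)
  have a2 : ∀ x, ∑ w, f w x = 1 := fun x => by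
    rw [← finsum_eq_sum_of_fintype]
    exact f.sum_eq_one (mem_univ x)
  let v : ι → κ → ℝ := fun w i => if ∃ y ∈ W w, y i = 0 then 0 else 1
  by_contra hn
  let A : {q : ι × Finset ι // q.2.card ≤ n} → Set (κ → ℝ) := fun q => (· + -v q.1.1) ⁻¹'
    (Submodule.span ℝ (q.1.2.image fun w => v w - v q.1.1 : Finset _) : Submodule ℝ (κ → ℝ))
  have a3 : volume (⋃ q, A q) = 0 := measure_iUnion_null fun q => by
    rw [measure_preimage_add_right]
    refine Measure.addHaar_submodule _ _ fun e => hn ?_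
    have a4 := finrank_span_finset_le_card (R := ℝ) (q.1.2.image fun w => v w - v q.1.1)
    rw [Set.finrank, e, finrank_top, Module.finrank_fintype_fun_eq_card] at a4
    exact a4.trans (Finset.card_image_le.trans q.2)
  refine ((isOpen_set_pi finite_univ fun _ _ => isOpen_Ioo).measure_pos volume
    ⟨fun _ => (1 / 2 : ℝ), fun _ _ => ⟨by norm_num, by norm_num⟩⟩).ne'
    (measure_mono_null (t := ⋃ q, A q) (fun c (hc : c ∈ univ.pi fun _ => Ioo 0 1) => ?_) a3)
  refine (cube_surj (g := fun y => ∑ w, f w y • v w) (by fun_prop) (fun y i hy => ?_)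
    (fun y i hy => ?_) fun i => hc i (mem_univ i)).elim fun y hy => ?_
  rotate_right
  · subst hy
    obtain ⟨w₀, hw⟩ := h2 y
    refine mem_iUnion.2 ⟨⟨(w₀, (Finset.univ.filter fun w => y ∈ W w).erase w₀), ?_⟩, ?_⟩
    · have a4 := h4 y
      rw [cnt_eq] at a4
      rw [Finset.card_erase_of_mem (by simpa using hw)]
      omega
    · have a4 : ∑ w, f w y • v w + -v w₀ = ∑ w, f w y • (v w - v w₀) := by
        simp only [smul_sub, Finset.sum_sub_distrib, ← Finset.sum_smul, a2, one_smul,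
          sub_eq_add_neg (∑ w, f w y • v w)]
      change _ + _ ∈ Submodule.span ℝ _
      rw [a4]
      refine Submodule.sum_mem _ fun w _ => ?_
      by_cases b1 : f w y = 0
      · simp [b1]
      by_cases b2 : w = w₀
      · simp [b2]
      exact Submodule.smul_mem _ _ (Submodule.subset_span (Finset.mem_coe.2
        (Finset.mem_image_of_mem _ (by simpa [b2] using a1 y w b1))))
  · rw [Finset.sum_apply]
    refine Finset.sum_eq_zero fun w _ => ?_
    by_cases b1 : f w y = 0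
    · simp [b1]
    · rw [Pi.smul_apply, show v w i = 0 from if_pos ⟨y, a1 y w b1, hy⟩, smul_zero]
  · rw [Finset.sum_apply, ← a2 y]
    refine Finset.sum_congr rfl fun w _ => ?_
    by_cases b1 : f w y = 0
    · simp [b1]
    · rw [Pi.smul_apply, show v w i = 1 from if_neg fun ⟨y', b2, b3⟩ =>
        hs _ (h3 w) i y' y b3 hy b2 (a1 y w b1), smul_eq_mul, mul_one]

theorem cube_one {δ : ℝ} (hδ : 0 < δ) :
    DLe (fun s : Set unitInterval => ∀ x ∈ s, ∀ y ∈ s, dist x y < δ) 1 := by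
  classical
  obtain ⟨M, hM⟩ := exists_nat_gt (2 / δ)
  have M0 : (0 : ℝ) < M := lt_trans (by positivity) hM
  refine ⟨Fin (M + 1), inferInstance, fun j => {x | |(x : ℝ) * M - (j : ℕ)| < 1},
    fun j => isOpen_lt (by fun_prop) continuous_const, fun x => ?_, fun j x hx y hy => ?_,
    fun x => ?_⟩
  · have h0 : 0 ≤ (x : ℝ) * M := mul_nonneg x.2.1 M0.le
    have h1 : ⌊(x : ℝ) * M⌋₊ ≤ M := Nat.floor_le_of_le (mul_le_of_le_one_left M0.le x.2.2)
    refine ⟨⟨_, Nat.lt_succ_of_le h1⟩,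
      show |(x : ℝ) * M - (⌊(x : ℝ) * M⌋₊ : ℕ)| < 1 from abs_lt.2 ⟨?_, ?_⟩⟩
    · linarith [Nat.floor_le h0]
    · linarith [Nat.lt_floor_add_one ((x : ℝ) * M)]
  · have h1 := abs_lt.1 (show |(x : ℝ) * M - (j : ℕ)| < 1 from hx)
    have h2 := abs_lt.1 (show |(y : ℝ) * M - (j : ℕ)| < 1 from hy)
    rw [div_lt_iff₀ hδ] at hM
    rw [Subtype.dist_eq, Real.dist_eq, abs_lt]
    constructor <;> nlinarith
  · have h0 : 0 ≤ (x : ℝ) * M := mul_nonneg x.2.1 M0.le
    refine (cnt_le_of_inj (r := fun _ : Bool => True)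
      (fun j : Fin (M + 1) => decide ((j : ℝ) ≤ x * M)) (fun _ _ => trivial)
      fun i j hi hj e => ?_).trans ((cnt_le _).trans (by simp))
    have h1 := abs_lt.1 (show |(x : ℝ) * M - (i : ℕ)| < 1 from hi)
    have h2 := abs_lt.1 (show |(x : ℝ) * M - (j : ℕ)| < 1 from hj)
    rw [decide_eq_decide] at e
    have h3 : ((i : ℕ) : ℝ) < (j : ℕ) + 1 ∧ ((j : ℕ) : ℝ) < (i : ℕ) + 1 := by
      by_cases h4 : ((i : ℕ) : ℝ) ≤ x * M
      · have h5 := e.1 h4
        constructor <;> linarith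
      · have h5 := not_le.1 (mt e.2 h4)
        have h6 := not_le.1 h4
        constructor <;> linarith
    norm_cast at h3
    exact Fin.ext (by omega)

theorem cube_up (hP : ∀ s t, s ⊆ t → P t → P s) {δ : ℝ} (hδ : 0 < δ)
    (hb : ∀ y, P (Metric.ball y δ)) : DLe P (Fintype.card κ) := by
  classical
  obtain ⟨φ, Λ, _, lab, hφ⟩ := exists_col
    (fun s t hst ht x hx y hy => ht x (hst hx) y (hst hy)) (cube_one hδ)
  have e : ∀ t : ℝ, -2 < 4 * t - 2 ↔ 0 < t := fun t => ⟨fun _ => by linarith, fun _ => by linarith⟩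
  refine zero_count (A := κ × Fin 2) (G := fun y a => 4 * φ a.2 (y a.1) - 2)
    (G' := fun y a => 4 * φ a.2 (y a.1) - 2) hP (by fun_prop) (fun a y => lab a.2 (y a.1))
    (fun a l => ?_) (fun y => hP _ _ (fun y' hy => ?_) (hb y)) (fun _ _ => by simp) fun y => ?_
  · simp only [e]
    exact (hφ.opn a.2 l).preimage (f := fun y : κ → unitInterval => y a.1) (continuous_apply a.1)
  · refine (dist_pi_lt_iff hδ).2 fun i => ?_
    obtain ⟨c, hc⟩ := hφ.one (y i)
    have h1 := hy (i, c) (by simp only [hc]; norm_num)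
    rw [e] at h1
    exact hφ.small c (lab c (y i)) _ h1 _ ⟨by rw [hc]; exact one_pos, rfl⟩
  · refine (cnt_le_of_inj (r := fun _ : κ => True) Prod.fst (fun _ _ => trivial)
      fun a b ha hb e => ?_).trans (cnt_le _)
    obtain ⟨c, hc⟩ := hφ.one (y a.1)
    have h1 : a.2 ≠ c := fun e' => by rw [e', hc] at ha; norm_num at ha
    have h2 : b.2 ≠ c := fun e' => by rw [e', ← e, hc] at hb; norm_num at hb
    exact Prod.ext e (by omega)

end

variable {X : Type} [MetricSpace X] [CompactSpace X] [Nonempty X] {h : X ≃ₜ X}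

omit [CompactSpace X] [Nonempty X] in
theorem sep_le {U : Finset (Set X)} (hU : IsCov U) (N : ℕ) {k : ℕ}
    {p : C(Fin k → unitInterval, X)} (hp : Sep (join h U N) p) :
    k ≤ Dd ((⟨_, p⟩ : Test X).pull (join h U N)) := by
  have h1 := cube_low ((dle_pull (h := h) hU ⟨_, p⟩ N _).1 le_rfl) fun s hs i y y' a0 a1 b0 b1 =>
    let ⟨v, hv, h2⟩ := cova_mem.2 hs
    hp v hv i y y' a0 a1 (h2 (mem_image_of_mem _ b0)) (h2 (mem_image_of_mem _ b1))
  rwa [Fintype.card_fin] at h1

omit [CompactSpace X] [Nonempty X] in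
theorem pull_cube {V : Finset (Set X)} (hV : IsCov V) (N : ℕ) {k : ℕ}
    (p : C(Fin k → unitInterval, X)) : Dd ((⟨_, p⟩ : Test X).pull (join h V N)) ≤ k := by
  have h1 := cova_join (h := h) hV N
  obtain ⟨δ, hδ, H⟩ := lebesgue_number_lemma_of_metric (c := fun v : join h V N => p ⁻¹' v.1)
    isCompact_univ (fun v => (h1.1 _ v.2).preimage p.continuous) fun y _ =>
      let ⟨v, hv, hx⟩ := h1.2 (p y)
      mem_iUnion.2 ⟨⟨v, hv⟩, hx⟩
  have h2 := cube_up (κ := Fin k) (P := fun t => In h V 0 N (p '' t))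
    (fun s t hst ht => In.anti h (image_mono hst) ht) hδ fun y =>
      let ⟨v, hv⟩ := H y (mem_univ y)
      cova_mem.1 ⟨v.1, v.2, image_subset_iff.2 hv⟩
  rw [Fintype.card_fin] at h2
  exact (dle_pull hV ⟨_, p⟩ N k).2 h2

omit [CompactSpace X] in
theorem cub_test {U : Finset (Set X)} (hU : IsCov U) : ∃ T : ℕ → Test X,
    cubU h U ≤ rel h T U ∧ ∀ V, IsCov V → rel h T V ≤ rel h T U := by
  choose p hp using fun N => Nat.sSup_mem
    (s := {k : ℕ | ∃ p : C(Fin k → unitInterval, X), Sep (join h U N) p})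
    ⟨0, ContinuousMap.const _ (Classical.arbitrary X), fun _ _ i => i.elim0⟩
    ⟨_, fun k ⟨p, hp⟩ => (sep_le hU N hp).trans (pull_le hU _ N)⟩
  have h1 : cubU h U ≤ rel h (fun N => ⟨_, p N⟩) U := limsup_le_limsup
    (Eventually.of_forall fun N =>
      ENNReal.div_le_div_right (Nat.cast_le.2 (sep_le hU N (hp N))) _)
  exact ⟨_, h1, fun V hV => le_trans (limsup_le_limsup (Eventually.of_forall fun N =>
    ENNReal.div_le_div_right (Nat.cast_le.2 (pull_cube hV N (p N))) _)) h1⟩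

theorem cub_cov {U : Finset (Set X)} (hU : IsCov U) (hc : mdimU h U ≤ cubU h U) :
    mdimU h U ≤ rmd h := by
  obtain ⟨T, h1, h2⟩ := cub_test (h := h) hU
  lift mdimU h U to ℝ≥0 using mdimU_ne_top hU with d hd
  exact le_iSup₂ (f := fun (d : ℝ≥0) (_ : Realized h d) => (d : ℝ≥0∞)) d fun η _ =>
    ⟨U, hU, hd.ge.trans le_self_add, T, (hc.trans h1).trans le_self_add, h2⟩

omit [CompactSpace X] in
theorem cub_sup (hf : mdim h ≠ ⊤) (hc : mdim h ≤ ⨆ (U : Finset (Set X)) (_ : IsCov U), cubU h U) :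
    rmd h = mdim h := by
  refine rmd_eq hf fun t ht => ?_
  obtain ⟨U, h1⟩ := lt_iSup_iff.1 (ht.trans_le hc)
  obtain ⟨hU, h2⟩ := lt_iSup_iff.1 h1
  obtain ⟨T, h3, h4⟩ := cub_test (h := h) hU
  exact ⟨U, hU, T, h2.le.trans h3, h4⟩

omit [CompactSpace X] [Nonempty X] in
theorem free_att {D : ℕ} (φ : Fin D → C(X, ℝ)) (J : ∀ N, Finset (Fin N × Fin D))
    (p : ∀ N, C(J N → unitInterval, X))
    (hp : ∀ N y (c : J N), φ c.1.2 ((h ^ (c.1.1 : ℕ)) (p N y)) = y c) :
    ∃ U, IsCov U ∧ limsup (fun N : ℕ => ((J N).card : ℝ≥0∞) / N) atTop ≤ mdimU h U := by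
  classical
  let u : (Fin D → Bool) → Set X := fun σ => ⋂ i, {x | if σ i then 0 < φ i x else φ i x < 1}
  have hU : IsCov (Finset.univ.image u) := by
    refine ⟨fun v hv => ?_, fun x => ⟨u fun i => decide (0 < φ i x),
      Finset.mem_image_of_mem _ (Finset.mem_univ _), mem_iInter.2 fun i => ?_⟩⟩
    · obtain ⟨σ, -, rfl⟩ := Finset.mem_image.1 hv
      refine isOpen_iInter_of_finite fun i => ?_
      cases σ i
      · exact isOpen_lt (φ i).continuous continuous_const
      · exact isOpen_lt continuous_const (φ i).continuous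
    · by_cases h1 : 0 < φ i x
      · simp [h1]
      · simpa [h1] using (not_lt.1 h1).trans_lt one_pos
  refine ⟨_, hU, limsup_le_limsup (Eventually.of_forall fun N =>
    ENNReal.div_le_div_right (Nat.cast_le.2 (le_trans ?_ (pull_le hU ⟨_, p N⟩ N))) _)⟩
  rw [← Fintype.card_coe]
  refine cube_low ((dle_pull (h := h) hU ⟨_, p N⟩ N _).1 le_rfl) fun s hs c y y' a0 a1 b0 b1 => ?_
  obtain ⟨v, hv, h2⟩ := hs c.1.1 c.1.1.2
  obtain ⟨σ, -, rfl⟩ := Finset.mem_image.1 hv
  have h3 := mem_iInter.1 (h2 _ (mem_image_of_mem _ b0)) c.1.2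
  have h4 := mem_iInter.1 (h2 _ (mem_image_of_mem _ b1)) c.1.2
  simp only [zero_add, mem_ofPred_eq, hp, a0, a1] at h3 h4
  split_ifs at h3 h4
  · simp at h3
  · simp at h4

end Vale.Agent.P093
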