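import Vale.Agent.P093.Defs

/-! Mean dimension that is realized on test spaces. -/

open Filter Topology
open scoped ENNReal NNReal

noncomputable section

namespace Vale.Agent.P093

/-- A compact metrizable space with a continuous map to `X`. -/
structure Test (X : Type) [TopologicalSpace X] where
  /-- the space -/
  Y : Type
  [top : TopologicalSpace Y]
  [cpt : CompactSpace Y]
  [met : TopologicalSpace.MetrizableSpace Y]
  /-- the map -/
  p : C(Y, X)

attribute [instance] Test.top Test.cpt Test.met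

variable {X : Type} [TopologicalSpace X]

open Classical in
/-- The pull back of a cover. -/
def Test.pull (T : Test X) (V : Finset (Set X)) : Finset (Set T.Y) := V.image fun v => T.p ⁻¹' v

/-- The mean dimension of a cover, measured on a sequence of test spaces. -/
def rel (h : X ≃ₜ X) (T : ℕ → Test X) (V : Finset (Set X)) : ℝ≥0∞ :=
  limsup (fun N : ℕ => (Dd ((T N).pull (join h V N)) : ℝ≥0∞) / N) atTop

/-- The number `d` is realized. -/
def Realized (h : X ≃ₜ X) (d : ℝ≥0) : Prop :=
  ∀ η : ℝ≥0, 0 < η → ∃ U, IsCov U ∧ mdimU h U ≤ d + η ∧ ∃ T : ℕ → Test X,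
    (d : ℝ≥0∞) ≤ rel h T U + η ∧ ∀ V, IsCov V → rel h T V ≤ rel h T U

/-- The realized mean dimension. -/
def rmd (h : X ≃ₜ X) : ℝ≥0∞ := ⨆ (d : ℝ≥0) (_ : Realized h d), (d : ℝ≥0∞)

/-- The covering dimension. -/
def cdim (Y : Type) [TopologicalSpace Y] : ℝ≥0∞ :=
  ⨆ (V : Finset (Set Y)) (_ : IsCov V), (Dd V : ℝ≥0∞)

end Vale.Agent.P093
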