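import Vale.Agent.P093.Par

/-! The choice of generic parameters. -/

open Filter Topology Set
open scoped ENNReal NNReal Matrix

noncomputable section

namespace Vale.Agent.P093

theorem gen_pat {Ω J A Es C : Type} [Fintype Ω] [Fintype J] [Fintype A] [NormedAddCommGroup Es]
    [NormedSpace ℝ Es] [NormedAddCommGroup C] [NormedSpace ℝ C] {Dj : J → ℕ}
    {E : J → Set ((Ω → ℝ) × (Es × C))} (hE : ∀ j, RPar (Dj j) (E j)) (Y : (Ω → ℝ) →ₗ[ℝ] A → ℝ)
    {Ψ : (J → Es) → A → ℝ} (hΨ : ContDiff ℝ 1 Ψ) (Fa : Finset Ω) (S : Finset A) :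
    Par (Fa.card + (∑ j, Dj j + (Fintype.card A - S.card)))
      {p : (A → ℝ) × (J → C) | ∃ (β : Ω → ℝ) (ε : J → Es), (∀ w ∉ Fa, β w = 0) ∧
        (∀ j, (β, (ε j, p.2 j)) ∈ E j) ∧ ∀ a ∈ S, Y β a + p.1 a = Ψ ε a} := by
  classical
  choose ι _ T f h1 h2 using hE
  let e : (Fa → ℝ) → Ω → ℝ := fun b w => if h : w ∈ Fa then b ⟨w, h⟩ else 0
  have he : ContDiff ℝ 1 e := contDiff_pi.2 fun i => by
    simp only [e]
    split_ifs <;> fun_prop
  have hY : ContDiff ℝ 1 Y := Y.toContinuousLinearMap.contDiff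
  refine (Par.iUnion fun i : ∀ j, ι j =>
    Par.of (F := (Fa → ℝ) × (∀ j, Fin (Dj j) → ℝ) × ({a // a ∉ S} → ℝ)) ?_
    (S := {x | ∀ j, (e x.1, x.2.1 j) ∈ T j (i j)})
    (f := fun x => (fun a => if h : a ∈ S then
      Ψ (fun j => (f j (i j) (e x.1, x.2.1 j)).1) a - Y (e x.1) a else x.2.2 ⟨a, h⟩,
      fun j => (f j (i j) (e x.1, x.2.1 j)).2)) fun x hx => ?_).mono ?_
  · simp [Module.finrank_prod, Module.finrank_pi_fintype]
  · have c : ∀ j, ContDiffAt ℝ 1 (fun x : (Fa → ℝ) × (∀ j, Fin (Dj j) → ℝ) × ({a // a ∉ S} → ℝ) =>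
        f j (i j) (e x.1, x.2.1 j)) x := fun j =>
      (h1 _ _ _ (hx j)).comp x ((he.comp contDiff_fst).prodMk
        (contDiff_pi.1 contDiff_snd.fst j)).contDiffAt
    refine (contDiffAt_pi.2 fun a => ?_).prodMk (contDiffAt_pi.2 fun j => (c j).snd)
    split_ifs
    · exact (contDiffAt_pi.1 (hΨ.contDiffAt.comp x (contDiffAt_pi.2 fun j => (c j).fst)) a).sub
        (ContDiff.contDiffAt (by fun_prop))
    · exact ContDiff.contDiffAt (by fun_prop)
  · rintro ⟨cy, c⟩ ⟨β, ε, g1, g2, g3⟩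
    choose i u g4 g5 using fun j => h2 j _ (g2 j)
    have h3 : e (fun w => β w) = β := by
      funext w
      simp only [e]
      split_ifs with h
      exacts [rfl, (g1 w h).symm]
    refine mem_iUnion.2 ⟨i, (fun w => β w, u, fun a => cy a), ?_, ?_⟩
    · simpa only [mem_ofPred_eq, h3] using g4
    · simp only at g5
      simp only [h3, g5, Prod.mk.injEq, and_true]
      funext a
      split_ifs with h
      exacts [(eq_sub_of_add_eq' (g3 a h)).symm, rfl]

/-- A pattern is a triple of finsets `(Fa, S, G)` of `Ω`, `A`, `J` with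
`Fa.card < S.card + G.card`. Its bad set is the set of the `(cy, c) : (A → ℝ) × (J → C)` such that
there are `β` supported on `Fa` and `ε` with the events, and `Y β a + cy a = Ψ ε a` for `a ∈ S`.
Write `Dj j = if j ∈ G then D else D + 1`. Unfold `RPar` for each `j` (`choose`); for every choice
of pieces `i : ∀ j, ι j` (a countable type) the bad set is covered by the image of a subset of
`(Fa → ℝ) × (∀ j, Fin (Dj j) → ℝ) × ({a // a ∉ S} → ℝ)`, whose dimension is less than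
`card A + card J * (D + 1)`. `Par.of`, `Par.iUnion`, `Par.dense_iUnion`; take a point of the
complement in the ball of radius `δ`. -/
theorem gen {Ω J A Es C : Type} [Fintype Ω] [Fintype J] [Fintype A] [NormedAddCommGroup Es]
    [NormedSpace ℝ Es] [NormedAddCommGroup C] [NormedSpace ℝ C] [FiniteDimensional ℝ C] {D : ℕ}
    (hD : D + 1 = Module.finrank ℝ C) {E1 E3 : J → Set ((Ω → ℝ) × (Es × C))}
    (h1 : ∀ j, RPar D (E1 j)) (h3 : ∀ j, RPar (D + 1) (E3 j)) (Y : (Ω → ℝ) →ₗ[ℝ] A → ℝ)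
    {Ψ : (J → Es) → A → ℝ} (hΨ : ContDiff ℝ 1 Ψ) {δ : ℝ} (hδ : 0 < δ) :
    ∃ (cy : A → ℝ) (c : J → C), ‖cy‖ ≤ δ ∧ ‖c‖ ≤ δ ∧ ∀ (β : Ω → ℝ) (ε : J → Es) (G : J → Prop),
      (∀ j, G j → (β, (ε j, c j)) ∈ E1 j) → (∀ j, ¬G j → (β, (ε j, c j)) ∈ E3 j) →
      cnt (fun a => Y β a + cy a = Ψ ε a) + cnt G ≤ cnt fun w => β w ≠ 0 := by
  classical
  have hd := Par.dense_iUnion (E := (A → ℝ) × (J → C))
    (ι := {x : Finset Ω × Finset A × Finset J // x.1.card < x.2.1.card + x.2.2.card})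
    fun x => ⟨_, ?_, gen_pat (Dj := fun j => if j ∈ x.1.2.2 then D else D + 1)
      (E := fun j => if j ∈ x.1.2.2 then E1 j else E3 j) (fun j => by
        split_ifs
        exacts [h1 j, h3 j]) Y hΨ x.1.1 x.1.2.1⟩
  · obtain ⟨⟨cy, c⟩, hb, hp⟩ := hd.inter_open_nonempty _ Metric.isOpen_ball
      ⟨0, Metric.mem_ball_self hδ⟩
    have hn := (mem_ball_zero_iff.1 hb).le
    refine ⟨cy, c, (norm_fst_le _).trans hn, (norm_snd_le _).trans hn, fun β ε G g1 g3 => ?_⟩
    by_contra hc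
    refine hp (mem_iUnion.2 ⟨⟨(Finset.univ.filter fun w => β w ≠ 0,
      Finset.univ.filter fun a => Y β a + cy a = Ψ ε a, Finset.univ.filter G), ?_⟩, β, ε,
      fun w hw => by simpa using hw, fun j => ?_, fun a ha => by simpa using ha⟩)
    · simpa only [cnt_eq, not_le] using hc
    · simp only [Finset.mem_filter, Finset.mem_univ, true_and]
      split_ifs with h
      exacts [g1 j h, g3 j h]
  · obtain ⟨⟨Fa, S, G⟩, hx⟩ := x
    have e1 : ∑ j, (if j ∈ G then D else D + 1) + G.card = Fintype.card J * (D + 1) := by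
      rw [Finset.card_eq_sum_ite (Finset.subset_univ G), ← Finset.sum_add_distrib,
        ← Finset.card_univ, ← smul_eq_mul, ← Finset.sum_const]
      exact Finset.sum_congr rfl fun j _ => by split_ifs <;> rfl
    have e2 := S.card_le_univ
    simp only [Module.finrank_prod, Module.finrank_pi_fintype, Finset.sum_const, Finset.card_univ,
      smul_eq_mul, ← hD, Module.finrank_self, mul_one] at hx ⊢
    omega

end Vale.Agent.P093
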