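import Vale.Agent.P093.Base

/-! The tube around a product of spheres. -/

open Filter Topology Set
open scoped ENNReal NNReal Matrix

noncomputable section

namespace Vale.Agent.P093

section step

variable {k : ℕ} {lam : Vk k → ℝ} {ee : Vk k → Fin k → ℝ × ℂ}
  {inv : ℝ × (Fin k → ℝ × ℂ) → Vk k}

/-- The radius. -/
def tube_r (v : Vk (k + 1)) : ℝ := √(v.1 ^ 2 + ‖v.2 0‖ ^ 2)

/-- The descent. -/
def tube_d (v : Vk (k + 1)) : Vk k := (4 * tube_r v - 2, Fin.tail v.2)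

/-- The new point of the product of spheres. -/
def tube_e (ee : Vk k → Fin k → ℝ × ℂ) (v : Vk (k + 1)) : Fin (k + 1) → ℝ × ℂ :=
  Fin.cons ((tube_r v)⁻¹ * v.1, (tube_r v)⁻¹ • v.2 0) (ee (tube_d v))

/-- The ascent. -/
def tube_u (w : Vk k) (e : ℝ × ℂ) : Vk (k + 1) :=
  ((w.1 + 2) / 4 * e.1, Fin.cons (((w.1 + 2) / 4) • e.2) w.2)

theorem tube_cr : Continuous (tube_r (k := k)) := by
  unfold tube_r
  fun_prop

theorem tube_cd : Continuous (tube_d (k := k)) :=
  ((continuous_const.mul tube_cr).sub continuous_const).prodMk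
    (continuous_pi fun i => (continuous_apply i.succ).comp continuous_snd)

theorem tube_pos (hT : Tube lam ee inv) {v : Vk (k + 1)} (hv : ‖lam (tube_d v)‖ < 1) :
    0 < tube_r v := by
  have h1 := hT.bd _ _ hv (hT.mem _ hv)
  rw [hT.left _ hv] at h1
  have h2 : |4 * tube_r v - 2| ≤ 1 := (norm_fst_le (tube_d v)).trans h1
  have h3 := (abs_le.1 h2).1
  linarith

theorem tube_s {w : Vk k} (hw : ‖w‖ ≤ 1) : 0 < (w.1 + 2) / 4 ∧ (w.1 + 2) / 4 ≤ 1 := by
  have h2 : |w.1| ≤ 1 := (norm_fst_le w).trans hw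
  have h3 := abs_le.1 h2
  constructor <;> linarith [h3.1, h3.2]

theorem tube_ru {w : Vk k} (hw : ‖w‖ ≤ 1) {e : ℝ × ℂ} (he : e.1 ^ 2 + ‖e.2‖ ^ 2 = 1) :
    tube_r (tube_u w e) = (w.1 + 2) / 4 := by
  have h := (tube_s hw).1
  change √(((w.1 + 2) / 4 * e.1) ^ 2 + ‖((w.1 + 2) / 4) • e.2‖ ^ 2) = _
  rw [norm_smul, Real.norm_of_nonneg h.le, mul_pow, mul_pow, ← mul_add, he, mul_one,
    Real.sqrt_sq h.le]

theorem tube_du {w : Vk k} (hw : ‖w‖ ≤ 1) {e : ℝ × ℂ} (he : e.1 ^ 2 + ‖e.2‖ ^ 2 = 1) :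
    tube_d (tube_u w e) = w := by
  refine Prod.ext ?_ rfl
  change 4 * tube_r (tube_u w e) - 2 = w.1
  rw [tube_ru hw he]
  ring

theorem tube_step (hT : Tube lam ee inv) :
    Tube (fun v => lam (tube_d v)) (tube_e ee)
      fun p => tube_u (inv (p.1, Fin.tail p.2)) (p.2 0) where
  cl := hT.cl.comp tube_cd
  ce := by
    rw [continuousOn_pi]
    refine Fin.cases ?_ fun i => ?_
    · have h : ContinuousOn (fun v : Vk (k + 1) => (tube_r v)⁻¹) {v | ‖lam (tube_d v)‖ < 1} :=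
        tube_cr.continuousOn.inv₀ fun v hv => (tube_pos hT hv).ne'
      exact (h.mul continuous_fst.continuousOn).prodMk
        (h.smul ((continuous_apply 0).comp continuous_snd).continuousOn)
    · exact (continuous_apply i).comp_continuousOn
        (hT.ce.comp tube_cd.continuousOn fun v hv => hv)
  ci := by
    have h1 : ContDiff ℝ 1 fun p : ℝ × (Fin (k + 1) → ℝ × ℂ) => inv (p.1, Fin.tail p.2) :=
      hT.ci.comp (contDiff_fst.prodMk (contDiff_pi.2 fun i =>
        (contDiff_apply ℝ (ℝ × ℂ) i.succ).comp contDiff_snd))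
    have h2 : ContDiff ℝ 1 fun p : ℝ × (Fin (k + 1) → ℝ × ℂ) => p.2 0 :=
      (contDiff_apply ℝ (ℝ × ℂ) 0).comp contDiff_snd
    have h3 := (h1.fst.add (contDiff_const (c := 2))).div_const 4
    refine (h3.mul h2.fst).prodMk (contDiff_pi.2 (Fin.cases ?_ fun i => ?_))
    · exact h3.smul h2.snd
    · exact (contDiff_apply ℝ ℂ i).comp h1.snd
  mem v hv := by
    refine Fin.cases ?_ fun i => hT.mem _ hv i
    have h := tube_pos hT hv
    change ((tube_r v)⁻¹ * v.1) ^ 2 + ‖(tube_r v)⁻¹ • v.2 0‖ ^ 2 = 1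
    have h2 : tube_r v ^ 2 = v.1 ^ 2 + ‖v.2 0‖ ^ 2 := Real.sq_sqrt (by positivity)
    rw [norm_smul, Real.norm_of_nonneg (inv_pos.2 h).le, mul_pow, mul_pow, ← mul_add, ← h2,
      ← mul_pow, inv_mul_cancel₀ h.ne', one_pow]
  left v hv := by
    have h := (tube_pos hT hv).ne'
    change tube_u (inv (lam (tube_d v), ee (tube_d v)))
      ((tube_r v)⁻¹ * v.1, (tube_r v)⁻¹ • v.2 0) = v
    have h2 : ((tube_d v).1 + 2) / 4 = tube_r v := by
      change (4 * tube_r v - 2 + 2) / 4 = _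
      ring
    rw [hT.left _ hv, tube_u, h2, mul_inv_cancel_left₀ h, smul_inv_smul₀ h]
    exact Prod.ext rfl (Fin.cons_self_tail v.2)
  right l e hl he := by
    have he' : Sph (Fin.tail e) := fun i => he i.succ
    have hw := hT.bd l _ hl he'
    have h := (tube_s hw).1.ne'
    refine ⟨?_, ?_⟩
    · rw [tube_du hw (he 0)]
      exact (hT.right l _ hl he').1
    · rw [tube_e, tube_du hw (he 0), tube_ru hw (he 0), (hT.right l _ hl he').2, tube_u]
      dsimp only
      rw [inv_mul_cancel_left₀ h, Fin.cons_zero, inv_smul_smul₀ h]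
      exact Fin.cons_self_tail e
  bd l e hl he := by
    have he' : Sph (Fin.tail e) := fun i => he i.succ
    have hw := hT.bd l _ hl he'
    obtain ⟨h1, h2⟩ := tube_s hw
    have h3 := he 0
    have h4 : |(e 0).1| ≤ 1 := by
      rw [← sq_le_one_iff_abs_le_one]
      nlinarith [sq_nonneg ‖(e 0).2‖]
    have h5 : ‖(e 0).2‖ ≤ 1 := by
      rw [← sq_le_one_iff₀ (norm_nonneg _)]
      nlinarith [sq_nonneg (e 0).1]
    rw [tube_u, Prod.norm_def, max_le_iff, pi_norm_le_iff_of_nonneg zero_le_one]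
    dsimp only
    refine ⟨?_, Fin.cases ?_ fun i => ?_⟩
    · rw [norm_mul, Real.norm_of_nonneg h1.le]
      exact mul_le_one₀ h2 (norm_nonneg _) h4
    · rw [Fin.cons_zero, norm_smul, Real.norm_of_nonneg h1.le]
      exact mul_le_one₀ h2 (norm_nonneg _) h5
    · rw [Fin.cons_succ]
      exact (norm_le_pi_norm _ i).trans ((norm_snd_le _).trans hw)

end step

/-- Induction on `k`. For `k = 0`: `lam v = v.1`, `inv p = (p.1, 0)`. Step: for
`v = (t, z)`, `ρ = √(t ^ 2 + ‖z 0‖ ^ 2)`, `v' = (4 * ρ - 2, Fin.tail z)`: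
`lam' v = lam v'`, `ee' v = Fin.cons (ρ⁻¹ * t, ρ⁻¹ • z 0) (ee v')`, and for
`(t', z') = inv (l, Fin.tail e)`, `s = (t' + 2) / 4`:
`inv' (l, e) = (s * (e 0).1, Fin.cons (s • (e 0).2) z')`. If `|lam v'| < 1` then
`v' = inv (…)` has norm at most `1`, so `1 / 4 ≤ ρ`. -/
theorem exists_tube (k : ℕ) : ∃ (lam : Vk k → ℝ) (ee : Vk k → Fin k → ℝ × ℂ)
    (inv : ℝ × (Fin k → ℝ × ℂ) → Vk k), Tube lam ee inv := by
  induction k with
  | zero =>
    refine ⟨fun v => v.1, fun _ i => i.elim0, fun p => (p.1, 0), continuous_fst,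
      continuousOn_const, contDiff_fst.prodMk contDiff_const, fun _ _ i => i.elim0,
      fun v _ => Prod.ext rfl (Subsingleton.elim _ _),
      fun l e _ _ => ⟨rfl, Subsingleton.elim _ _⟩, fun l e hl _ => ?_⟩
    rw [Prod.norm_def, norm_zero]
    exact max_le hl.le zero_le_one
  | succ k ih =>
    obtain ⟨lam, ee, inv, hT⟩ := ih
    exact ⟨_, _, _, tube_step hT⟩

/-- Products (`pi_norm_lt_iff`). -/
theorem Tube.pi {V Λ I : Type} [NormedAddCommGroup V] [NormedSpace ℝ V] [NormedAddCommGroup Λ]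
    [NormedSpace ℝ Λ] [Fintype I] {lam : V → Λ} {ee : V → I → ℝ × ℂ}
    {inv : Λ × (I → ℝ × ℂ) → V} (hT : Tube lam ee inv) (J : Type) [Fintype J] :
    Tube (V := J → V) (Λ := J → Λ) (I := J × I) (fun v j => lam (v j))
      (fun v a => ee (v a.1) a.2) fun p j => inv (p.1 j, fun i => p.2 (j, i)) := by
  have h1 : ∀ l : J → Λ, ‖l‖ < 1 → ∀ j, ‖l j‖ < 1 := fun l hl j =>
    (norm_le_pi_norm l j).trans_lt hl
  refine ⟨continuous_pi fun j => hT.cl.comp (continuous_apply j), continuousOn_pi.2 fun a => ?_,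
    contDiff_pi.2 fun j => hT.ci.comp ?_, fun v hv a => hT.mem _ (h1 _ hv a.1) a.2,
    fun v hv => funext fun j => hT.left _ (h1 _ hv j), fun l e hl he => ⟨funext fun j => ?_,
      funext fun a => ?_⟩, fun l e hl he => (pi_norm_le_iff_of_nonneg zero_le_one).2 fun j =>
        hT.bd _ _ (h1 l hl j) fun i => he (j, i)⟩
  · exact (continuous_apply a.2).comp_continuousOn
      (hT.ce.comp (continuous_apply a.1).continuousOn fun v hv => h1 _ hv a.1)
  · exact ((contDiff_apply ℝ Λ j).comp contDiff_fst).prodMk (contDiff_pi.2 fun i =>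
      (contDiff_apply ℝ (ℝ × ℂ) (j, i)).comp contDiff_snd)
  · exact (hT.right _ _ (h1 l hl j) fun i => he (j, i)).1
  · exact congrFun (hT.right _ _ (h1 l hl a.1) fun i => he (a.1, i)).2 a.2

end Vale.Agent.P093
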