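import Vale.Agent.P093.SB
import Vale.Agent.P093.Code
import Vale.Agent.P093.Gen
import Vale.Agent.P093.Tube

/-! The finite dimensional theorem. -/

open Filter Topology Set
open scoped ENNReal NNReal Matrix

noncomputable section

namespace Vale.Agent.P093

/-- Two applications of the Markov inequality. -/
theorem fd_count {J B C : Type} [Fintype J] [Fintype B] [Fintype C] (r : (J × B) × C → Prop)
    {e p : ℕ} (G : J → Prop) (hG : ∀ j, ¬G j → p < cnt fun τ => e < cnt fun c => r ((j, τ), c))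
    (h : 2 * cnt r < e * p * Fintype.card J) : Fintype.card J ≤ 2 * cnt G := by
  have h1 : (p + 1) * cnt (fun j => ¬G j) ≤ ∑ j, cnt fun τ => e < cnt fun c => r ((j, τ), c) :=
    (Nat.mul_le_mul_left _ (cnt_mono hG)).trans (cnt_markov _ p)
  have h2 : (e + 1) * ∑ j, cnt (fun τ => e < cnt fun c => r ((j, τ), c)) ≤ cnt r := by
    rw [cnt_prod, Fintype.sum_prod_type, Finset.mul_sum]
    exact Finset.sum_le_sum fun j _ => cnt_markov _ e
  have h3 : (e + 1) * ((p + 1) * cnt fun j => ¬G j) ≤ cnt r :=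
    (Nat.mul_le_mul_left _ h1).trans h2
  have h4 := cnt_add_not G
  have h5 : e * p * Fintype.card J ≤ (e + 1) * (p + 1) * Fintype.card J :=
    Nat.mul_le_mul_right _ (Nat.mul_le_mul (Nat.le_succ _) (Nat.le_succ _))
  have h6 : (e + 1) * (p + 1) * (2 * cnt fun j => ¬G j) < (e + 1) * (p + 1) * Fintype.card J := by
    calc (e + 1) * (p + 1) * (2 * cnt fun j => ¬G j)
        = 2 * ((e + 1) * ((p + 1) * cnt fun j => ¬G j)) := by ring
      _ ≤ 2 * cnt r := Nat.mul_le_mul_left _ h3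
      _ < _ := h.trans_le h5
  have h7 := Nat.lt_of_mul_lt_mul_left h6
  omega

/-- The concatenated code. -/
theorem fd_code {V : Type} [NormedAddCommGroup V] [NormedSpace ℝ V] {K e : ℕ}
    {φ : V →ₗ[ℝ] Fin K → ℝ} (hφ : Cd φ (2 * e)) (Ic Pc J : Type) [Fintype Ic] [Fintype Pc]
    [Fintype J] : ∃ (ext : (J × Ic → V) →ₗ[ℝ] J × (Ic ⊕ Pc) → V)
      (Φ : (J × Ic → V) →ₗ[ℝ] (J × (Ic ⊕ Pc)) × Fin K → ℝ),
      (∀ v j i, ext v (j, Sum.inl i) = v (j, i)) ∧ (∀ v τ, ‖ext v τ‖ ≤ ‖v‖) ∧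
      (∀ v a, Φ v a = φ (ext v a.1) a.2) ∧
      Cd Φ (2 * (e * Fintype.card Pc * Fintype.card J / 2)) := by
  obtain ⟨ex, h1, h2, h3⟩ := exists_outer (V := V) (J × Ic) (J × Pc)
  let σ := Equiv.prodSumDistrib J Ic Pc
  let ext : (J × Ic → V) →ₗ[ℝ] J × (Ic ⊕ Pc) → V := LinearMap.funLeft ℝ V σ ∘ₗ ex
  refine ⟨ext, LinearMap.pi fun a => LinearMap.proj a.2 ∘ₗ φ ∘ₗ LinearMap.proj a.1 ∘ₗ ext,
    fun v j i => h1 v (j, i), fun v τ => (norm_le_pi_norm (ex v) (σ τ)).trans (h2 v),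
    fun _ _ => rfl, fun v hv => ?_⟩
  have e1 : Fintype.card (J × Pc) < cnt fun τ => ext v τ ≠ 0 :=
    (h3 v hv).trans_eq (cnt_equiv σ fun c => ex v c ≠ 0).symm
  have e2 : (2 * e + 1) * cnt (fun τ => ext v τ ≠ 0) ≤ ∑ τ, cnt fun c => φ (ext v τ) c ≠ 0 :=
    (Nat.mul_le_mul_left _ (cnt_mono fun τ h => hφ _ h)).trans (cnt_markov _ (2 * e))
  rw [cnt_prod]
  refine lt_of_lt_of_le ?_ e2
  rw [Fintype.card_prod] at e1
  calc 2 * (e * Fintype.card Pc * Fintype.card J / 2) ≤ e * Fintype.card Pc * Fintype.card J :=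
        Nat.mul_div_le _ _
    _ = e * (Fintype.card J * Fintype.card Pc) := by ring
    _ ≤ (2 * e + 1) * (Fintype.card J * Fintype.card Pc) := Nat.mul_le_mul_right _ (by omega)
    _ < _ := Nat.mul_lt_mul_of_pos_left e1 (by omega)

/-- Let `ext` be the outer code for `A = J × Ic`, `P = J × Pc`, read on `J × (Ic ⊕ Pc)`
(`Equiv.prodSumDistrib`), `Φ v (τ, c) = φ (ext v τ) c`; its distance is more than
`e * card Pc * card J` (`cnt_prod`), `dec` decodes up to `e * card Pc * card J / 2` errors. Apply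
`sb` to `hT.pi Ic`, then `gen` with `A = (J × (Ic ⊕ Pc)) × Fin K ⊕ S`,
`Ψ ε = Sum.elim (Φ fun a => inv (0, fun l => ε a.1 (a.2, l))) 0` and
`δ = min δ₀ (min δy (1 / 4))`. Put `y x = Y (β x) + cy`, `v x = dec (y x ∘ inl)`,
`v* x (j, i) = vs j (β x, fun i => v x (j, i)) i`, `G' x = y x - Sum.elim (Φ (v* x)) 0`.
If the first alternative fails, `y x` is within the decoding radius of `Φ (v* x)`, so
`v x = v* x`; `sb` gives `ε j`; let `G j` be the event `E1`. A cell is bad if it has more than `e`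
errors; less than half of the `j` have more than `card Pc` bad cells (`cnt_markov` twice), and
the other `j` satisfy `G j` by `hI`. -/
theorem fd {k K e T n : ℕ} {lam : Vk k → ℝ} {ee : Vk k → Fin k → ℝ × ℂ}
    {inv : ℝ × (Fin k → ℝ × ℂ) → Vk k} (hT : Tube lam ee inv) {φ : Vk k →ₗ[ℝ] Fin K → ℝ}
    (hφ : Cd φ (2 * e)) (hn : ∀ v, ‖φ v‖ ≤ ‖v‖ / 12) {Ic Pc J S Ω X : Type} [Fintype Ic]
    [DecidableEq Ic] [Fintype Pc] [Fintype J] [Fintype S] [Fintype Ω] [TopologicalSpace X]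
    {σ δy : ℝ} (hσ : 0 < σ) (hδ : 0 < δy) {β : X → Ω → ℝ} (hβ : Continuous β)
    (hc : ∀ x, cnt (fun w => β x w ≠ 0) ≤ n + 1)
    (Y : (Ω → ℝ) →ₗ[ℝ] (J × (Ic ⊕ Pc)) × Fin K ⊕ S → ℝ)
    {F : J → (Ω → ℝ) × (Ic × Fin k → ℝ × ℂ) → Fin (T + 1) → Ef (Ic × Fin k) T}
    (hF : ∀ j, ContDiff ℝ 1 (F j))
    (hr : ∀ j z t, Sph z.2 → PM z.2 *ᵥ xi (F j z t) = xi (F j z t))
    (hI : ∀ x j (ε : Ic × Fin k → ℝ × ℂ) (y : Ic ⊕ Pc → Fin K → ℝ) (u : Ic ⊕ Pc → Vk k), Sph ε →
      (∀ τ c, |y τ c - Y (β x) (Sum.inl ((j, τ), c))| ≤ δy) →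
      (∀ i, u (Sum.inl i) = inv (0, fun l => ε (i, l))) → (∀ τ, ‖u τ‖ ≤ 3) →
      cnt (fun τ => e < cnt fun c => y τ c ≠ φ (u τ) c) ≤ Fintype.card Pc →
      Ind σ (F j (β x, ε))) :
    ∃ G' : X → (J × (Ic ⊕ Pc)) × Fin K ⊕ S → ℝ, Continuous G' ∧
      (∀ x a, |G' x a - Y (β x) a| ≤ 1 / 2) ∧ ∀ x,
        2 * cnt (fun a => G' x (Sum.inl a) = 0) + e * Fintype.card Pc * Fintype.card J ≤
          2 * (Fintype.card J * (Fintype.card Ic + Fintype.card Pc) * K) ∨
        2 * cnt (fun a => G' x a = 0) + Fintype.card J ≤ 2 * (n + 1) := by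
  obtain ⟨ext, Φ, x1, x2, x3, x4⟩ := fd_code hφ Ic Pc J
  obtain ⟨dec, d1, d2, d3⟩ := exists_dec x4
  obtain ⟨δ₀, hδ₀, D, hD, hsb⟩ := sb (hT.pi Ic) T hσ
  choose E1 E3 p1 p3 hvs using fun j => hsb (Ω → ℝ) (F j) (hF j) (hr j)
  let W : (J → Ic × Fin k → ℝ × ℂ) → J × Ic → Vk k := fun ε a => inv (0, fun l => ε a.1 (a.2, l))
  have hW : ContDiff ℝ 1 W := contDiff_pi.2 fun a => hT.ci.comp (contDiff_const.prodMk
    (contDiff_pi.2 fun l => (contDiff_apply ℝ _ (a.2, l)).comp (contDiff_apply ℝ _ a.1)))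
  have hΦ : ContDiff ℝ 1 Φ := (LinearMap.toContinuousLinearMap Φ).contDiff
  have hΨ : ContDiff ℝ 1 fun ε => (Sum.elim (Φ (W ε)) 0 : (J × (Ic ⊕ Pc)) × Fin K ⊕ S → ℝ) :=
    contDiff_pi.2 fun a => by
      rcases a with a | a
      · exact (contDiff_apply ℝ _ a).comp (hΦ.comp hW)
      · exact contDiff_const
  obtain ⟨cy, c, n1, n2, hg⟩ := gen hD p1 p3 Y hΨ
    (δ := min δ₀ (min δy (1 / 4))) (lt_min hδ₀ (lt_min hδ (by norm_num)))
  choose vs v1 v2 v3 using fun j =>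
    hvs j (c j) ((norm_le_pi_norm c j).trans (n2.trans (min_le_left _ _)))
  have hcy : ∀ a, |cy a| ≤ min δy (1 / 4) := fun a =>
    (norm_le_pi_norm cy a).trans (n1.trans (min_le_right _ _))
  let y : X → (J × (Ic ⊕ Pc)) × Fin K ⊕ S → ℝ := fun x => Y (β x) + cy
  have hy : Continuous y := (Y.continuous_of_finiteDimensional.comp hβ).add continuous_const
  let v : X → J × Ic → Vk k := fun x => dec fun a => y x (Sum.inl a)
  have hv : Continuous v := d1.comp (continuous_pi fun a => (continuous_apply _).comp hy)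
  let w : X → J × Ic → Vk k := fun x a => vs a.1 (β x, fun i => v x (a.1, i)) a.2
  have hw : Continuous w := continuous_pi fun a => (continuous_apply a.2).comp ((v1 a.1).comp
    (hβ.prodMk (continuous_pi fun i => (continuous_apply _).comp hv)))
  have hw3 : ∀ x, ‖w x‖ ≤ 3 := fun x => (pi_norm_le_iff_of_nonneg (by norm_num)).2 fun a =>
    (norm_le_pi_norm _ a.2).trans (v2 a.1 _ ((pi_norm_le_iff_of_nonneg (by norm_num)).2 fun i =>
      (norm_le_pi_norm (v x) (a.1, i)).trans (d2 _)))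
  refine ⟨fun x => y x - Sum.elim (Φ (w x)) 0, hy.sub (continuous_pi fun a => ?_), fun x a => ?_,
    fun x => ?_⟩
  · rcases a with a | a
    · exact (continuous_apply a).comp (hΦ.continuous.comp hw)
    · exact continuous_const
  · have h1 := (hcy a).trans (min_le_right _ _)
    rcases a with a | a
    · have h2 : |Φ (w x) a| ≤ 1 / 4 := by
        rw [x3]
        have h3 := (norm_le_pi_norm _ a.2).trans (hn (ext (w x) a.1))
        have h4 := (x2 (w x) a.1).trans (hw3 x)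
        rw [Real.norm_eq_abs] at h3
        linarith
      have h3 : Y (β x) (Sum.inl a) + cy (Sum.inl a) - Φ (w x) a - Y (β x) (Sum.inl a) =
          cy (Sum.inl a) - Φ (w x) a := by ring
      change |Y (β x) (Sum.inl a) + cy (Sum.inl a) - Φ (w x) a - Y (β x) (Sum.inl a)| ≤ _
      rw [h3]
      linarith [abs_sub (cy (Sum.inl a)) (Φ (w x) a)]
    · change |Y (β x) (Sum.inr a) + cy (Sum.inr a) - 0 - Y (β x) (Sum.inr a)| ≤ _
      rw [sub_zero, add_sub_cancel_left]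
      linarith
  · refine (le_or_gt _ _).imp id fun hlt => ?_
    have c1 := cnt_add_not fun a : (J × (Ic ⊕ Pc)) × Fin K => y x (Sum.inl a) = Φ (w x) a
    have c2 : cnt (fun a : (J × (Ic ⊕ Pc)) × Fin K =>
        (y x - Sum.elim (Φ (w x)) 0 : _ → ℝ) (Sum.inl a) = 0) =
        cnt fun a : (J × (Ic ⊕ Pc)) × Fin K => y x (Sum.inl a) = Φ (w x) a :=
      cnt_congr fun a => sub_eq_zero
    rw [Fintype.card_prod, Fintype.card_prod, Fintype.card_sum, Fintype.card_fin] at c1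
    rw [c2] at hlt
    have c3 : 2 * cnt (fun a : (J × (Ic ⊕ Pc)) × Fin K => y x (Sum.inl a) ≠ Φ (w x) a) <
        e * Fintype.card Pc * Fintype.card J := by
      change 2 * cnt (fun a : (J × (Ic ⊕ Pc)) × Fin K => ¬y x (Sum.inl a) = Φ (w x) a) < _
      omega
    have hvw : v x = w x := d3 _ _ (hw3 x) (by omega)
    choose ε s1 s2 s3 using fun j => v3 j (β x) (fun i => v x (j, i))
      (funext fun i => (congrFun hvw (j, i)).symm)
    have hWε : W ε = w x := by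
      rw [← hvw]
      exact funext fun a => (congrFun (s2 a.1) a.2).symm
    have g1 := hg (β x) ε (fun j => (β x, (ε j, c j)) ∈ E1 j) (fun _ h => h)
      fun j h => ((s3 j).resolve_left h).1
    have g2 : Fintype.card J ≤ 2 * cnt fun j => (β x, (ε j, c j)) ∈ E1 j := by
      refine fd_count _ _ (fun j h => not_le.1 fun hle => ((s3 j).resolve_left h).2 ?_) c3
      refine hI x j (ε j) (fun τ c => y x (Sum.inl ((j, τ), c))) (fun τ => ext (w x) (j, τ))
        (s1 j) (fun τ c => ?_) (fun i => ?_) (fun τ => (x2 _ _).trans (hw3 x)) ?_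
      · change |Y (β x) (Sum.inl ((j, τ), c)) + cy _ - Y (β x) (Sum.inl ((j, τ), c))| ≤ _
        rw [add_sub_cancel_left]
        exact (hcy _).trans (min_le_left _ _)
      · rw [x1, ← hWε]
      · simpa only [x3] using hle
    have g3 : cnt (fun a => (y x - Sum.elim (Φ (w x)) 0 : _ → ℝ) a = 0) =
        cnt fun a => Y (β x) a + cy a = (Sum.elim (Φ (W ε)) 0 : _ → ℝ) a := by
      rw [hWε]
      exact cnt_congr fun a => sub_eq_zero
    have g4 := hc x
    rw [g3]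
    omega

end Vale.Agent.P093
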