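import Vale.Agent.P093.Pw

/-! The raw frames of a superblock. -/

open Filter Topology Set
open scoped ENNReal NNReal Matrix

noncomputable section

namespace Vale.Agent.P093

/-- The indices of the raw vectors. -/
abbrev Rw (Ic Pc : Type) (k W : ℕ) : Type :=
  (Ic × Fin k) × Fin 2 ⊕ (Pc × (Fin k × Fin 2) ⊕ Fin W)

/-- The part of a raw vector in a cell. -/
def cellv {Ic Pc : Type} {k W : ℕ} (w : Rw Ic Pc k W → ℂ) : Ic ⊕ Pc → Fin k × Fin 2 → ℂ
  | Sum.inl i => fun a => w (Sum.inl ((i, a.1), a.2))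
  | Sum.inr p => fun a => w (Sum.inr (Sum.inl (p, a)))

variable {X : Type} [TopologicalSpace X]

/-- Raw frames. -/
structure Rf (h : X ≃ₜ X) (L : ℕ) (ψ : C(X, ℝ)) {k : ℕ}
    (Q : X → Matrix (Fin k × Fin 2) (Fin k × Fin 2) ℂ) (θ : X → ℝ) {Ic Pc : Type} [Fintype Ic]
    [Fintype Pc] (pos : Ic ⊕ Pc → ℕ) {T W : ℕ} (R : X → Fin (T + 1) → Rw Ic Pc k W → ℂ)
    (σ C : ℝ) : Prop where
  pos' : 0 < σ
  nn : 0 ≤ C
  cont : Continuous R
  low : ∀ x, Ind σ (R x)
  cell : ∀ x (α : Fin (T + 1) → ℂ) τ l, l < L → 0 < ψ ((h ^ (pos τ * L + l)) x) →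
    ∃ g : Fin k × Fin 2 → ℂ, ‖g‖ ≤ C * ‖α‖ ∧
      cellv (∑ t, α t • R x t) τ = Q ((h ^ (pos τ * L + l)) x) *ᵥ g
  site : ∀ x (α : Fin (T + 1) → ℂ) (n : Fin W), θ ((h ^ (n : ℕ)) x) = 0 →
    (∑ t, α t • R x t) (Sum.inr (Sum.inr n)) = 0

section Aux

variable (h : X ≃ₜ X) {k : ℕ} (M : ℕ) (Q : X → Matrix (Fin k × Fin 2) (Fin k × Fin 2) ℂ)
  (θ : X → ℝ) (f : Option (Fin k × Fin 2) → ℤ → C(X, ℂ))

/-- The output at time `n`. -/
def frame_out (x : X) (t n : ℕ) (i : Option (Fin k × Fin 2)) : ℂ :=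
  ∑ j, BB (Q ((h ^ n) x)) (θ ((h ^ n) x)) i j * f j ((n : ℤ) - (M + t)) ((h ^ n) x)

/-- The raw vectors. -/
def frame_R (L : ℕ) {Ic Pc : Type} (pos : Ic ⊕ Pc → ℕ) (T W : ℕ) (x : X) (t : Fin (T + 1)) :
    Rw Ic Pc k W → ℂ
  | Sum.inl a => ∑ l ∈ Finset.range L,
      frame_out h M Q θ f x t (pos (Sum.inl a.1.1) * L + l) (some (a.1.2, a.2))
  | Sum.inr (Sum.inl a) => ∑ l ∈ Finset.range L,
      frame_out h M Q θ f x t (pos (Sum.inr a.1) * L + l) (some a.2)
  | Sum.inr (Sum.inr n) => frame_out h M Q θ f x t n none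

/-- The input at time `n`. -/
def frame_g {T : ℕ} (x : X) (α : Fin (T + 1) → ℂ) (n : ℕ) (j : Option (Fin k × Fin 2)) : ℂ :=
  ∑ t : Fin (T + 1), f j ((n : ℤ) - (M + (t : ℕ))) ((h ^ n) x) * α t

theorem frame_sum {T : ℕ} (x : X) (α : Fin (T + 1) → ℂ) (n : ℕ) (i : Option (Fin k × Fin 2)) :
    ∑ t, α t * frame_out h M Q θ f x t n i =
      ∑ j, BB (Q ((h ^ n) x)) (θ ((h ^ n) x)) i j * frame_g h M f x α n j := by
  simp only [frame_out, frame_g, Finset.mul_sum]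
  rw [Finset.sum_comm]
  exact Finset.sum_congr rfl fun j _ => Finset.sum_congr rfl fun t _ => by ring

theorem frame_some {κ : Type} [Fintype κ] (P : Matrix κ κ ℂ) (c : ℝ) (g : Option κ → ℂ) (a : κ) :
    ∑ j, BB P c (some a) j * g j = (P *ᵥ fun b => g (some b)) a := by
  simp [Fintype.sum_option, BB, Matrix.mulVec, dotProduct]

theorem frame_none {κ : Type} [Fintype κ] (P : Matrix κ κ ℂ) (c : ℝ) (g : Option κ → ℂ) :
    ∑ j, BB P c none j * g j = c * g none := by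
  simp [Fintype.sum_option, BB]

theorem frame_cellv (L : ℕ) {Ic Pc : Type} (pos : Ic ⊕ Pc → ℕ) (T W : ℕ) (x : X)
    (α : Fin (T + 1) → ℂ) (τ : Ic ⊕ Pc) (a : Fin k × Fin 2) :
    cellv (∑ t, α t • frame_R h M Q θ f L pos T W x t) τ a = ∑ l ∈ Finset.range L,
      (Q ((h ^ (pos τ * L + l)) x) *ᵥ fun b => frame_g h M f x α (pos τ * L + l) (some b)) a := by
  rw [Finset.sum_congr rfl fun l _ => ((frame_sum h M Q θ f x α (pos τ * L + l) (some a)).trans
    (frame_some _ _ _ a)).symm, Finset.sum_comm]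
  rcases τ with i | p <;>
    simp only [cellv, Finset.sum_apply, Pi.smul_apply, smul_eq_mul, frame_R, Finset.mul_sum]

theorem frame_site (L : ℕ) {Ic Pc : Type} (pos : Ic ⊕ Pc → ℕ) (T W : ℕ) (x : X)
    (α : Fin (T + 1) → ℂ) (n : Fin W) :
    (∑ t, α t • frame_R h M Q θ f L pos T W x t) (Sum.inr (Sum.inr n)) =
      θ ((h ^ (n : ℕ)) x) * frame_g h M f x α n none := by
  rw [← frame_none (Q ((h ^ (n : ℕ)) x)), ← frame_sum]
  simp only [Finset.sum_apply, Pi.smul_apply, smul_eq_mul, frame_R]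

variable {h Q θ} in
theorem frame_cont (hQ : Continuous Q) (hθ : Continuous θ) (t n : ℕ)
    (i : Option (Fin k × Fin 2)) : Continuous fun x => frame_out h M Q θ f x t n i := by
  have hc := (h ^ n).continuous
  refine continuous_finset_sum _ fun j _ => Continuous.mul ?_ ((f _ _).continuous.comp hc)
  rcases i with _ | a <;> rcases j with _ | b
  · exact Complex.continuous_ofReal.comp (hθ.comp hc)
  · exact continuous_const
  · exact continuous_const
  · exact (hQ.comp hc).matrix_elem a b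

variable {h Q} in
theorem frame_cell {L : ℕ} {ψ : C(X, ℝ)} (hψ : Mk h L ψ) (h0 : ∀ x, ψ x = 0 → Q x = 0)
    {Ic Pc : Type} (pos : Ic ⊕ Pc → ℕ) (T W : ℕ) (x : X) (α : Fin (T + 1) → ℂ) (τ : Ic ⊕ Pc)
    {l : ℕ} (hl : l < L) (hp : 0 < ψ ((h ^ (pos τ * L + l)) x)) :
    cellv (∑ t, α t • frame_R h M Q θ f L pos T W x t) τ =
      Q ((h ^ (pos τ * L + l)) x) *ᵥ fun b => frame_g h M f x α (pos τ * L + l) (some b) := by
  funext a
  rw [frame_cellv, Finset.sum_eq_single l (fun l' hl' hne => ?_)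
    fun hn => absurd (Finset.mem_range.2 hl) hn]
  have h1 := Finset.mem_range.1 hl'
  rw [h0 _ ((hψ.mem _).1.eq_or_lt.resolve_right fun h2 => hne ?_).symm, Matrix.zero_mulVec,
    Pi.zero_apply]
  rw [pw_cast] at hp h2
  have h3 := hψ.zsep x h2 hp (by rw [abs_lt]; constructor <;> push_cast <;> omega)
  omega

theorem frame_cellv_le {Ic Pc : Type} [Fintype Ic] [Fintype Pc] {W : ℕ} (w : Rw Ic Pc k W → ℂ)
    (τ : Ic ⊕ Pc) (a : Fin k × Fin 2) : ‖cellv w τ a‖ ≤ ‖w‖ := by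
  rcases τ with i | p
  · exact norm_le_pi_norm w _
  · exact norm_le_pi_norm w _

variable {h Q} in
theorem frame_le {L m : ℕ} {ψ : C(X, ℝ)} (hψ : Mk h L ψ) (h0 : ∀ x, ψ x = 0 → Q x = 0)
    {Ic Pc : Type} [Fintype Ic] [Fintype Pc] (pos : Ic ⊕ Pc ≃ Fin m) (T : ℕ) (x : X)
    (α : Fin (T + 1) → ℂ) {n : ℕ} (hn : n < m * L) (i : Option (Fin k × Fin 2)) :
    ‖∑ j, BB (Q ((h ^ n) x)) (θ ((h ^ n) x)) i j * frame_g h M f x α n j‖ ≤
      ‖∑ t, α t • frame_R h M Q θ f L (fun τ => pos τ) T (m * L + L) x t‖ := by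
  rcases i with _ | a
  · rw [frame_none, ← frame_site h M Q θ f L (fun τ => pos τ) T (m * L + L) x α
      ⟨n, hn.trans_le (Nat.le_add_right _ _)⟩]
    exact norm_le_pi_norm _ _
  · rw [frame_some]
    rcases (hψ.mem ((h ^ n) x)).1.eq_or_lt with h1 | h1
    · rw [h0 _ h1.symm, Matrix.zero_mulVec, Pi.zero_apply, norm_zero]
      exact norm_nonneg _
    · have hL : 0 < L := Nat.pos_of_ne_zero fun e => by simp [e] at hn
      obtain ⟨τ, hτ⟩ := pos.surjective ⟨n / L, Nat.div_lt_of_lt_mul (mul_comm m L ▸ hn)⟩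
      have e : (pos τ : ℕ) * L + n % L = n := by
        rw [hτ]
        exact Nat.div_add_mod' n L
      have h2 := frame_cell M θ f hψ h0 (fun τ => pos τ) T (m * L + L) x α τ
        (Nat.mod_lt n hL) (by rw [e]; exact h1)
      simp only [e] at h2
      rw [← h2]
      exact frame_cellv_le _ _ _

variable {h Q θ M f} in
theorem frame_low {σ₀ : ℝ} (hf : Fr h (fun x => BB (Q x) (θ x)) M f σ₀) {N T : ℕ}
    (hT : T + 1 + 2 * M ≤ N) (x : X) (α : Fin (T + 1) → ℂ) :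
    σ₀ * ∑ t, ‖α t‖ ^ 2 ≤ ∑ n ∈ Finset.range N, ∑ i,
      ‖∑ j, BB (Q ((h ^ n) x)) (θ ((h ^ n) x)) i j * frame_g h M f x α n j‖ ^ 2 := by
  classical
  have hi : Function.Injective fun t : Fin (T + 1) => (M : ℤ) + (t : ℕ) := fun a b e =>
    Fin.ext (by simpa using e)
  have h1 := hf.low x (Finset.univ.image fun t : Fin (T + 1) => (M : ℤ) + (t : ℕ))
    (Function.extend (fun t : Fin (T + 1) => (M : ℤ) + (t : ℕ)) α 0)
    ((Finset.range N).image fun n : ℕ => (n : ℤ)) (fun n hn s hs => by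
      obtain ⟨t, -, rfl⟩ := Finset.mem_image.1 hn
      have h2 := t.2
      rw [abs_le] at hs
      exact Finset.mem_image.2 ⟨((M : ℤ) + (t : ℕ) + s).toNat, Finset.mem_range.2 (by omega),
        by omega⟩)
  simp only [Finset.sum_image fun a _ b _ e => hi e,
    Finset.sum_image fun a _ b _ e => Nat.cast_injective (R := ℤ) e, hi.extend_apply,
    zpow_natCast] at h1
  exact h1

theorem frame_bound [CompactSpace X] (hs : ∀ i s, (M : ℤ) < |s| → f i s = 0) :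
    ∃ B : ℝ, 0 ≤ B ∧ ∀ j s y, ‖f j s y‖ ≤ B := by
  refine ⟨∑ j, ∑ s ∈ Finset.Icc (-(M : ℤ)) M, ‖f j s‖, by positivity, fun j s y => ?_⟩
  by_cases h1 : (M : ℤ) < |s|
  · rw [hs j s h1, ContinuousMap.zero_apply, norm_zero]
    positivity
  · refine ((f j s).norm_coe_le_norm y).trans (le_trans ?_ (Finset.single_le_sum
      (f := fun j => ∑ s ∈ Finset.Icc (-(M : ℤ)) M, ‖f j s‖) (fun j _ => by positivity)
      (Finset.mem_univ j)))
    exact Finset.single_le_sum (f := fun s => ‖f j s‖) (fun _ _ => norm_nonneg _)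
      (Finset.mem_Icc.2 (abs_le.1 (not_lt.1 h1)))

end Aux

/-- Let `out x t n i = ∑ j, BB … ((h ^ n) x) i j * f j (n - (M + t)) ((h ^ n) x)` for `n : ℕ`.
The coordinate of `R x t` in the cell `τ` is `∑ l < L, out x t (pos τ * L + l) (some a)`, the
coordinate at the site `n` is `out x t n none`. In each cell at most one `l` has `0 < ψ`
(`Mk.zsep`), for the others `Q = 0`; so every `‖∑ t, α t * out x t n i‖`, `n < m * L`, is at most
`‖∑ t, α t • R x t‖` (write `n = pos τ * L + l`). Apply `Fr.low` with `A` the image of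
`t ↦ M + t`, `A'` the image of `range (m * L)`. `C = (T + 1) * (bound of the f j s)`. -/
theorem exists_rf [CompactSpace X] {h : X ≃ₜ X} {L k M m T : ℕ} {ψ : C(X, ℝ)} (hψ : Mk h L ψ)
    {Q : X → Matrix (Fin k × Fin 2) (Fin k × Fin 2) ℂ} {θ : X → ℝ} (hQ : Continuous Q)
    (hθ : Continuous θ) (h0 : ∀ x, ψ x = 0 → Q x = 0)
    {f : Option (Fin k × Fin 2) → ℤ → C(X, ℂ)} {σ₀ : ℝ}
    (hf : Fr h (fun x => BB (Q x) (θ x)) M f σ₀) {Ic Pc : Type} [Fintype Ic] [Fintype Pc]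
    (pos : Ic ⊕ Pc ≃ Fin m) (hT : T + 1 + 2 * M ≤ m * L) :
    ∃ (R : X → Fin (T + 1) → Rw Ic Pc k (m * L + L) → ℂ) (σ C : ℝ),
      Rf h L ψ Q θ (fun τ => pos τ) R σ C := by
  obtain ⟨B, hB, hb⟩ := frame_bound M f hf.supp
  have hσ := hf.pos
  set N : ℝ := (m * L : ℕ) * (Fintype.card (Option (Fin k × Fin 2)) : ℝ) + 1 with hN
  have hN0 : 0 < N := by positivity
  refine ⟨frame_R h M Q θ f L (fun τ => pos τ) T (m * L + L), √(σ₀ / N), (T + 1 : ℕ) * B,
    by positivity, by positivity, ?_, fun x α => ?_, fun x α τ l hl hp => ?_, fun x α n hn => ?_⟩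
  · refine continuous_pi fun t => continuous_pi fun w => ?_
    rcases w with a | a | n
    · exact continuous_finset_sum _ fun l _ => frame_cont M f hQ hθ _ _ _
    · exact continuous_finset_sum _ fun l _ => frame_cont M f hQ hθ _ _ _
    · exact frame_cont M f hQ hθ _ _ _
  · have h1 := frame_low hf hT x α
    set v := ∑ t, α t • frame_R h M Q θ f L (fun τ => pos τ) T (m * L + L) x t
    have h2 : ∑ n ∈ Finset.range (m * L), ∑ i,
        ‖∑ j, BB (Q ((h ^ n) x)) (θ ((h ^ n) x)) i j * frame_g h M f x α n j‖ ^ 2 ≤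
        ∑ n ∈ Finset.range (m * L), ∑ i : Option (Fin k × Fin 2), ‖v‖ ^ 2 :=
      Finset.sum_le_sum fun n hn => Finset.sum_le_sum fun i _ =>
        pow_le_pow_left₀ (norm_nonneg _)
          (frame_le M θ f hψ h0 pos T x α (Finset.mem_range.1 hn) i) 2
    rw [Finset.sum_const, Finset.sum_const, Finset.card_range, Finset.card_univ, nsmul_eq_mul,
      nsmul_eq_mul] at h2
    have h3 : ‖α‖ ^ 2 ≤ ∑ t, ‖α t‖ ^ 2 := by
      refine (Real.le_sqrt (norm_nonneg _) (by positivity)).1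
        ((pi_norm_le_iff_of_nonneg (Real.sqrt_nonneg _)).2 fun t => Real.le_sqrt_of_sq_le ?_)
      exact Finset.single_le_sum (f := fun t => ‖α t‖ ^ 2) (fun _ _ => sq_nonneg _)
        (Finset.mem_univ t)
    refine le_of_sq_le_sq ?_ (norm_nonneg v)
    rw [mul_pow, Real.sq_sqrt (by positivity), div_mul_eq_mul_div, div_le_iff₀ hN0, hN]
    nlinarith [mul_le_mul_of_nonneg_left h3 hσ.le, sq_nonneg ‖v‖]
  · refine ⟨_, ?_, frame_cell M θ f hψ h0 (fun τ => pos τ) T (m * L + L) x α τ hl hp⟩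
    refine (pi_norm_le_iff_of_nonneg (by positivity)).2 fun b => (norm_sum_le _ _).trans ?_
    refine (Finset.sum_le_card_nsmul _ _ (B * ‖α‖) fun t _ => ?_).trans_eq ?_
    · rw [norm_mul]
      exact mul_le_mul (hb _ _ _) (norm_le_pi_norm α t) (norm_nonneg _) hB
    · rw [Finset.card_univ, Fintype.card_fin, nsmul_eq_mul, mul_assoc]
  · rw [frame_site, hn, Complex.ofReal_zero, zero_mul]

end Vale.Agent.P093
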