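import Vale.Agent.P093.Sph

/-! The step of Hopf. -/

open Filter Topology Set
open scoped ENNReal NNReal Matrix

noncomputable section

namespace Vale.Agent.P093

/-- `(min 1 (infEDist x s)).toReal`. -/
theorem exists_zero_set {Z : Type} [PseudoMetricSpace Z] {s : Set Z} (hs : IsClosed s) :
    ∃ f : Z → ℝ, Continuous f ∧ (∀ x, f x ∈ Icc (0 : ℝ) 1) ∧ ∀ x, f x = 0 ↔ x ∈ s := by
  refine ⟨fun x => (min 1 (Metric.infEDist x s)).toReal, ?_, fun x => ⟨ENNReal.toReal_nonneg, ?_⟩,
    fun x => ?_⟩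
  · refine ENNReal.continuousOn_toReal.comp_continuous
      (continuous_const.min Metric.continuous_infEDist) fun x => ?_
    exact ne_top_of_le_ne_top ENNReal.one_ne_top (min_le_left _ _)
  · exact ENNReal.toReal_le_of_le_ofReal zero_le_one (by simp)
  · rw [ENNReal.toReal_eq_zero_iff, ← hs.closure_eq, Metric.mem_closure_iff_infEDist_zero,
      hs.closure_eq]
    constructor
    · rintro (h | h)
      · rcases min_eq_iff.1 h with h | h
        · exact absurd h.1 one_ne_zero
        · exact h.1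
      · exact absurd h (ne_top_of_le_ne_top ENNReal.one_ne_top (min_le_left _ _))
    · intro h
      left
      rw [h]
      simp


/-- The set of the zeros of a family with a compact parameter is closed. -/
theorem hopf_closed {Z E : Type} [PseudoMetricSpace Z] [NormedAddCommGroup E] [NormedSpace ℂ E]
    {a c : Z → E} {Y : Set Z} {θ : ℝ} (hY : ∀ z ∈ Y, ∃ μ ∈ Icc (0 : ℝ) θ, a z + (μ : ℂ) • c z = 0)
    {z : Z} (hz : z ∈ closure Y) (ha : ContinuousAt a z) (hc : ContinuousAt c z) :
    ∃ μ ∈ Icc (0 : ℝ) θ, a z + (μ : ℂ) • c z = 0 := by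
  obtain ⟨u, hu, hl⟩ := mem_closure_iff_seq_limit.1 hz
  choose μ hμ h0 using fun n => hY (u n) (hu n)
  obtain ⟨ν, hν, φ, hφ, hn⟩ := isCompact_Icc.tendsto_subseq hμ
  refine ⟨ν, hν, ?_⟩
  have h1 : Tendsto (u ∘ φ) atTop (𝓝 z) := hl.comp hφ.tendsto_atTop
  have h2 := (ha.tendsto.comp h1).add
    (((Complex.continuous_ofReal.tendsto ν).comp hn).smul (hc.tendsto.comp h1))
  refine tendsto_nhds_unique h2 ?_
  refine tendsto_const_nhds.congr fun n => ?_
  exact (h0 (φ n)).symm

/-- The gluing argument. -/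
theorem hopf_glue {Z V : Type} [TopologicalSpace Z] [NormedAddCommGroup V] [NormedSpace ℝ V]
    {f1 f2 : Z → ℝ} (c1 : Continuous f1) (c2 : Continuous f2) (p1 : ∀ z, 0 ≤ f1 z)
    (p2 : ∀ z, 0 ≤ f2 z) {v v' : Z → V} (cv : Continuous v) {v₀ : V}
    (hW : ∀ z, f2 z ≠ 0 → ContinuousAt v' z) (h0 : ∀ z, f2 z < f1 z → v' z = v z)
    (hb : ∀ z, ‖v' z - v₀‖ ≤ ‖v z‖ + 2) :
    Continuous fun z => ((f1 z + f2 z) / 2) • (v' z - v₀) := by
  have cm : Continuous fun z => (f1 z + f2 z) / 2 := (c1.add c2).div_const 2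
  refine continuous_iff_continuousAt.2 fun z => ?_
  by_cases h2 : f2 z = 0
  · by_cases h1 : f1 z = 0
    · have e0 : ((f1 z + f2 z) / 2) • (v' z - v₀) = 0 := by simp [h1, h2]
      unfold ContinuousAt
      beta_reduce
      rw [e0]
      refine squeeze_zero_norm (a := fun w => (f1 w + f2 w) / 2 * (‖v w‖ + 2)) (fun w => ?_) ?_
      · have h3 : 0 ≤ (f1 w + f2 w) / 2 := div_nonneg (add_nonneg (p1 w) (p2 w)) zero_le_two
        rw [norm_smul, Real.norm_of_nonneg h3]
        exact mul_le_mul_of_nonneg_left (hb w) h3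
      · have h3 := (cm.mul (cv.norm.add (continuous_const (y := (2 : ℝ))))).tendsto z
        simp only [Pi.mul_apply, h1, h2, add_zero, zero_div, zero_mul] at h3
        exact h3
    · have h3 : f2 z < f1 z := by
        rw [h2]
        exact lt_of_le_of_ne (p1 z) (Ne.symm h1)
      have h4 : ∀ᶠ w in 𝓝 z, f2 w < f1 w := c2.continuousAt.eventually_lt c1.continuousAt h3
      have h5 : ContinuousAt (fun w => ((f1 w + f2 w) / 2) • (v w - v₀)) z :=
        cm.continuousAt.smul (cv.continuousAt.sub continuousAt_const)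
      refine h5.congr (h4.mono fun w hw => ?_)
      simp only [h0 w hw]
  · exact cm.continuousAt.smul ((hW z h2).sub continuousAt_const)

theorem hopf_ne {x : ℝ} (h : x ≠ -1) : 1 + (x : ℂ) ≠ 0 := by
  intro h1
  apply h
  have h2 : ((1 + x : ℝ) : ℂ) = 0 := by
    push_cast
    exact h1
  have h3 := Complex.ofReal_eq_zero.1 h2
  linarith

/-- For `z = (b, v)` write `e = ee v`. Open sets: `O = {‖lam v‖ < 1, (b, e) ∈ Dm}`,
`W = O ∩ {∀ i, (e i).1 ≠ -1}`. `Y = {z ∈ O | lam v = 0, ∃ μ ∈ [0, θ], s0 e + μ • s (b, e) = 0}`;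
`closure Y ∩ O = Y` (compactness of `[0, θ]`). Let `f1`, `f2` have the zero sets `closure Y`,
`Wᶜ`; `m = (f1 + f2) / 2`; `ϑ = θ * max 0 (2 * f2 / (f1 + f2) - 1)`;
`v' = if z ∈ W then inv (lam v, fun i => st ((e i).2 / (1 + (e i).1) +
ϑ * (2 * s (b, e) (i, 0) / (1 + (e i).1)))) else v`; `v₀ = inv (0, fun _ => (1, 0))`;
`vs z = v - m • (v' - v₀)`. Where `ϑ = 0` one has `v' = v` (`st_left`, `Tube.left`), and
`‖v' - v₀‖ ≤ ‖v‖ + 2`. Continuity: on `W`; near a point of `Wᶜ` with `f1 ≠ 0` one has `ϑ = 0`;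
at a point with `m = 0` squeeze. If `vs z = v`: either `m = 0`, so `z ∈ closure Y \ W` (first or
second case, `s0_south`), or `v' = v₀`: in `W` this gives `z ∈ Y` (`Tube.right`, `st_north`,
`chart_zero`), so `ϑ = θ`, third case; outside `W` it gives `v = v₀`, first case. -/
theorem hopf {V Λ I B : Type} [NormedAddCommGroup V] [NormedSpace ℝ V] [NormedAddCommGroup Λ]
    [NormedSpace ℝ Λ] [Fintype I] [DecidableEq I] [NormedAddCommGroup B] {lam : V → Λ}
    {ee : V → I → ℝ × ℂ} {inv : Λ × (I → ℝ × ℂ) → V} (hT : Tube lam ee inv)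
    {Dm : Set (B × (I → ℝ × ℂ))} (hD : IsOpen Dm) {s : B × (I → ℝ × ℂ) → I × Fin 2 → ℂ}
    (hs : ContinuousOn s Dm) (hr : ∀ z, Sph z.2 → PM z.2 *ᵥ s z = s z) {θ : ℝ} (hθ : 0 < θ) :
    ∃ vs : B × V → V, Continuous vs ∧ (∀ z, ‖z.2‖ ≤ 3 → ‖vs z‖ ≤ 3) ∧ ∀ b v, vs (b, v) = v →
      ∃ e, Sph e ∧ v = inv (0, e) ∧ ((b, e) ∉ Dm ∨
        ((b, e) ∈ Dm ∧ (∃ i, (e i).1 = -1) ∧ ∃ μ : ℝ, s (b, e) = (μ : ℂ) • s0 e) ∨
        ((b, e) ∈ Dm ∧ s (b, e) = ((-θ⁻¹ : ℝ) : ℂ) • s0 e)) := by
  classical
  let g : B × V → B × (I → ℝ × ℂ) := fun z => (z.1, ee z.2)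
  have hU : IsOpen {z : B × V | ‖lam z.2‖ < 1} :=
    isOpen_lt (hT.cl.comp continuous_snd).norm continuous_const
  have cg : ContinuousOn g {z : B × V | ‖lam z.2‖ < 1} :=
    continuousOn_fst.prodMk (hT.ce.comp continuousOn_snd fun z hz => hz)
  have hS : IsOpen {p : B × (I → ℝ × ℂ) | ∀ i, (p.2 i).1 ≠ -1} := by
    rw [Set.ofPred_forall]
    exact isOpen_iInter_of_finite fun i => isOpen_ne_fun (by fun_prop) continuous_const
  let W : Set (B × V) := {z : B × V | ‖lam z.2‖ < 1} ∩ g ⁻¹' (Dm ∩ {p | ∀ i, (p.2 i).1 ≠ -1})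
  have hW : IsOpen W := cg.isOpen_inter_preimage hU (hD.inter hS)
  let Y : Set (B × V) :=
    {z | lam z.2 = 0 ∧ ∃ μ ∈ Icc (0 : ℝ) θ, s0 (ee z.2) + (μ : ℂ) • s (g z) = 0}
  obtain ⟨f1, c1, p1, z1⟩ := exists_zero_set (isClosed_closure (s := Y))
  obtain ⟨f2, c2, p2, z2⟩ := exists_zero_set hW.isClosed_compl
  let ϑ : B × V → ℝ := fun z => θ * max 0 (2 * f2 z / (f1 z + f2 z) - 1)
  let w : B × V → I → ℂ := fun z i => (ee z.2 i).2 / (1 + ((ee z.2 i).1 : ℂ)) +
    ϑ z * (2 * s (g z) (i, 0) / (1 + ((ee z.2 i).1 : ℂ)))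
  let u : B × V → V := fun z => inv (lam z.2, fun i => st (w z i))
  let v' : B × V → V := fun z => if z ∈ W then u z else z.2
  let n : I → ℝ × ℂ := fun _ => (1, 0)
  have hn : Sph n := fun i => by simp [n]
  have h01 : ‖(0 : Λ)‖ < 1 := by simp
  have bn : ‖inv (0, n)‖ ≤ 1 := hT.bd 0 n h01 hn
  have bu : ∀ z ∈ W, ‖u z‖ ≤ 1 := fun z hz => hT.bd _ _ hz.1 (sph_st _)
  have inW : ∀ z ∈ W, v' z = u z := fun z hz => if_pos hz
  have outW : ∀ z ∉ W, v' z = z.2 := fun z hz => if_neg hz
  have cgz : ∀ z : B × V, ‖lam z.2‖ < 1 → ContinuousAt g z := fun z hz =>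
    cg.continuousAt (hU.mem_nhds hz)
  have hm : ∀ z, 0 ≤ (f1 z + f2 z) / 2 ∧ (f1 z + f2 z) / 2 ≤ 1 := fun z =>
    ⟨by linarith [(p1 z).1, (p2 z).1], by linarith [(p1 z).2, (p2 z).2]⟩
  refine ⟨fun z => z.2 - ((f1 z + f2 z) / 2) • (v' z - inv (0, n)), ?_, fun z hz => ?_,
    fun b v h => ?_⟩
  · refine continuous_snd.sub (hopf_glue c1 c2 (fun z => (p1 z).1) (fun z => (p2 z).1)
      continuous_snd (fun z hz => ?_) (fun z hz => ?_) fun z => ?_)
    · have hz' : z ∈ W := by
        by_contra h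
        exact hz ((z2 z).2 h)
      have h1 : f1 z + f2 z ≠ 0 := by
        have h2 : 0 < f2 z := lt_of_le_of_ne (p2 z).1 (Ne.symm hz)
        linarith [(p1 z).1]
      have ct : ContinuousAt ϑ z := continuousAt_const.mul (continuousAt_const.max
        (((continuousAt_const.mul c2.continuousAt).div (c1.add c2).continuousAt h1).sub
          continuousAt_const))
      have ce : ContinuousAt (fun z : B × V => ee z.2) z := (cgz z hz'.1).snd
      have cs : ContinuousAt (fun z => s (g z)) z :=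
        ContinuousAt.comp (hs.continuousAt (hD.mem_nhds hz'.2.1)) (cgz z hz'.1)
      have cw : ∀ i, ContinuousAt (fun z => w z i) z := by
        intro i
        have ci : ContinuousAt (fun z : B × V => ee z.2 i) z := (continuous_apply i).continuousAt.comp ce
        have cd : ContinuousAt (fun z : B × V => 1 + ((ee z.2 i).1 : ℂ)) z :=
          continuousAt_const.add (Complex.continuous_ofReal.continuousAt.comp ci.fst)
        have nd := hopf_ne (hz'.2.2 i)
        have c0 : ContinuousAt (fun z => s (g z) (i, 0)) z :=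
          (continuous_apply (i, 0)).continuousAt.comp cs
        exact (ci.snd.div cd nd).add ((Complex.continuous_ofReal.continuousAt.comp ct).mul
          ((continuousAt_const.mul c0).div cd nd))
      have cu : ContinuousAt u z := hT.ci.continuous.continuousAt.comp
        ((hT.cl.comp continuous_snd).continuousAt.prodMk (continuousAt_pi.2 fun i =>
          contDiff_st.continuous.continuousAt.comp (cw i)))
      refine cu.congr ?_
      filter_upwards [hW.mem_nhds hz'] with y hy
      exact (inW y hy).symm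
    · by_cases hz' : z ∈ W
      · have h1 : 0 < f1 z + f2 z := by linarith [(p2 z).1]
        have h2 : 2 * f2 z / (f1 z + f2 z) - 1 ≤ 0 := by
          rw [sub_nonpos, div_le_one h1]
          linarith
        have h3 : ϑ z = 0 := by simp only [ϑ, max_eq_left h2, mul_zero]
        have h4 : (fun i => st (w z i)) = ee z.2 := by
          funext i
          simp only [w, h3, Complex.ofReal_zero, zero_mul, add_zero]
          exact st_left (hT.mem _ hz'.1) (hz'.2.2 i)
        rw [inW z hz']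
        simp only [u, h4]
        exact hT.left _ hz'.1
      · exact outW z hz'
    · refine (norm_sub_le _ _).trans ?_
      by_cases hz' : z ∈ W
      · rw [inW z hz']
        linarith [bu z hz', norm_nonneg z.2]
      · rw [outW z hz']
        linarith
  · obtain ⟨m0, m1⟩ := hm z
    by_cases hz' : z ∈ W
    · have h1 : ‖z.2‖ ≤ 1 := by
        rw [← hT.left _ hz'.1]
        exact hT.bd _ _ hz'.1 (hT.mem _ hz'.1)
      have h2 : ‖v' z - inv (0, n)‖ ≤ 2 := by
        rw [inW z hz']
        linarith [bu z hz', norm_sub_le (u z) (inv (0, n))]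
      refine (norm_sub_le _ _).trans ?_
      rw [norm_smul, Real.norm_of_nonneg m0]
      nlinarith [norm_nonneg (v' z - inv (0, n))]
    · have h1 : z.2 - ((f1 z + f2 z) / 2) • (v' z - inv (0, n)) =
          (1 - (f1 z + f2 z) / 2) • z.2 + ((f1 z + f2 z) / 2) • inv (0, n) := by
        rw [outW z hz']
        module
      beta_reduce
      rw [h1]
      refine (norm_add_le _ _).trans ?_
      rw [norm_smul, norm_smul, Real.norm_of_nonneg m0, Real.norm_of_nonneg (sub_nonneg.2 m1)]
      nlinarith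
  · have h1 : ((f1 (b, v) + f2 (b, v)) / 2) • (v' (b, v) - inv (0, n)) = 0 := sub_eq_self.1 h
    rcases smul_eq_zero.1 h1 with h2 | h2
    · have e1 : f1 (b, v) = 0 := by linarith [(p1 (b, v)).1, (p2 (b, v)).1]
      have e2 : f2 (b, v) = 0 := by linarith [(p1 (b, v)).1, (p2 (b, v)).1]
      have hY := (z1 _).1 e1
      have hl : lam v = 0 :=
        closure_minimal (t := {z : B × V | lam z.2 = 0}) (fun z hz => hz.1)
          (isClosed_eq (hT.cl.comp continuous_snd) continuous_const) hY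
      have hl1 : ‖lam v‖ < 1 := by
        rw [hl]
        exact h01
      refine ⟨ee v, hT.mem v hl1, ?_, ?_⟩
      · rw [← hl]
        exact (hT.left v hl1).symm
      by_cases hd : (b, ee v) ∈ Dm
      · have hi : ∃ i, (ee v i).1 = -1 := by
          by_contra hc
          exact (z2 _).1 e2 ⟨hl1, hd, fun i hi => hc ⟨i, hi⟩⟩
        obtain ⟨μ, -, h3⟩ := hopf_closed (a := fun z : B × V => s0 (ee z.2)) (c := fun z => s (g z))
          (fun z hz => hz.2) hY (contDiff_s0.continuous.continuousAt.comp (cgz (b, v) hl1).snd)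
          (ContinuousAt.comp (hs.continuousAt (hD.mem_nhds hd)) (cgz (b, v) hl1))
        have h4 : s0 (ee v) + (μ : ℂ) • s (b, ee v) = 0 := h3
        have h5 : (μ : ℂ) ≠ 0 := by
          intro h6
          obtain ⟨i, hi⟩ := hi
          rw [h6, zero_smul, add_zero] at h4
          exact s0_south hi h4
        refine Or.inr (Or.inl ⟨hd, hi, -μ⁻¹, ?_⟩)
        rw [eq_neg_of_add_eq_zero_left h4, smul_neg, smul_smul]
        push_cast
        rw [neg_mul, inv_mul_cancel₀ h5]
        simp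
      · exact Or.inl hd
    · have h3 : v' (b, v) = inv (0, n) := sub_eq_zero.1 h2
      by_cases hz' : (b, v) ∈ W
      · rw [inW _ hz'] at h3
        have r1 := hT.right (lam v) (fun i => st (w (b, v) i)) hz'.1 (sph_st _)
        have r2 := hT.right 0 n h01 hn
        have h4 : inv (lam v, fun i => st (w (b, v) i)) = inv (0, n) := h3
        rw [h4] at r1
        have hl : lam v = 0 := r1.1.symm.trans r2.1
        have h5 : ∀ i, w (b, v) i = 0 := fun i =>
          st_north.1 (congrFun (r1.2.symm.trans r2.2) i)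
        have he := hT.mem v hz'.1
        have h6 : s0 (ee v) + (ϑ (b, v) : ℂ) • s (b, ee v) = 0 :=
          chart_zero he hz'.2.2 (hr (b, ee v) he) h5
        have h7 : 0 < f2 (b, v) :=
          lt_of_le_of_ne (p2 _).1 fun h8 => (z2 _).1 h8.symm hz'
        have h8 : ϑ (b, v) ∈ Icc (0 : ℝ) θ := by
          refine ⟨mul_nonneg hθ.le (le_max_left _ _), mul_le_of_le_one_right hθ.le ?_⟩
          refine max_le zero_le_one ?_
          rw [sub_le_iff_le_add, div_le_iff₀ (by linarith [(p1 (b, v)).1])]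
          linarith [(p1 (b, v)).1]
        have h9 : f1 (b, v) = 0 := (z1 _).2 (subset_closure ⟨hl, _, h8, h6⟩)
        have h10 : ϑ (b, v) = θ := by
          simp only [ϑ, h9, zero_add]
          rw [mul_div_assoc, div_self h7.ne']
          norm_num
        rw [h10] at h6
        refine ⟨ee v, he, ?_, Or.inr (Or.inr ⟨hz'.2.1, ?_⟩)⟩
        · rw [← hl]
          exact (hT.left v hz'.1).symm
        · have h11 : (θ : ℂ) ≠ 0 := Complex.ofReal_ne_zero.2 hθ.ne'
          rw [eq_neg_of_add_eq_zero_left h6, smul_neg, smul_smul]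
          push_cast
          rw [neg_mul, inv_mul_cancel₀ h11]
          simp
      · rw [outW _ hz'] at h3
        have h4 : v = inv (0, n) := h3
        refine ⟨n, hn, h4, Or.inl fun hd => hz' ?_⟩
        have r2 := hT.right 0 n h01 hn
        rw [← h4] at r2
        refine ⟨?_, ?_, fun i => ?_⟩
        · show ‖lam v‖ < 1
          rw [r2.1]
          exact h01
        · show (b, ee v) ∈ Dm
          rw [r2.2]
          exact hd
        · show (ee v i).1 ≠ -1
          rw [r2.2]
          norm_num [n]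


end Vale.Agent.P093
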