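import Vale.Agent.P093.Pw

/-! The coordinate functions and the trace estimate. -/

open Filter Topology Set
open scoped ENNReal NNReal Matrix

noncomputable section

namespace Vale.Agent.P093

variable {X : Type} [TopologicalSpace X] {h : X ≃ₜ X} {L K ρ : ℕ} {ψ : C(X, ℝ)}
  {φ : Fin K → C(X, ℝ)}

theorem continuous_yy : Continuous (yy ψ φ) := by
  refine continuous_pi fun c => ?_
  unfold yy
  fun_prop

theorem continuous_g0 : Continuous (g0 h L ψ φ) := by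
  refine continuous_pi fun c => ?_
  unfold g0
  fun_prop

theorem continuous_g1 : Continuous (g1 h L ψ φ) := by
  refine continuous_pi fun c => ?_
  unfold g1
  fun_prop

theorem continuous_ps : Continuous (ps ψ) := by
  unfold ps
  fun_prop

theorem continuous_th : Continuous (th h ρ ψ) := by
  unfold th ps
  fun_prop

theorem Mk.ps_mem (hψ : Mk h L ψ) (x : X) : ps ψ x ∈ Icc (0 : ℝ) 1 :=
  ⟨le_min zero_le_one (by linarith [(hψ.mem x).1]), min_le_left _ _⟩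

theorem loc_fwd (hψ : Mk h L ψ) (x : X) {a b : ℕ} (ha : a < L) (hb : b < L)
    (h1 : 0 < ψ ((h ^ a) x)) (h2 : 0 < ψ ((h ^ b) x)) : a = b := by
  rw [pw_cast] at h1 h2
  have := hψ.zsep x h1 h2 (by rw [abs_lt]; omega)
  omega

theorem loc_bwd (hψ : Mk h L ψ) (x : X) {a b : ℕ} (ha : a < L) (hb : b < L)
    (h1 : 0 < ψ ((h⁻¹ ^ a) x)) (h2 : 0 < ψ ((h⁻¹ ^ b) x)) : a = b := by
  rw [inv_pw] at h1 h2
  have := hψ.zsep x h1 h2 (by rw [abs_lt]; omega)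
  omega

theorem loc_sum_mem {n : ℕ} {F : ℕ → ℝ} (hF : ∀ i, F i ∈ Icc (0 : ℝ) 1)
    (hu : ∀ i < n, ∀ j < n, F i ≠ 0 → F j ≠ 0 → i = j) :
    ∑ i ∈ Finset.range n, F i ∈ Icc (0 : ℝ) 1 := by
  by_cases hz : ∃ i < n, F i ≠ 0
  · obtain ⟨i, hi, h1⟩ := hz
    rw [Finset.sum_eq_single i]
    · exact hF i
    · intro j hj hji
      by_contra h2
      exact hji (hu j (Finset.mem_range.1 hj) i hi h2 h1)
    · intro h2
      exact (h2 (Finset.mem_range.2 hi)).elim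
  · rw [Finset.sum_eq_zero]
    · exact ⟨le_rfl, zero_le_one⟩
    · intro i hi
      by_contra h2
      exact hz ⟨i, Finset.mem_range.1 hi, h2⟩

theorem loc_zero (hψ : Mk h L ψ) {x : X} (hx : ¬0 < ψ x) : ψ x = 0 :=
  le_antisymm (not_lt.1 hx) (hψ.mem x).1

theorem loc_ps_pos (hψ : Mk h L ψ) {x : X} (hx : ps ψ x ≠ 0) : 0 < ψ x := by
  by_contra h1
  apply hx
  rw [ps, loc_zero hψ h1]
  norm_num

theorem loc_cancel (i : ℕ) (x : X) : (h⁻¹ ^ i) ((h ^ i) x) = x := by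
  rw [inv_pw, pw_cast, ← zpw_add, neg_add_cancel, zpw_zero]

/-- At most one term of the sum is not zero (`Mk.zsep`). -/
theorem Mk.th_mem (hψ : Mk h L ψ) (hρ : ρ ≤ L) (x : X) : th h ρ ψ x ∈ Icc (0 : ℝ) 1 := by
  have h1 : ∑ i ∈ Finset.range ρ, ps ψ ((h⁻¹ ^ i) x) ∈ Icc (0 : ℝ) 1 :=
    loc_sum_mem (fun i => hψ.ps_mem _) fun i hi j hj h1 h2 =>
      loc_bwd hψ x (by omega) (by omega) (loc_ps_pos hψ h1) (loc_ps_pos hψ h2)
  unfold th
  exact ⟨by linarith [h1.2], by linarith [h1.1]⟩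

theorem Mk.th_zero (hψ : Mk h L ψ) (hρ : ρ ≤ L) {x : X} (hx : ps ψ x = 1) {i : ℕ} (hi : i < ρ) :
    th h ρ ψ ((h ^ i) x) = 0 := by
  have h1 := (hψ.th_mem hρ ((h ^ i) x)).1
  have h2 : ps ψ ((h⁻¹ ^ i) ((h ^ i) x)) ≤
      ∑ j ∈ Finset.range ρ, ps ψ ((h⁻¹ ^ j) ((h ^ i) x)) :=
    Finset.single_le_sum (f := fun j => ps ψ ((h⁻¹ ^ j) ((h ^ i) x)))
      (fun j _ => (hψ.ps_mem _).1) (Finset.mem_range.2 hi)
  rw [loc_cancel, hx] at h2
  refine le_antisymm ?_ h1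
  unfold th
  linarith

theorem Mk.g0_eq (hψ : Mk h L ψ) {x : X} {l : ℕ} (hl : l < L) (hx : 0 < ψ ((h ^ l) x)) :
    g0 h L ψ φ x = yy ψ φ ((h ^ l) x) := by
  funext c
  unfold g0 yy
  rw [Finset.sum_eq_single l]
  · intro j hj hjl
    have h1 : ¬0 < ψ ((h ^ j) x) := fun h2 =>
      hjl (loc_fwd hψ x (Finset.mem_range.1 hj) hl h2 hx)
    rw [loc_zero hψ h1]
    norm_num
  · intro h2
    exact (h2 (Finset.mem_range.2 hl)).elim

theorem Mk.g0_none (hψ : Mk h L ψ) {x : X} (hx : ∀ l < L, ¬0 < ψ ((h ^ l) x)) (c : Fin K) :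
    g0 h L ψ φ x c = -2 := by
  unfold g0
  rw [Finset.sum_eq_zero]
  · norm_num
  · intro j hj
    rw [loc_zero hψ (hx j (Finset.mem_range.1 hj))]
    norm_num

theorem Mk.norm_g0 (hψ : Mk h L ψ) (hφ : ∀ c x, φ c x ∈ Icc (0 : ℝ) 1) (x : X) :
    ‖g0 h L ψ φ x‖ ≤ 2 := by
  refine (pi_norm_le_iff_of_nonneg (by norm_num)).2 fun c => ?_
  by_cases hx : ∃ l < L, 0 < ψ ((h ^ l) x)
  · obtain ⟨l, hl, h1⟩ := hx
    rw [hψ.g0_eq hl h1, Real.norm_eq_abs, abs_le]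
    unfold yy
    have h2 : 0 ≤ min 1 (2 * ψ ((h ^ l) x)) := le_min zero_le_one (by linarith)
    have h3 : min 1 (2 * ψ ((h ^ l) x)) ≤ 1 := min_le_left _ _
    have h4 := hφ c ((h ^ l) x)
    have h5 := mul_nonneg h2 h4.1
    have h6 := mul_le_one₀ h3 h4.1 h4.2
    constructor <;> linarith
  · rw [hψ.g0_none (fun l hl h1 => hx ⟨l, hl, h1⟩)]
    norm_num

theorem Mk.g0_fine (hψ : Mk h L ψ) (hφ : ∀ c x, φ c x ∈ Icc (0 : ℝ) 1) {x : X} {c : Fin K}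
    (hx : -1 < g0 h L ψ φ x c) : ∃ l < L, 0 < ψ ((h ^ l) x) ∧ ps ψ ((h ^ l) x) = 1 := by
  by_cases hy : ∃ l < L, 0 < ψ ((h ^ l) x)
  · obtain ⟨l, hl, h1⟩ := hy
    refine ⟨l, hl, h1, ?_⟩
    rw [hψ.g0_eq hl h1] at hx
    unfold yy at hx
    have h2 : 0 ≤ min 1 (2 * ψ ((h ^ l) x)) := le_min zero_le_one (by linarith)
    have h3 : min 1 (2 * ψ ((h ^ l) x)) ≤ 2 * ψ ((h ^ l) x) := min_le_right _ _
    have h4 := hφ c ((h ^ l) x)
    have h5 := mul_le_of_le_one_right h2 h4.2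
    exact min_eq_left (by linarith)
  · rw [hψ.g0_none (fun l hl h1 => hy ⟨l, hl, h1⟩)] at hx
    norm_num at hx

theorem loc_max_pos (hψ : Mk h L ψ) {x : X} (hx : max 0 (2 * ψ x - 1) ≠ 0) : 0 < ψ x := by
  by_contra h1
  apply hx
  rw [loc_zero hψ h1]
  norm_num

theorem Mk.g1_cvd (hψ : Mk h L ψ) {x : X} (hx : Cvd h L ψ x) (c : Fin K) :
    g1 h L ψ φ x c = -2 := by
  obtain ⟨i, hi, h1⟩ := hx
  unfold g1
  rw [Finset.sum_eq_single i]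
  · rw [h1]
    norm_num
  · intro j hj hji
    by_contra h2
    exact hji (loc_bwd hψ x (Finset.mem_range.1 hj) hi (loc_max_pos hψ h2) (by rw [h1]; norm_num))
  · intro h2
    exact (h2 (Finset.mem_range.2 hi)).elim

/-- The weight in `g1` lies between `0` and `1`. -/
theorem Mk.chi_mem (hψ : Mk h L ψ) (x : X) :
    1 - ∑ i ∈ Finset.range L, max 0 (2 * ψ ((h⁻¹ ^ i) x) - 1) ∈ Icc (0 : ℝ) 1 := by
  have h1 : ∑ i ∈ Finset.range L, max 0 (2 * ψ ((h⁻¹ ^ i) x) - 1) ∈ Icc (0 : ℝ) 1 :=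
    loc_sum_mem
      (fun i => ⟨le_max_left _ _, max_le zero_le_one (by linarith [(hψ.mem ((h⁻¹ ^ i) x)).2])⟩)
      fun i hi j hj h1 h2 => loc_bwd hψ x hi hj (loc_max_pos hψ h1) (loc_max_pos hψ h2)
  exact ⟨by linarith [h1.2], by linarith [h1.1]⟩

theorem loc_mono {I : C(X, ℝ) →ₗ[ℝ] ℝ} (hI : Ivt h I) {f g : C(X, ℝ)} (hfg : ∀ x, f x ≤ g x) :
    I f ≤ I g := by
  have h1 := hI.pos (g - f) fun x => by simpa using hfg x
  rw [map_sub] at h1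
  linarith

theorem loc_inv {I : C(X, ℝ) →ₗ[ℝ] ℝ} (hI : Ivt h I) (n : ℕ) (f : C(X, ℝ)) :
    ∀ g : C(X, ℝ), (∀ x, g x = f ((h ^ n) x)) → I g = I f := by
  induction n with
  | zero =>
    intro g hg
    congr 1
    ext x
    rw [hg, pow_zero]
    rfl
  | succ n ih =>
    intro g hg
    rw [hI.inv (f.comp ⟨(h ^ n : X ≃ₜ X), (h ^ n).continuous⟩) g fun x => by
      rw [hg, pw_add, pow_one]
      rfl]
    exact ih _ fun x => rfl

theorem loc_inv' {I : C(X, ℝ) →ₗ[ℝ] ℝ} (hI : Ivt h I) (n : ℕ) (f g : C(X, ℝ))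
    (hg : ∀ x, g x = f ((h⁻¹ ^ n) x)) : I g = I f :=
  (loc_inv hI n g f fun x => by rw [hg, loc_cancel]).symm

/-- The weight as a continuous map. -/
def locP (ψ : C(X, ℝ)) : C(X, ℝ) := ⟨ps ψ, continuous_ps⟩

/-- The sum of the backward translates of the weight. -/
def locF (h : X ≃ₜ X) (ψ : C(X, ℝ)) (n : ℕ) : C(X, ℝ) :=
  ∑ i ∈ Finset.range n, (locP ψ).comp ⟨(h⁻¹ ^ i : X ≃ₜ X), (h⁻¹ ^ i).continuous⟩

theorem loc_F_apply (n : ℕ) (x : X) :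
    locF h ψ n x = ∑ i ∈ Finset.range n, ps ψ ((h⁻¹ ^ i) x) := by
  unfold locF
  rw [ContinuousMap.coe_sum, Finset.sum_apply]
  rfl

theorem loc_F_int {I : C(X, ℝ) →ₗ[ℝ] ℝ} (hI : Ivt h I) (n : ℕ) :
    I (locF h ψ n) = n * I (locP ψ) := by
  unfold locF
  rw [map_sum, Finset.sum_congr rfl fun i _ => loc_inv' hI i (locP ψ) _ fun x => rfl,
    Finset.sum_const, Finset.card_range, nsmul_eq_mul]

theorem loc_F_low (hψ : Mk h L ψ) (x : X) [Decidable (Cvd h L ψ x)] :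
    (if Cvd h L ψ x then (1 : ℝ) else 0) ≤ locF h ψ L x := by
  rw [loc_F_apply]
  split_ifs with hx
  · obtain ⟨i, hi, h1⟩ := hx
    have h2 : ps ψ ((h⁻¹ ^ i) x) ≤ ∑ j ∈ Finset.range L, ps ψ ((h⁻¹ ^ j) x) :=
      Finset.single_le_sum (f := fun j => ps ψ ((h⁻¹ ^ j) x))
        (fun j _ => (hψ.ps_mem _).1) (Finset.mem_range.2 hi)
    refine le_trans ?_ h2
    rw [ps, h1]
    norm_num
  · exact Finset.sum_nonneg fun j _ => (hψ.ps_mem _).1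

theorem loc_low {I : C(X, ℝ) →ₗ[ℝ] ℝ} (hI : Ivt h I) (hψ : Mk h L ψ) {N : ℕ} (hN : 0 < N) {δ : ℝ}
    (hc : ∀ x, (cnt (fun p : Fin N => ¬Cvd h L ψ ((h ^ (p : ℕ)) x)) : ℝ) ≤ δ * N) :
    1 - δ ≤ L * I (locP ψ) := by
  classical
  have h1 : I (((1 - δ) * N) • (1 : C(X, ℝ))) ≤
      I (∑ p : Fin N,
        (locF h ψ L).comp ⟨(h ^ (p : ℕ) : X ≃ₜ X), (h ^ (p : ℕ)).continuous⟩) := by
    refine loc_mono hI fun x => ?_
    rw [ContinuousMap.coe_sum, Finset.sum_apply]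
    have h2 := cnt_add_not (fun p : Fin N => Cvd h L ψ ((h ^ (p : ℕ)) x))
    rw [Fintype.card_fin] at h2
    have h3 : (cnt (fun p : Fin N => Cvd h L ψ ((h ^ (p : ℕ)) x)) : ℝ) +
        cnt (fun p : Fin N => ¬Cvd h L ψ ((h ^ (p : ℕ)) x)) = N := by exact_mod_cast h2
    have h4 : (cnt (fun p : Fin N => Cvd h L ψ ((h ^ (p : ℕ)) x)) : ℝ) ≤
        ∑ p : Fin N, locF h ψ L ((h ^ (p : ℕ)) x) := by
      rw [cnt_eq_sum]
      push_cast
      exact Finset.sum_le_sum fun p _ => loc_F_low hψ _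
    have h5 := hc x
    change ((1 - δ) * N) * 1 ≤ ∑ p : Fin N, locF h ψ L ((h ^ (p : ℕ)) x)
    linarith
  rw [map_smul, hI.one, map_sum,
    Finset.sum_congr rfl fun (p : Fin N) _ => loc_inv hI p (locF h ψ L) _ fun x => rfl,
    Finset.sum_const, Finset.card_univ, Fintype.card_fin, nsmul_eq_mul, loc_F_int hI,
    smul_eq_mul, mul_one, mul_comm] at h1
  exact le_of_mul_le_mul_left h1 (by exact_mod_cast hN)

/-- `I` is monotone and invariant under all `h ^ n`. With `p = I ps`: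
`1 + (k - ρ) * p ≤ I f`. The function `F = ∑ i < L, ps ∘ h⁻¹ ^ i` is at least `1` at covered
points, so `∑ j < N, F ∘ h ^ j ≥ (1 - δ) * N` and `L * p = I F ≥ 1 - δ`. -/
theorem trace_gap {I : C(X, ℝ) →ₗ[ℝ] ℝ} (hI : Ivt h I) (hψ : Mk h L ψ) (hL : 0 < L) {N k : ℕ}
    (hN : 0 < N) {δ r : ℝ} (hδ : δ < 1) (hr : 0 ≤ r)
    (hc : ∀ x, (cnt (fun p : Fin N => ¬Cvd h L ψ ((h ^ (p : ℕ)) x)) : ℝ) ≤ δ * N)
    (hg : r * L < ((k : ℝ) - ρ) * (1 - δ)) {f : C(X, ℝ)}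
    (hf : ∀ x, ps ψ x * k + th h ρ ψ x ≤ f x) : 1 + r < I f := by
  have h1 := loc_low hI hψ hN hc
  have h2 : I ((k : ℝ) • locP ψ + (1 - locF h ψ ρ)) ≤ I f := by
    refine loc_mono hI fun x => le_trans (le_of_eq ?_) (hf x)
    change (k : ℝ) * ps ψ x + (1 - locF h ψ ρ x) = _
    rw [loc_F_apply, th, mul_comm]
  rw [map_add, map_sub, map_smul, hI.one, loc_F_int hI, smul_eq_mul] at h2
  have hL' : (0 : ℝ) < L := by exact_mod_cast hL
  have h3 : 0 < (k : ℝ) - ρ := by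
    by_contra h4
    have h5 := mul_nonpos_of_nonpos_of_nonneg (not_lt.1 h4) (sub_pos.2 hδ).le
    have h6 := mul_nonneg hr hL'.le
    linarith
  have h4 : r * L < ((k : ℝ) - ρ) * I (locP ψ) * L := by
    have h5 := mul_le_mul_of_nonneg_left h1 h3.le
    linarith
  have h5 := lt_of_mul_lt_mul_right h4 hL'.le
  linarith

end Vale.Agent.P093
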