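import Vale.Agent.P093.Sph

/-! The transfer of frames. -/

open Filter Topology Set
open scoped ENNReal NNReal Matrix

noncomputable section

namespace Vale.Agent.P093

theorem vand_inj {J : Type} [Fintype J] {a : J → ℂ} (ha : Function.Injective a) {T : ℕ}
    {S : Finset J} (hS : S.card ≤ T) {w : J → ℂ} (hw : ∀ j, j ∉ S → w j = 0)
    (h : ∀ t < T, ∑ j, a j ^ t * w j = 0) : w = 0 := by
  classical
  funext j₀
  by_cases hj : j₀ ∈ S
  swap
  · exact hw j₀ hj
  let p : Polynomial ℂ := ∏ j ∈ S.erase j₀, (Polynomial.X - Polynomial.C (a j))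
  have hd : p.natDegree < T := by
    have h1 := Finset.card_erase_lt_of_mem hj
    rw [Polynomial.natDegree_prod_of_monic _ _ fun j _ => Polynomial.monic_X_sub_C _]
    simp only [Polynomial.natDegree_X_sub_C, Finset.sum_const, smul_eq_mul, mul_one]
    omega
  have h1 : ∑ j, p.eval (a j) * w j = 0 := by
    simp only [Polynomial.eval_eq_sum_range' hd, Finset.sum_mul, mul_assoc]
    rw [Finset.sum_comm]
    refine Finset.sum_eq_zero fun t ht => ?_
    rw [← Finset.mul_sum, h t (Finset.mem_range.1 ht), mul_zero]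
  have h2 : ∀ j, p.eval (a j) = ∏ i ∈ S.erase j₀, (a j - a i) := fun j => by
    simp [p, Polynomial.eval_prod]
  rw [Finset.sum_eq_single j₀ (fun j _ hj' => ?_) (by simp)] at h1
  · refine (mul_eq_zero.1 h1).resolve_left ?_
    rw [h2]
    exact Finset.prod_ne_zero_iff.2 fun i hi =>
      sub_ne_zero.2 fun h3 => Finset.ne_of_mem_erase hi (ha h3).symm
  · by_cases h3 : j ∈ S
    · rw [h2, Finset.prod_eq_zero (Finset.mem_erase.2 ⟨hj', h3⟩) (sub_self _), zero_mul]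
    · rw [hw j h3, mul_zero]

/-- `Va w t = ∑ j, a j ^ t * w j` with distinct nodes `a j`. It is injective on the vectors
supported on a set `S` of at most `T` indices (pair with the coefficients of
`∏ j ∈ S.erase j₀, (X - a j)`), so it is bounded below there; finitely many `S`. Split
`w = w_S + (w - w_S)`. -/
theorem exists_vand (J : Type) [Fintype J] (T : ℕ) :
    ∃ (Va : (J → ℂ) →ₗ[ℂ] Fin T → ℂ) (σ C : ℝ), 0 < σ ∧ 0 ≤ C ∧ ∀ w (S : J → Prop) (η : ℝ),
      cnt S ≤ T → 0 ≤ η → (∀ a, ¬S a → ‖w a‖ ≤ η) → σ * ‖w‖ ≤ ‖Va w‖ + C * η := by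
  classical
  let a : J → ℂ := fun j => (Fintype.equivFin J j : ℕ)
  have ha : Function.Injective a := fun i j hij =>
    (Fintype.equivFin J).injective (Fin.ext (Nat.cast_injective hij))
  let Va : (J → ℂ) →ₗ[ℂ] Fin T → ℂ := Matrix.mulVecLin (Matrix.of fun t j => a j ^ (t : ℕ))
  have h1 : ∀ S : Finset J, ∃ K : ℝ, 0 < K ∧ (S.card ≤ T → ∀ w : J → ℂ, (∀ j, j ∉ S → w j = 0) →
      ‖w‖ ≤ K * ‖Va w‖) := by
    intro S
    by_cases hS : S.card ≤ T
    · let W : Submodule ℂ (J → ℂ) := Submodule.pi (Sᶜ : Set J) fun _ => ⊥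
      have h2 : LinearMap.ker (Va.comp W.subtype) = ⊥ := by
        refine LinearMap.ker_eq_bot'.2 fun w hw => Subtype.ext ?_
        refine vand_inj ha hS (fun j hj => w.2 j hj) fun t ht => ?_
        simpa [Va, Matrix.mulVec, dotProduct] using congrFun hw ⟨t, ht⟩
      obtain ⟨K, hK, h3⟩ := (Va.comp W.subtype).exists_antilipschitzWith h2
      exact ⟨K, hK, fun _ w hw => h3.le_mul_norm (map_zero _) (⟨w, fun j hj => hw j hj⟩ : W)⟩
    · exact ⟨1, one_pos, fun h => absurd h hS⟩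
  choose K hK hK' using h1
  have h0 : 0 < ∑ S, K S := Finset.sum_pos (fun S _ => hK S) Finset.univ_nonempty
  refine ⟨Va, (∑ S, K S)⁻¹, ‖LinearMap.toContinuousLinearMap Va‖ + (∑ S, K S)⁻¹, inv_pos.2 h0,
    by positivity, fun w S η hS hη hw => ?_⟩
  let w₁ : J → ℂ := fun j => if S j then w j else 0
  have h2 : ‖w - w₁‖ ≤ η := (pi_norm_le_iff_of_nonneg hη).2 fun j => by
    by_cases hj : S j
    · simpa [w₁, hj] using hη
    · simpa [w₁, hj] using hw j hj
  have h3 := hK' (Finset.univ.filter S) (by rwa [← cnt_eq]) w₁ fun j hj =>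
    if_neg (by simpa using hj)
  have h4 : K (Finset.univ.filter S) ≤ ∑ S, K S :=
    Finset.single_le_sum (fun S _ => (hK S).le) (Finset.mem_univ _)
  have h5 : (∑ S, K S)⁻¹ * ‖w₁‖ ≤ ‖Va w₁‖ := by
    rw [inv_mul_le_iff₀ h0]
    exact h3.trans (mul_le_mul_of_nonneg_right h4 (norm_nonneg _))
  have h6 : ‖Va w₁‖ ≤ ‖Va w‖ + ‖LinearMap.toContinuousLinearMap Va‖ * η := by
    have h7 : Va w₁ = Va w - Va (w - w₁) := by rw [map_sub, sub_sub_cancel]
    rw [h7]
    exact (norm_sub_le _ _).trans (add_le_add_right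
      ((LinearMap.toContinuousLinearMap Va).le_opNorm_of_le h2) _)
  have h7 : ‖w‖ ≤ ‖w₁‖ + η := by
    have h8 := norm_add_le w₁ (w - w₁)
    rw [add_sub_cancel] at h8
    linarith
  have h8 := mul_le_mul_of_nonneg_left h7 (inv_pos.2 h0).le
  linarith

theorem vand_add {I R : Type} [Fintype I] [DecidableEq I] (ε : I → ℝ × ℂ)
    (w w' : I × Fin 2 ⊕ R → ℂ) : rest ε (w + w') = rest ε w + rest ε w' := by
  funext a
  rcases a with a | a
  · have h := congrFun (Matrix.mulVec_add (PM ε) (fun b => w (Sum.inl b))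
      fun b => w' (Sum.inl b)) a
    change _ - (PM ε *ᵥ ((fun b => w (Sum.inl b)) + fun b => w' (Sum.inl b))) a = _
    rw [h]
    simp only [rest, Pi.add_apply, Sum.elim_inl]
    ring
  · rfl

theorem vand_smul {I R : Type} [Fintype I] [DecidableEq I] (ε : I → ℝ × ℂ) (c : ℂ)
    (w : I × Fin 2 ⊕ R → ℂ) : rest ε (c • w) = c • rest ε w := by
  funext a
  rcases a with a | a
  · have h := congrFun (Matrix.mulVec_smul (PM ε) c fun b => w (Sum.inl b)) a
    change _ - (PM ε *ᵥ (c • fun b => w (Sum.inl b))) a = _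
    rw [h]
    simp only [rest, Pi.smul_apply, Sum.elim_inl, smul_sub]
  · rfl

section

variable {I R : Type} [Fintype I] [DecidableEq I] {T : ℕ}
  (Va : (I × Fin 2 ⊕ R → ℂ) →ₗ[ℂ] Fin T → ℂ)

/-- The transfer map. -/
def vand_L (ε : I → ℝ × ℂ) : (I × Fin 2 ⊕ R → ℂ) →ₗ[ℂ] Ef I T where
  toFun w := WithLp.toLp 2 (Sum.elim (PM ε *ᵥ fun b => w (Sum.inl b)) (Va (rest ε w)))
  map_add' w w' := by
    ext a
    rcases a with a | a
    · exact congrFun (Matrix.mulVec_add (PM ε) (fun b => w (Sum.inl b))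
        fun b => w' (Sum.inl b)) a
    · simp [vand_add]
  map_smul' c w := by
    ext a
    rcases a with a | a
    · exact congrFun (Matrix.mulVec_smul (PM ε) c fun b => w (Sum.inl b)) a
    · simp [vand_smul]

theorem vand_xi (ε : I → ℝ × ℂ) (w : I × Fin 2 ⊕ R → ℂ) :
    xi (vand_L Va ε w) = PM ε *ᵥ fun b => w (Sum.inl b) := rfl

variable [Fintype R]

theorem vand_cd1 : ContDiff ℝ 1 fun p : (I → ℝ × ℂ) × (I × Fin 2 ⊕ R → ℂ) =>
    PM p.1 *ᵥ fun b => p.2 (Sum.inl b) := by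
  have h : ContDiff ℝ 1 fun p : (I → ℝ × ℂ) × (I × Fin 2 ⊕ R → ℂ) =>
      ((p.1, fun b => p.2 (Sum.inl b)) : (I → ℝ × ℂ) × (I × Fin 2 → ℂ)) := by fun_prop
  have h1 := (contDiff_PM (I := I)).comp h
  simpa only [Function.comp_def] using h1

theorem vand_cd2 : ContDiff ℝ 1 fun p : (I → ℝ × ℂ) × (I × Fin 2 ⊕ R → ℂ) => rest p.1 p.2 := by
  refine contDiff_pi.2 fun a => ?_
  have h : ∀ b, ContDiff ℝ 1 fun p : (I → ℝ × ℂ) × (I × Fin 2 ⊕ R → ℂ) => p.2 b := fun b => by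
    fun_prop
  rcases a with a | a
  · exact (h _).sub (contDiff_pi.1 vand_cd1 a)
  · exact h _

theorem vand_cd :
    ContDiff ℝ 1 fun p : (I → ℝ × ℂ) × (I × Fin 2 ⊕ R → ℂ) => vand_L Va p.1 p.2 := by
  have h : ContDiff ℝ 1 fun p : (I → ℝ × ℂ) × (I × Fin 2 ⊕ R → ℂ) =>
      (Sum.elim (PM p.1 *ᵥ fun b => p.2 (Sum.inl b)) (Va (rest p.1 p.2)) :
        I × Fin 2 ⊕ Fin T → ℂ) := by
    refine contDiff_pi.2 fun a => ?_
    rcases a with a | a
    · exact contDiff_pi.1 vand_cd1 a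
    · exact contDiff_pi.1
        (((LinearMap.toContinuousLinearMap Va).restrictScalars ℝ).contDiff.comp vand_cd2) a
  exact PiLp.contDiff_toLp.comp h

end

/-- `Λ ε w = toLp (Sum.elim (PM ε *ᵥ (w ∘ inl)) (Va (rest ε w)))`;
`‖w‖ ≤ ‖PM ε *ᵥ (w ∘ inl)‖ + ‖rest ε w‖`; coordinates are bounded by the Euclidean norm
(`PiLp.norm_apply_le`). -/
theorem exists_lm (I R : Type) [Fintype I] [DecidableEq I] [Fintype R] (T : ℕ) :
    ∃ (Λ : (I → ℝ × ℂ) → (I × Fin 2 ⊕ R → ℂ) →ₗ[ℂ] Ef I T) (σ C : ℝ), Lm Λ σ C := by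
  obtain ⟨Va, σ, C, hσ, hC, H⟩ := exists_vand (I × Fin 2 ⊕ R) T
  refine ⟨vand_L Va, σ / (σ + 1), C, by positivity, hC, vand_cd Va, fun ε w hε => ?_,
    fun ε w S η hε hS hη hw => ?_⟩
  · rw [vand_xi, Matrix.mulVec_mulVec, PM_idem hε]
  have h3 := H _ S η hS hη hw
  have h4 : ‖Va (rest ε w)‖ ≤ ‖vand_L Va ε w‖ :=
    (pi_norm_le_iff_of_nonneg (norm_nonneg _)).2 fun t =>
      PiLp.norm_apply_le (vand_L Va ε w) (Sum.inr t)
  have h5 : ‖w‖ ≤ ‖vand_L Va ε w‖ + ‖rest ε w‖ := by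
    refine (pi_norm_le_iff_of_nonneg (by positivity)).2 fun a => ?_
    rcases a with a | a
    · have h6 : w (Sum.inl a) = vand_L Va ε w (Sum.inl a) + rest ε w (Sum.inl a) :=
        (add_sub_cancel _ _).symm
      rw [h6]
      exact norm_add_le_of_le (PiLp.norm_apply_le _ _) (norm_le_pi_norm _ _)
    · exact (norm_le_pi_norm (rest ε w) (Sum.inr a)).trans (le_add_of_nonneg_left (norm_nonneg _))
  rw [div_mul_eq_mul_div, div_le_iff₀ (by positivity)]
  have h6 := mul_le_mul_of_nonneg_left h5 hσ.le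
  have h7 : 0 ≤ C * η * σ := by positivity
  linarith

theorem rest_add {I R : Type} [Fintype I] [DecidableEq I] (ε : I → ℝ × ℂ)
    (w w' : I × Fin 2 ⊕ R → ℂ) : rest ε (w + w') = rest ε w + rest ε w' := vand_add ε w w'

theorem norm_rest {I R : Type} [Fintype I] [DecidableEq I] [Fintype R] {ε : I → ℝ × ℂ}
    (hε : Sph ε) (w : I × Fin 2 ⊕ R → ℂ) : ‖rest ε w‖ ≤ 3 * ‖w‖ := by
  refine (pi_norm_le_iff_of_nonneg (by positivity)).2 fun a => ?_
  have h0 := norm_nonneg w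
  rcases a with a | a
  · have h1 : ‖fun b => w (Sum.inl b)‖ ≤ ‖w‖ :=
      (pi_norm_le_iff_of_nonneg h0).2 fun b => norm_le_pi_norm w _
    have h2 := (norm_le_pi_norm _ a).trans (norm_PM_mulVec hε fun b => w (Sum.inl b))
    have h3 := norm_le_pi_norm w (Sum.inl a)
    exact (norm_sub_le _ _).trans (by linarith)
  · exact (norm_le_pi_norm w (Sum.inr a)).trans (by linarith)

end Vale.Agent.P093
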