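import Vale.Agent.P093.Frame
import Vale.Agent.P093.Vand
import Vale.Agent.P093.Loc

/-! Independence of the transferred frames. -/

open Filter Topology Set
open scoped ENNReal NNReal Matrix

noncomputable section

namespace Vale.Agent.P093

/-- Uniform continuity of a matrix function on a ball. -/
theorem hyp_unif {κ : Type} [Fintype κ] {K : ℕ} {Q : (Fin K → ℝ) → Matrix κ κ ℂ}
    (hQ : Continuous Q) {η : ℝ} (hη : 0 < η) : ∃ δ > 0, δ ≤ 1 / 2 ∧ ∀ y y' : Fin K → ℝ,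
      ‖y'‖ ≤ 2 → ‖y - y'‖ ≤ δ → ∀ g : κ → ℂ, ‖(Q y' - Q y) *ᵥ g‖ ≤ η * ‖g‖ := by
  have hc : Continuous fun y => fun a b => Q y a b :=
    continuous_pi fun a => continuous_pi fun b => hQ.matrix_elem a b
  have hu := (isCompact_closedBall (0 : Fin K → ℝ) 3).uniformContinuousOn_of_continuous
    hc.continuousOn
  have hp : 0 < η / (Fintype.card κ + 1) := by positivity
  obtain ⟨δ, hδ, h1⟩ := Metric.uniformContinuousOn_iff_le.1 hu _ hp
  refine ⟨min δ (1 / 2), by positivity, min_le_right _ _, fun y y' h2 h3 g => ?_⟩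
  have h4 : ‖y‖ ≤ 3 := by
    have := norm_add_le (y - y') y'
    rw [sub_add_cancel] at this
    linarith [min_le_right δ (1 / 2)]
  have h5 := h1 y' (by simpa using h2.trans (by norm_num)) y (by simpa using h4)
    (by rw [dist_comm, dist_eq_norm]; exact h3.trans (min_le_left _ _))
  rw [dist_eq_norm] at h5
  refine (pi_norm_le_iff_of_nonneg (by positivity)).2 fun a => ?_
  have h6 : ∀ b, ‖(Q y' - Q y) a b * g b‖ ≤ η / (Fintype.card κ + 1) * ‖g‖ := fun b => by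
    rw [norm_mul]
    refine mul_le_mul ?_ (norm_le_pi_norm g b) (norm_nonneg _) hp.le
    exact ((norm_le_pi_norm _ b).trans (norm_le_pi_norm
      ((fun a b => Q y' a b) - fun a b => Q y a b) a)).trans h5
  calc ‖((Q y' - Q y) *ᵥ g) a‖ ≤ ∑ b, ‖(Q y' - Q y) a b * g b‖ := norm_sum_le _ _
    _ ≤ ∑ _b : κ, η / (Fintype.card κ + 1) * ‖g‖ := Finset.sum_le_sum fun b _ => h6 b
    _ = Fintype.card κ / (Fintype.card κ + 1) * (η * ‖g‖) := by
      rw [Finset.sum_const, Finset.card_univ, nsmul_eq_mul]; ring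
    _ ≤ η * ‖g‖ := mul_le_of_le_one_left (by positivity)
      ((div_le_one (by positivity)).2 (by linarith))

/-- The rest of a vector in a cell. -/
theorem hyp_rest {Ic Pc : Type} [Fintype Ic] [DecidableEq Ic] {k W : ℕ}
    {ε : Ic × Fin k → ℝ × ℂ} (hε : Sph ε) (w : Rw Ic Pc k W → ℂ) (i : Ic)
    {g d : Fin k × Fin 2 → ℂ} (hw : cellv w (Sum.inl i) = PM (fun l => ε (i, l)) *ᵥ g + d)
    (j : Fin k) (b : Fin 2) : ‖rest ε w (Sum.inl ((i, j), b))‖ ≤ 3 * ‖d‖ := by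
  have hs : Sph fun l => ε (i, l) := fun l => hε (i, l)
  have h1 : rest ε w (Sum.inl ((i, j), b)) =
      (cellv w (Sum.inl i) - PM (fun l => ε (i, l)) *ᵥ cellv w (Sum.inl i)) (j, b) := by
    simp only [rest, Sum.elim_inl, Pi.sub_apply, PM_mulVec, cellv]
  rw [h1, hw, Matrix.mulVec_add, Matrix.mulVec_mulVec, PM_idem hs, add_sub_add_left_eq_sub]
  refine (norm_le_pi_norm _ _).trans ((norm_sub_le _ _).trans ?_)
  linarith [norm_PM_mulVec hs d]

/-- The number of free sites. -/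
theorem hyp_sites {X : Type} [TopologicalSpace X] {h : X ≃ₜ X} {L e m : ℕ} {ψ : C(X, ℝ)}
    (hψ : Mk h L ψ) (heL : e ≤ L) {J : Type} [Fintype J] (pos : J ≃ Fin m) (x : X) (p : J → Prop)
    (hp : ∀ τ, p τ → ∃ l < L, 0 < ψ ((h ^ ((pos τ : ℕ) * L + l)) x) ∧
      ps ψ ((h ^ ((pos τ : ℕ) * L + l)) x) = 1) :
    e * cnt p ≤ cnt fun n : Fin (m * L + L) => th h e ψ ((h ^ (n : ℕ)) x) = 0 := by
  classical
  choose! l hl h0 h1 using hp
  have hlt : ∀ τ (i : Fin e), p τ → (pos τ : ℕ) * L + l τ + i < m * L + L := fun τ i hτ => by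
    have a1 := hl τ hτ
    have a2 := i.2
    have a3 : ((pos τ : ℕ) + 1) * L ≤ m * L := Nat.mul_le_mul_right _ (pos τ).2
    rw [add_mul, one_mul] at a3
    omega
  have e1 : cnt (fun z : J × Fin e => p z.1) = e * cnt p := by
    rw [cnt_prod, cnt_eq_sum p, Finset.mul_sum]
    refine Finset.sum_congr rfl fun τ _ => ?_
    rw [cnt_eq_sum]
    split_ifs <;> simp
  rw [← e1]
  rcases isEmpty_or_nonempty (Fin (m * L + L)) with hW | ⟨⟨n0⟩⟩
  · rw [cnt_eq_zero.2 fun z hz => hW.elim ⟨_, hlt z.1 z.2 hz⟩]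
    exact Nat.zero_le _
  refine cnt_le_of_inj (fun z : J × Fin e =>
    if hz : p z.1 then ⟨_, hlt z.1 z.2 hz⟩ else n0) (fun z hz => ?_) fun z z' hz hz' hzz => ?_
  · simp only [dif_pos hz]
    rw [add_comm _ (z.2 : ℕ), pw_add]
    exact hψ.th_zero heL (h1 _ hz) z.2.2
  · simp only [dif_pos hz, dif_pos hz', Fin.mk.injEq] at hzz
    have a1 := z.2.2
    have a2 := z'.2.2
    have a3 := h0 _ hz
    have a4 := h0 _ hz'
    rw [pw_cast] at a3 a4
    have a5 := hψ.zsep x a3 a4 (by rw [abs_lt]; constructor <;> omega)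
    have a6 : (pos z.1 : ℕ) * L + l z.1 = (pos z'.1 : ℕ) * L + l z'.1 := by exact_mod_cast a5
    have a7 := hl _ hz
    have a8 := hl _ hz'
    have a9 : (pos z.1 : ℕ) = pos z'.1 := by
      have b1 := congrArg (· / L) a6
      simp only [mul_comm _ L] at b1
      rwa [Nat.mul_add_div (by omega), Nat.mul_add_div (by omega), Nat.div_eq_of_lt a7,
        Nat.div_eq_of_lt a8, add_zero, add_zero] at b1
    exact Prod.ext (pos.injective (Fin.ext a9)) (Fin.ext (by omega))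

/-- The number of coordinates that are not controlled. -/
theorem hyp_count {Ic Pc : Type} [Fintype Ic] [Fintype Pc] {k W T e : ℕ} (bad : Ic ⊕ Pc → Prop)
    (z : Fin W → Prop) (hb : cnt bad ≤ Fintype.card Pc) (hz : e * cnt (fun τ => ¬bad τ) ≤ cnt z)
    (hT : 4 * k * Fintype.card Pc + W ≤ T + e * Fintype.card Ic) :
    cnt (Sum.elim (fun a => bad (Sum.inl a.1.1)) (Sum.elim (fun _ => True) fun n => ¬z n) :
      Rw Ic Pc k W → Prop) ≤ T := by
  classical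
  rw [cnt_sum, cnt_sum]
  simp only [Sum.elim_inl, Sum.elim_inr]
  have a1 : cnt (fun a : (Ic × Fin k) × Fin 2 => bad (Sum.inl a.1.1)) =
      2 * k * cnt fun i => bad (Sum.inl i) := by
    rw [cnt_prod, Fintype.sum_prod_type, cnt_eq_sum fun i => bad (Sum.inl i), Finset.mul_sum]
    refine Finset.sum_congr rfl fun i _ => ?_
    simp only [cnt_eq_sum]
    split_ifs <;> simp [mul_comm]
  have a2 : cnt (fun _ : Pc × (Fin k × Fin 2) => True) ≤ 2 * k * Fintype.card Pc :=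
    (cnt_le _).trans (by simp [mul_comm, mul_left_comm])
  have a3 := cnt_add_not z
  have a4 := cnt_add_not bad
  have a5 := cnt_sum bad
  rw [Fintype.card_fin] at a3
  rw [Fintype.card_sum] at a4
  have a6 : 2 * k * cnt (fun i => bad (Sum.inl i)) ≤ 2 * k * Fintype.card Pc :=
    Nat.mul_le_mul_left _ (by omega)
  have a7 : e * Fintype.card Ic ≤ e * cnt fun τ => ¬bad τ := Nat.mul_le_mul_left _ (by omega)
  have a8 : 4 * k * Fintype.card Pc = 2 * k * Fintype.card Pc + 2 * k * Fintype.card Pc := by ring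
  omega

/-- Fix `α`, `w = ∑ α t • R x t`, `w' = ∑ α t • R' t`, `‖w' - w‖ ≤ (T + 1) * δ * ‖α‖`. A cell `τ`
is fine if `y τ` has at most `e` errors. As `e < K` there is `c` with `y τ c = φ (u τ) c`, of
absolute value at most `1 / 4`, so `-1 < g0`, and `g0_fine` gives `l τ < L`; `g0_eq`. For a fine
cell `inl i`: `cellv w = Q (1, g0) *ᵥ g`, `Q (1, y τ) = PM (ε (i, ·))` (`Qm.fine`), so
`rest ε w` on this cell is `(1 - PM) *ᵥ ((Q (1, g0) - Q (1, y τ)) *ᵥ g)`, small by uniform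
continuity of `Q (1, ·)` on the closed ball of radius `3`. The sites `pos τ * L + l τ + i`,
`τ` fine, `i < e`, are distinct (`Mk.zsep`), less than `m * L + L`, and `th = 0` there
(`th_zero`). `S` is the set of the other coordinates:
`cnt S ≤ 2 * k * s + 2 * k * s + (m * L + L - e * (m - s)) ≤ T`, `s = card Pc`. `Lm.low`;
`σ = σ₂ * σ₁ / 2`. -/
theorem hyp {X : Type} [TopologicalSpace X] {h : X ≃ₜ X} {L k K e m T : ℕ} {ψ : C(X, ℝ)}
    (hψ : Mk h L ψ) {φX : Fin K → C(X, ℝ)} (hφX : ∀ c x, φX c x ∈ Icc (0 : ℝ) 1)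
    {inv : ℝ × (Fin k → ℝ × ℂ) → Vk k} {φ : Vk k →ₗ[ℝ] Fin K → ℝ} (hn : ∀ v, ‖φ v‖ ≤ ‖v‖ / 12)
    {Q C C' : ℝ × (Fin K → ℝ) → Matrix (Fin k × Fin 2) (Fin k × Fin 2) ℂ}
    (hQ : Qm inv φ e Q C C') (heK : e < K) (heL : e ≤ L) {Ic Pc : Type} [Fintype Ic]
    [DecidableEq Ic] [Fintype Pc] (pos : Ic ⊕ Pc ≃ Fin m)
    {R : X → Fin (T + 1) → Rw Ic Pc k (m * L + L) → ℂ} {σ₁ C₁ : ℝ}
    (hR : Rf h L ψ (fun x => Q (ps ψ x, yy ψ φX x)) (th h e ψ) (fun τ => pos τ) R σ₁ C₁)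
    {Λ : (Ic × Fin k → ℝ × ℂ) → (Rw Ic Pc k (m * L + L) → ℂ) →ₗ[ℂ] Ef (Ic × Fin k) T} {σ₂ C₂ : ℝ}
    (hΛ : Lm Λ σ₂ C₂)
    (hT : 4 * k * Fintype.card Pc + m * L + L ≤ T + e * Fintype.card Ic) :
    ∃ σ > 0, ∃ δ > 0, δ ≤ 1 / 2 ∧ ∀ (x : X) (R' : Fin (T + 1) → Rw Ic Pc k (m * L + L) → ℂ)
      (ε : Ic × Fin k → ℝ × ℂ) (y : Ic ⊕ Pc → Fin K → ℝ) (u : Ic ⊕ Pc → Vk k), ‖R' - R x‖ ≤ δ →
      Sph ε → (∀ τ c, |y τ c - g0 h L ψ φX ((h ^ ((pos τ : ℕ) * L)) x) c| ≤ δ) →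
      (∀ i, u (Sum.inl i) = inv (0, fun l => ε (i, l))) → (∀ τ, ‖u τ‖ ≤ 3) →
      cnt (fun τ => e < cnt fun c => y τ c ≠ φ (u τ) c) ≤ Fintype.card Pc →
      Ind σ fun t => Λ ε (R' t) := by
  have h1 := hR.pos'
  have h2 := hΛ.pos
  have h3 := hR.nn
  have h4 := hΛ.nn
  obtain ⟨δ, hδ, hδ1, hu⟩ := hyp_unif (Q := fun y => Q (1, y)) (hQ.cq.comp (by fun_prop))
    (η := σ₂ * σ₁ / (4 * (3 * C₁ * C₂ + 1))) (by positivity)
  set η := σ₂ * σ₁ / (4 * (3 * C₁ * C₂ + 1)) with hη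
  have hη0 : 0 < η := by positivity
  set δ' := σ₂ * σ₁ / (4 * ((T + 1) * (σ₂ + 3 * C₂))) with hδ'
  have hδ0 : 0 < δ' := by positivity
  refine ⟨σ₂ * σ₁ / 2, by positivity, min δ δ', lt_min hδ hδ0, (min_le_left _ _).trans hδ1,
    fun x R' ε y u hR' hε hy hu1 hu3 hbad α => ?_⟩
  set w := ∑ t, α t • R x t with hw
  set d := ∑ t, α t • (R' t - R x t) with hd
  have e1 : ∑ t, α t • R' t = w + d := by
    rw [hw, hd, ← Finset.sum_add_distrib]
    exact Finset.sum_congr rfl fun t _ => by rw [smul_sub]; abel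
  have e2 : ∑ t, α t • Λ ε (R' t) = Λ ε (w + d) := by
    rw [← e1, map_sum]
    exact Finset.sum_congr rfl fun t _ => (map_smul _ _ _).symm
  have e3 : ‖d‖ ≤ (T + 1) * δ' * ‖α‖ := by
    refine (norm_sum_le _ _).trans ?_
    have : ∀ t, ‖α t • (R' t - R x t)‖ ≤ ‖α‖ * δ' := fun t => by
      rw [norm_smul]
      exact mul_le_mul (norm_le_pi_norm α t) ((norm_le_pi_norm (R' - R x) t).trans
        (hR'.trans (min_le_right _ _))) (norm_nonneg _) (norm_nonneg _)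
    refine (Finset.sum_le_sum fun t _ => this t).trans (le_of_eq ?_)
    rw [Finset.sum_const, Finset.card_univ, Fintype.card_fin, nsmul_eq_mul]
    push_cast
    ring
  have fine : ∀ τ, ¬(e < cnt fun c => y τ c ≠ φ (u τ) c) →
      ∃ l < L, 0 < ψ ((h ^ ((pos τ : ℕ) * L + l)) x) ∧
        ps ψ ((h ^ ((pos τ : ℕ) * L + l)) x) = 1 := fun τ hτ => by
    have a1 := cnt_add_not fun c => y τ c ≠ φ (u τ) c
    rw [Fintype.card_fin] at a1
    obtain ⟨c, hc⟩ := cnt_pos.1 (show 0 < cnt fun c => ¬(y τ c ≠ φ (u τ) c) by omega)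
    rw [not_not] at hc
    have a2 : |φ (u τ) c| ≤ 1 / 4 := by
      have := (norm_le_pi_norm (φ (u τ)) c).trans (hn (u τ))
      rw [Real.norm_eq_abs] at this
      linarith [hu3 τ]
    have a3 := abs_le.1 ((hy τ c).trans ((min_le_left _ _).trans hδ1))
    obtain ⟨l, hl, b1, b2⟩ := hψ.g0_fine hφX (x := (h ^ ((pos τ : ℕ) * L)) x) (c := c)
      (by linarith [(abs_le.1 a2).1, a3.2])
    rw [← pw_add, add_comm] at b1 b2
    exact ⟨l, hl, b1, b2⟩
  have hS := hyp_count (k := k) (T := T) _ _ hbad (hyp_sites hψ heL pos x _ fine)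
    (by rw [← add_assoc]; exact hT)
  have hα := norm_nonneg α
  have key := hΛ.low ε (w + d) _ (3 * (η * (C₁ * ‖α‖)) + 3 * ((T + 1) * δ' * ‖α‖)) hε hS
    (by positivity) fun a ha => by
      rw [rest_add, Pi.add_apply]
      refine (norm_add_le _ _).trans (add_le_add ?_ ((norm_le_pi_norm _ a).trans
        ((norm_rest hε d).trans (by linarith))))
      rcases a with ⟨⟨i, j⟩, b⟩ | a | n
      · obtain ⟨l, hl, b1, b2⟩ := fine (Sum.inl i) ha
        obtain ⟨g, hg, hc⟩ := hR.cell x α (Sum.inl i) l hl b1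
        have b3 : yy ψ φX ((h ^ ((pos (Sum.inl i) : ℕ) * L + l)) x) =
            g0 h L ψ φX ((h ^ ((pos (Sum.inl i) : ℕ) * L)) x) := by
          rw [add_comm, pw_add] at b1 ⊢
          exact (hψ.g0_eq hl b1).symm
        have b4 : Q (1, y (Sum.inl i)) = PM fun l => ε (i, l) :=
          hQ.fine _ _ (fun l => hε (i, l)) (by rw [← hu1 i]; exact not_lt.1 ha)
        rw [b2, b3] at hc
        refine (hyp_rest hε w i (g := g) (d := (Q (1, g0 h L ψ φX
          ((h ^ ((pos (Sum.inl i) : ℕ) * L)) x)) - Q (1, y (Sum.inl i))) *ᵥ g) ?_ j b).trans ?_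
        · rw [hw, hc, ← b4, Matrix.sub_mulVec]; abel
        · have b5 := hu (y (Sum.inl i)) _ (hψ.norm_g0 hφX _) ((pi_norm_le_iff_of_nonneg hδ.le).2
            fun c => (hy (Sum.inl i) c).trans (min_le_left _ _)) g
          linarith [mul_le_mul_of_nonneg_left hg hη0.le]
      · exact (ha trivial).elim
      · have b1 := hR.site x α n (not_not.1 ha)
        change ‖w (Sum.inr (Sum.inr n))‖ ≤ _
        rw [hw, b1, norm_zero]
        positivity
  rw [e2]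
  have f1 : σ₁ * ‖α‖ ≤ ‖w‖ := hR.low x α
  have f2 : ‖w‖ ≤ ‖w + d‖ + ‖d‖ := by simpa using norm_sub_le (w + d) d
  have f3 : 3 * C₁ * C₂ * η ≤ σ₂ * σ₁ / 4 := by
    rw [hη, ← mul_div_assoc, div_le_div_iff₀ (by positivity) (by positivity)]
    nlinarith [mul_pos h2 h1]
  have f4 : (T + 1) * (σ₂ + 3 * C₂) * δ' = σ₂ * σ₁ / 4 := by
    rw [hδ']; field_simp
  have f5 := mul_le_mul_of_nonneg_right f3 hα
  have f6 := congrArg (· * ‖α‖) f4
  have f7 := mul_le_mul_of_nonneg_left (f1.trans (f2.trans (add_le_add le_rfl e3))) h2.le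
  nlinarith

end Vale.Agent.P093
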