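import Vale.Agent.P093.Mid

/-! The choice of the constants. -/

open Filter Topology Set
open scoped ENNReal NNReal Matrix

noncomputable section

namespace Vale.Agent.P093

theorem key_ev {a b : ℝ} (ha : 0 < a) : ∀ᶠ N : ℕ in atTop, b ≤ a * N :=
  (tendsto_natCast_atTop_atTop.const_mul_atTop ha).eventually_ge_atTop b

theorem key_par {r κ γ δ : ℝ} {ν₁ ν e K : ℕ} (hr : 0 ≤ r) (hκ : 0 < κ) (h1 : 8 ≤ κ * ν₁)
    (h2 : 2 * (2 * r + 2 * κ + 1) * ν₁ + 3 ≤ ν) (hγ0 : 0 ≤ γ) (hγ : γ ≤ 1) (hδ0 : 0 ≤ δ)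
    (hδ : δ * (4 * r + 2 * κ) ≤ κ) (he : 0 < e)
    (hK : (2 * r + 2 * κ + γ / 4) * ((ν₁ * e : ℕ) : ℝ) ≤ K)
    (hK' : (K : ℝ) ≤ (2 * r + 2 * κ + γ / 4) * ((ν₁ * e : ℕ) : ℝ) + 1) :
    2 * ((K - 2 * e) / 2) + 2 * e ≤ K ∧
      r * ((ν₁ * e : ℕ) : ℝ) < ((((K - 2 * e) / 2 : ℕ) : ℝ) - e) * (1 - δ) ∧
      4 * ((K - 2 * e) / 2) + 1 ≤ e * ν := by
  have he1 : (1 : ℝ) ≤ e := by exact_mod_cast he
  have hL : (0 : ℝ) ≤ ((ν₁ * e : ℕ) : ℝ) := Nat.cast_nonneg _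
  have hκL : 8 * (e : ℝ) ≤ κ * ((ν₁ * e : ℕ) : ℝ) := by
    rw [Nat.cast_mul, ← mul_assoc]
    exact mul_le_mul_of_nonneg_right h1 (by linarith)
  have hνL : 2 * (2 * r + 2 * κ + 1) * ((ν₁ * e : ℕ) : ℝ) + 3 * e ≤ (e : ℝ) * ν := by
    have := mul_le_mul_of_nonneg_left h2 (Nat.cast_nonneg (α := ℝ) e)
    rw [Nat.cast_mul]
    linarith
  generalize ((ν₁ * e : ℕ) : ℝ) = L at *
  have p1 : 0 ≤ r * L := mul_nonneg hr hL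
  have p2 : 0 ≤ γ * L := mul_nonneg hγ0 hL
  have p3 : γ * L ≤ 1 * L := mul_le_mul_of_nonneg_right hγ hL
  have h2e : 2 * e ≤ K := by
    have : (2 * e : ℝ) ≤ K := by linarith
    exact_mod_cast this
  have a1 : 2 * ((K - 2 * e) / 2) + 2 * e ≤ K := by omega
  have a2 : K ≤ 2 * ((K - 2 * e) / 2) + 2 * e + 1 := by omega
  generalize (K - 2 * e) / 2 = k at *
  have b1 : 2 * (k : ℝ) + 2 * e ≤ K := by exact_mod_cast a1
  have b2 : (K : ℝ) ≤ 2 * k + 2 * e + 1 := by exact_mod_cast a2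
  refine ⟨a1, ?_, ?_⟩
  · have hδ1 : 0 ≤ 1 - δ := by nlinarith
    have c1 : (r + κ / 2) * L ≤ (k : ℝ) - e := by linarith
    have c2 := mul_le_mul_of_nonneg_right c1 hδ1
    have c3 := mul_le_mul_of_nonneg_right hδ hL
    linarith
  · have : 4 * (k : ℝ) + 1 ≤ (e : ℝ) * ν := by linarith
    exact_mod_cast this

theorem key_one {d γ δ c W N L B J m K K₀ z z₀ E : ℝ} (hd : 0 ≤ d) (hγ : 0 ≤ γ) (hN : 0 ≤ N)
    (hJm : 0 ≤ J * m) (hW : W = J * m * L) (hNW : N ≤ W) (hWB : W ≤ N + B)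
    (hK : K ≤ (d + γ / 4) * L + 1) (hL : 8 ≤ γ * L) (hE : E = 2 * γ * W) (hK₀ : 0 ≤ K₀)
    (hδ : δ * (4 * (K₀ + 1)) ≤ γ) (hz₀ : z₀ ≤ δ * N + 1) (hc : c ≤ γ / 8)
    (hz : (d - c) * N ≤ z + 1) (hB : d * B + K₀ + 2 ≤ γ / 8 * N) :
    2 * (J * m * (K + 1)) + 2 * ((K₀ + 1) * z₀) ≤ 2 * z + E := by
  have a1 := mul_le_mul_of_nonneg_left hK hJm
  have a2 := mul_le_mul_of_nonneg_left hL hJm
  have a3 := mul_le_mul_of_nonneg_left hz₀ (show 0 ≤ K₀ + 1 by linarith)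
  have a4 := mul_le_mul_of_nonneg_right hδ hN
  have a5 := mul_le_mul_of_nonneg_right hc hN
  have a6 := mul_le_mul_of_nonneg_left hWB hd
  have a7 := mul_le_mul_of_nonneg_left hNW hγ
  subst hW hE
  linarith

theorem key_two {d η c W N B J n z : ℝ} (hd : 0 ≤ d) (hη : 0 ≤ η) (hN : 0 ≤ N)
    (hNW : N ≤ W) (hWB : W ≤ N + B) (hJ : J = 4 * η * W) (hn : n ≤ (d + η) * W) (hc : c ≤ η / 2)
    (hz : (d - c) * N ≤ z + 1) (hB : d * B + 2 ≤ η / 2 * N) : 2 * (n + 1) ≤ 2 * z + J := by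
  have a5 := mul_le_mul_of_nonneg_right hc hN
  have a6 := mul_le_mul_of_nonneg_left hWB hd
  have a7 := mul_le_mul_of_nonneg_left hNW hη
  subst hJ
  linarith

/-- Let `κ = d / 2 - r > 0`, `ν₁ ≥ 8 / κ + 1`, `ν ≥ 2 * (d + 1) * ν₁ + 3`,
`γ = 1 / (2 * ν₁ * (ν + 1))`, `η = γ / 4 ≤ 1`, `K₀ = U.card` (`dle_one`),
`δ = min (γ / (4 * (K₀ + 1))) (κ / (4 * r + 2 * κ))`, `L = ν₁ * e` with `e` so large that
`hup U` holds at `L`, `8 / γ ≤ L`, `2 / κ ≤ L`; `K = ⌈(d + η) * L⌉₊` (`DLe.mono`),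
`k = (K - 2 * e) / 2`. Apply `mid`; `m = (ν + 1) * s`, `η' = 1 / (4 * m * L)`. For large `N` take
`J = (N + L) / (m * L) + 1`, `W = J * m * L ∈ [N + L, N + L + m * L]`, `n ≤ (d + η') * W` from
`hup V`, `z₀ = ⌈δ * N⌉₊`, `c = min (γ / 8) (η' / 2)`, and `z = ⌊(d - c) * N⌋₊`:
the first inequality follows from `J * m * (K + 1) - e * s * J / 2 ≤ W * (d - γ / 2)`, the second
one from `n + 1 - J / 2 ≤ W * (d - η') + 1`. -/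
theorem key {X : Type} [MetricSpace X] [CompactSpace X] [Infinite X] {h : X ≃ₜ X}
    (hm : IsMinimal h) {U : Finset (Set X)} (hU : IsCov U) {r : ℝ≥0} (hr : HB h r)
    {d : ℝ} (hd : 2 * (r : ℝ) < d)
    (hup : ∀ V, IsCov V → ∀ η > 0, ∀ᶠ N : ℕ in atTop, ∃ n : ℕ, (n : ℝ) ≤ (d + η) * N ∧
      DLe (In h V 0 N) n) :
    ∃ c > 0, ∀ᶠ N : ℕ in atTop, ∃ n : ℕ, (n : ℝ) ≤ (d - c) * N ∧ DLe (In h U 0 N) n := by
  have hr0 : (0 : ℝ) ≤ r := r.2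
  obtain ⟨κ, hκ, rfl⟩ : ∃ κ > 0, d = 2 * (r : ℝ) + 2 * κ := ⟨d / 2 - r, by linarith, by ring⟩
  obtain ⟨ν₁, h1⟩ := exists_nat_ge (8 / κ)
  rw [div_le_iff₀' hκ] at h1
  have hν₁ : 0 < ν₁ := Nat.pos_of_ne_zero fun e => by
    rw [e, Nat.cast_zero, mul_zero] at h1
    linarith
  have hν₁' : (1 : ℝ) ≤ ν₁ := by exact_mod_cast hν₁
  obtain ⟨ν, h2⟩ := exists_nat_ge (2 * (2 * (r : ℝ) + 2 * κ + 1) * ν₁ + 3)
  obtain ⟨γ, hγ⟩ : ∃ γ : ℝ, γ = 1 / (2 * ν₁ * (ν + 1)) := ⟨_, rfl⟩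
  have hγ0 : 0 < γ := by rw [hγ]; positivity
  have hγ1 : γ ≤ 1 := by
    rw [hγ, div_le_one (by positivity)]
    nlinarith [Nat.cast_nonneg (α := ℝ) ν]
  obtain ⟨δ, hδ0, hδ1, hδ2⟩ : ∃ δ > 0, δ * (4 * ((U.card : ℝ) + 1)) ≤ γ ∧
      δ * (4 * r + 2 * κ) ≤ κ :=
    ⟨min (γ / (4 * (U.card + 1))) (κ / (4 * r + 2 * κ)), by positivity,
      (le_div_iff₀ (by positivity)).1 (min_le_left _ _),
      (le_div_iff₀ (by positivity)).1 (min_le_right _ _)⟩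
  obtain ⟨e₀, he₀⟩ := eventually_atTop.1
    ((hup U hU (γ / 4) (by positivity)).and (key_ev (b := 8) hγ0))
  obtain ⟨e, he, hee⟩ : ∃ e, 0 < e ∧ e₀ ≤ e := ⟨e₀ + 1, by omega, by omega⟩
  have heL : e ≤ ν₁ * e := Nat.le_mul_of_pos_left e hν₁
  obtain ⟨⟨n₀, hn₀, hD⟩, hγL⟩ := he₀ (ν₁ * e) (hee.trans heL)
  have hK := Nat.le_ceil ((2 * (r : ℝ) + 2 * κ + γ / 4) * ((ν₁ * e : ℕ) : ℝ))
  have hK' := (Nat.ceil_lt_add_one
    (show 0 ≤ (2 * (r : ℝ) + 2 * κ + γ / 4) * ((ν₁ * e : ℕ) : ℝ) by positivity)).le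
  generalize ⌈(2 * (r : ℝ) + 2 * κ + γ / 4) * ((ν₁ * e : ℕ) : ℝ)⌉₊ = K at hK hK'
  obtain ⟨p1, p2, p3⟩ := key_par hr0 hκ h1 h2 hγ0.le hγ1 hδ0.le hδ2 he hK hK'
  obtain ⟨s, V, N₀, hs, hV, H⟩ := mid hm hr hδ0 (by nlinarith)
    (hD.mono (Nat.cast_le.1 (hn₀.trans hK))) (dle_one hU) p1 he heL p2 p3
  have hL : 0 < ν₁ * e := he.trans_le heL
  have hE : ∀ J : ℕ, (e : ℝ) * s * J = 2 * γ * ((J * ((ν + 1) * s) * (ν₁ * e) : ℕ) : ℝ) :=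
    fun J => by
      rw [hγ]
      push_cast
      field_simp
  have hm0 : 0 < (ν + 1) * s := by positivity
  generalize ν₁ * e = L at *
  generalize (ν + 1) * s = m at *
  generalize 2 * (r : ℝ) + 2 * κ = d at *
  have hd0 : 0 < d := by linarith
  obtain ⟨η, hη⟩ : ∃ η : ℝ, η = 1 / (4 * m * L) := ⟨_, rfl⟩
  have hη0 : 0 < η := by rw [hη]; positivity
  obtain ⟨c, hc0, hc1, hc2, hc3⟩ : ∃ c > 0, c ≤ γ / 8 ∧ c ≤ η / 2 ∧ c ≤ d :=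
    ⟨min (γ / 8) (min (η / 2) d), by positivity, min_le_left _ _,
      (min_le_right _ _).trans (min_le_left _ _), (min_le_right _ _).trans (min_le_right _ _)⟩
  obtain ⟨N₁, hN₁⟩ := eventually_atTop.1 (hup V hV η hη0)
  refine ⟨c, hc0, ?_⟩
  filter_upwards [eventually_ge_atTop N₀, eventually_ge_atTop N₁,
    key_ev (b := d * ((L + m * L : ℕ) : ℝ) + U.card + 2) (show 0 < γ / 8 by positivity),
    key_ev (b := d * ((L + m * L : ℕ) : ℝ) + 2) (show 0 < η / 2 by positivity)] with N g0 g1 g2 g3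
  obtain ⟨J, j1, j2⟩ : ∃ J, N + L ≤ J * m * L ∧ J * m * L ≤ N + (L + m * L) := by
    refine ⟨(N + L) / (m * L) + 1, ?_, ?_⟩
    · rw [mul_assoc, mul_comm]
      exact (Nat.lt_mul_div_succ _ (Nat.mul_pos hm0 hL)).le
    · have := Nat.div_mul_le_self (N + L) (m * L)
      rw [mul_assoc, add_mul, one_mul]
      omega
  obtain ⟨n, hn, hDn⟩ := hN₁ (J * m * L) (by omega)
  have hN : (0 : ℝ) ≤ N := Nat.cast_nonneg N
  have k1 : (N : ℝ) ≤ ((J * m * L : ℕ) : ℝ) := Nat.cast_le.2 (by omega)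
  have k2 : ((J * m * L : ℕ) : ℝ) ≤ N + ((L + m * L : ℕ) : ℝ) := by exact_mod_cast j2
  have hz := (Nat.lt_floor_add_one ((d - c) * N)).le
  refine ⟨⌊(d - c) * N⌋₊, Nat.floor_le (mul_nonneg (by linarith) hN),
    H J n N _ ⌈δ * N⌉₊ g0 j1 hDn (Nat.le_ceil _) ?_ ?_⟩
  · have := key_one (J := J) (m := m) hd0.le hγ0.le hN (by positivity) (by push_cast; rfl) k1 k2
      hK' hγL (hE J) (Nat.cast_nonneg _) hδ1
      (Nat.ceil_lt_add_one (mul_nonneg hδ0.le hN)).le hc1 hz g2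
    exact_mod_cast this
  · have := key_two (J := J) hd0.le hη0.le hN k1 k2 (by
      rw [hη]
      push_cast
      field_simp) hn hc2 hz g3
    exact_mod_cast this

end Vale.Agent.P093
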