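import Vale.Agent.P093.Light

/-! The light map on test spaces. -/

open Filter Topology Set
open scoped ENNReal NNReal Matrix

noncomputable section

namespace Vale.Agent.P093

variable {X : Type} [MetricSpace X] {h : X ≃ₜ X} {U : Finset (Set X)}
  {L K K₀ : ℕ} {ψ : C(X, ℝ)} {φ : Fin K → C(X, ℝ)} {φ₀ : Fin K₀ → C(X, ℝ)}

theorem light_lab (hψ : Mk h L ψ) (hL : 0 < L) {Λ Λ₀ : Type} {lab : Fin K → X → Λ}
    {lab₀ : Fin K₀ → X → Λ₀} (hφ : Col (In h U 0 L) φ lab) (hφ₀ : Col (In h U 0 1) φ₀ lab₀)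
    {m N : ℕ} (hN : N + L ≤ m * L) :
    ∃ lb : Fin m × Fin K ⊕ Fin N × Fin K₀ → X → (Fin L → Option Λ) ⊕ Λ₀,
      (∀ c l, IsOpen {x | -2 < GG h L ψ φ φ₀ m N x c ∧ lb c x = l}) ∧
      ∀ x, In h U L N {x' | ∀ c, GG h L ψ φ φ₀ m N x c = 2 →
        -2 < GG h L ψ φ φ₀ m N x' c ∧ lb c x' = lb c x} := by
  classical
  refine ⟨Sum.elim (fun a x => Sum.inl (light_cl h L ψ (lab a.2) ((h ^ ((a.1 : ℕ) * L)) x)))
      fun a x => Sum.inr (lab₀ a.2 ((h ^ (L + (a.1 : ℕ))) x)), ?_, ?_⟩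
  · rintro (⟨τ, c⟩ | ⟨p, c⟩) l
    · refine light_open fun x hx => ?_
      obtain ⟨h1, rfl⟩ := hx
      simp only [GG, Sum.elim_inl, Sum.inl.injEq] at h1 ⊢
      obtain ⟨l, hl, hy⟩ : ∃ l < L, 0 < ψ ((h ^ l) ((h ^ ((τ : ℕ) * L)) x)) := by
        by_contra h2
        push Not at h2
        rw [hψ.g0_none (fun l hl => not_lt.2 (h2 l hl))] at h1
        exact lt_irrefl _ h1
      simp only [light_cell hψ hφ.mem (lab c) hl hy c]
      have hc : Continuous fun x' => (h ^ l) ((h ^ ((τ : ℕ) * L)) x') :=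
        (h ^ l).continuous.comp (h ^ ((τ : ℕ) * L)).continuous
      exact (isOpen_lt continuous_const (ψ.continuous.comp hc)).inter
        ((hφ.opn c (lab c ((h ^ l) ((h ^ ((τ : ℕ) * L)) x)))).preimage hc)
    · refine light_open fun x hx => ?_
      obtain ⟨-, rfl⟩ := hx
      simp only [GG, Sum.elim_inr, Sum.inr.injEq]
      have hc := (h ^ (L + (p : ℕ))).continuous
      have h1 := (isOpen_lt (continuous_const (y := (-2 : ℝ))) ((continuous_apply c).comp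
        ((continuous_g1 (h := h) (L := L) (ψ := ψ) (φ := φ₀)).comp hc))).inter
        ((hφ₀.opn c (lab₀ c ((h ^ (L + (p : ℕ))) x))).preimage hc)
      refine (congrArg IsOpen (Set.ext fun x' => ?_)).mp h1
      exact ⟨fun a => ⟨a.1, a.2.2⟩, fun a => ⟨a.1, light_g1 hψ hφ₀.mem a.1, a.2⟩⟩
  · intro x p hp
    by_cases hc : ∃ i < L, 1 / 2 ≤ ψ ((h⁻¹ ^ i) ((h ^ (L + p)) x))
    · obtain ⟨i, hi, hx⟩ := hc
      obtain ⟨n, hn⟩ : ∃ n, L + p = i + n := ⟨L + p - i, by omega⟩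
      have e1 : ∀ w : X, (h ^ (L + p)) w = (h ^ i) ((h ^ n) w) := fun w => by rw [hn, pw_add]
      have e2 : (h⁻¹ ^ i) ((h ^ (L + p)) x) = (h ^ n) x := by
        rw [e1, inv_pw, pw_cast h i, ← zpw_add, neg_add_cancel, zpw_zero]
      have e3 : ∀ w : X, (h ^ (n % L)) ((h ^ (n / L * L)) w) = (h ^ n) w := fun w => by
        rw [← pw_add, Nat.mod_add_div']
      have hτ : n / L < m := by
        rw [Nat.div_lt_iff_lt_mul hL]
        omega
      have hl : n % L < L := Nat.mod_lt _ hL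
      rw [e2] at hx
      obtain ⟨c, hc⟩ := hφ.one ((h ^ n) x)
      have hy : 0 < ψ ((h ^ (n % L)) ((h ^ (n / L * L)) x)) := by
        rw [e3]
        linarith
      obtain ⟨u, hu, h1⟩ := hφ.small c (lab c ((h ^ n) x)) i hi
      refine ⟨u, hu, fun x' hx' => ?_⟩
      have h2 := hx' (Sum.inl (⟨n / L, hτ⟩, c)) (by
        simp only [GG, Sum.elim_inl]
        rw [hψ.g0_eq hl hy, e3, yy, hc, min_eq_left (by linarith)]
        norm_num)
      simp only [GG, Sum.elim_inl, Sum.inl.injEq] at h2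
      rw [light_cell hψ hφ.mem (lab c) hl hy c, e3, e3] at h2
      have h3 := h1 ((h ^ n) x') h2.2
      rwa [zero_add, ← e1] at h3
    · push Not at hc
      obtain ⟨c, hc'⟩ := hφ₀.one ((h ^ (L + p)) x)
      obtain ⟨u, hu, h1⟩ := hφ₀.small c (lab₀ c ((h ^ (L + p)) x)) 0 one_pos
      refine ⟨u, hu, fun x' hx' => ?_⟩
      have h2 := hx' (Sum.inr (⟨p, hp⟩, c)) (by
        simp only [GG, Sum.elim_inr]
        rw [g1, hc', Finset.sum_eq_zero fun i hi =>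
          max_eq_left (by linarith [hc i (Finset.mem_range.1 hi)])]
        norm_num)
      simp only [GG, Sum.elim_inr, Sum.inr.injEq] at h2
      exact h1 ((h ^ (L + p)) x') ⟨light_g1 hψ hφ₀.mem h2.1, h2.2⟩

theorem pw_inv (h : X ≃ₜ X) (a b c : ℕ) (x : X) :
    (h ^ (a + b)) ((h⁻¹ ^ c) x) = (h ^ a) ((h⁻¹ ^ c) ((h ^ b) x)) := by
  rw [inv_pw, pw_cast, pw_cast h a, pw_cast h b, ← zpw_add, ← zpw_add, ← zpw_add]
  congr 2
  push_cast
  ring

theorem lightB (hψ : Mk h L ψ) (hL : 0 < L) {Λ Λ₀ : Type} [Fintype Λ] [Fintype Λ₀]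
    {lab : Fin K → X → Λ} {lab₀ : Fin K₀ → X → Λ₀} (hφ : Col (In h U 0 L) φ lab)
    (hφ₀ : Col (In h U 0 1) φ₀ lab₀) {m N : ℕ} (hN : N + L ≤ m * L) {Y : Type} [MetricSpace Y]
    [Nonempty Y] {p : Y → X} (hp : Continuous p)
    {G' : Y → Fin m × Fin K ⊕ Fin N × Fin K₀ → ℝ} (hG' : Continuous G')
    (hd : ∀ y c, |G' y c - GG h L ψ φ φ₀ m N ((h⁻¹ ^ L) (p y)) c| ≤ 1) {z : ℕ}
    (hz : ∀ y, cnt (fun c => G' y c = 0) ≤ z) : DLe (fun s => In h U 0 N (p '' s)) z := by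
  classical
  obtain ⟨lb, h1, h2⟩ := light_lab hψ hL hφ hφ₀ hN
  refine zero_count (G := fun y => GG h L ψ φ φ₀ m N ((h⁻¹ ^ L) (p y)))
    (fun _ _ hst => In.anti h (image_mono hst)) hG' (fun c y => lb c ((h⁻¹ ^ L) (p y)))
    (fun c l => (h1 c l).preimage ((h⁻¹ ^ L).continuous.comp hp)) (fun y j hj => ?_) hd hz
  obtain ⟨u, hu, h3⟩ := h2 ((h⁻¹ ^ L) (p y)) j hj
  refine ⟨u, hu, ?_⟩
  rintro _ ⟨y', hy', rfl⟩
  have h4 := h3 ((h⁻¹ ^ L) (p y')) hy'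
  rwa [pw_inv, inv_pw, pw_cast h L, ← zpw_add, add_neg_cancel, zpw_zero, ← zero_add j] at h4

end Vale.Agent.P093
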