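import Vale.Agent.P093.Mid
import Vale.Agent.P093.LightB

/-! The estimate with integer parameters on test spaces. -/

open Filter Topology Set
open scoped ENNReal NNReal Matrix

noncomputable section

namespace Vale.Agent.P093

theorem midB {X : Type} [MetricSpace X] [CompactSpace X] [Infinite X] {h : X ≃ₜ X}
    (hm : IsMinimal h) {U : Finset (Set X)} {r : ℝ≥0} (hr : HB h r)
    {L K K₀ k e ν : ℕ} {δ : ℝ} (hδ : 0 < δ) (hδ1 : δ < 1) (hK : DLe (In h U 0 L) K)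
    (hK₀ : DLe (In h U 0 1) K₀) (hk : 2 * k + 2 * e ≤ K) (he : 0 < e) (heL : e ≤ L)
    (hg : (r : ℝ) * L < ((k : ℝ) - e) * (1 - δ)) (hν : 4 * k + 1 ≤ e * ν) :
    ∃ (s : ℕ) (V : Finset (Set X)) (N₀ : ℕ), 0 < s ∧ IsCov V ∧ ∀ (Y : Type) [TopologicalSpace Y]
      [CompactSpace Y] [TopologicalSpace.MetrizableSpace Y] (p : Y → X), Continuous p →
      ∀ J n N z z₀ : ℕ, N₀ ≤ N → N + L ≤ J * ((ν + 1) * s) * L →
      J * ((ν + 1) * s) * L ≤ N + (L + (ν + 1) * s * L) →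
      DLe (fun t => In h V 0 N (p '' t)) n → δ * N ≤ z₀ →
      2 * (J * ((ν + 1) * s) * (K + 1)) + 2 * ((K₀ + 1) * z₀) ≤ 2 * z + e * s * J →
      2 * (n + 1) ≤ 2 * z + J → DLe (fun t => In h U 0 N (p '' t)) z := by
  have hL : 0 < L := he.trans_le heL
  obtain ⟨φX, Λ, _, lab, hφX⟩ := exists_col (fun s t hst ht => In.anti h hst ht) hK
  obtain ⟨φ₀, Λ₀, _, lab₀, hφ₀⟩ := exists_col (fun s t hst ht => In.anti h hst ht) hK₀
  obtain ⟨ψ, hψ, N₀, hN₀⟩ := exists_marker hm hL hδ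
  obtain ⟨lam, ee, inv, hT⟩ := exists_tube k
  obtain ⟨φ, hφ, hφn⟩ := exists_inner (V := Vk k) (K := K + 1) (a := 2 * e)
    (by rw [finrank_Vk]; omega)
  obtain ⟨Q, C, C', hQ⟩ := exists_qm hT hφ
  obtain ⟨M, f, σ₀, hf⟩ := mid_fr hr hψ hL hQ φX hδ1 heL (hN₀ (N₀ + 1) (Nat.le_succ _)) hg
  set s := L + 2 * M + 1 with hs
  set m := (ν + 1) * s with hm'
  have hsm : s ≤ m * L := by
    have h1 : s ≤ m := Nat.le_mul_of_pos_left _ (Nat.succ_pos _)
    exact h1.trans (Nat.le_mul_of_pos_right _ hL)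
  let pos : Fin (ν * s) ⊕ Fin s ≃ Fin m := finSumFinEquiv.trans (finCongr (by rw [hm']; ring))
  obtain ⟨T, hT'⟩ : ∃ T, T + 1 + 2 * M = m * L := ⟨m * L - 2 * M - 1, by omega⟩
  obtain ⟨R, σ₁, C₁, hR⟩ := exists_rf hψ (hQ.cq.comp (continuous_ps.prodMk continuous_yy))
    continuous_th (fun x hx => by
      have h1 : ps ψ x = 0 := by simp [ps, hx]
      simp only [Function.comp_apply, h1, hQ.zero]) hf pos hT'.le
  obtain ⟨Lam, σ₂, C₂, hLam⟩ :=
    exists_lm (Fin (ν * s) × Fin k) (Fin s × (Fin k × Fin 2) ⊕ Fin (m * L + L)) T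
  obtain ⟨σ, hσ, δ₁, hδ₁, hδ₂, H⟩ := hyp hψ hφX.mem hφn hQ (by omega) heL pos hR hLam (by
    have h1 := Nat.mul_le_mul_right s hν
    simp only [Fintype.card_fin]
    have h2 : (4 * k + 1) * s = 4 * k * s + s := by ring
    have h3 : e * ν * s = e * (ν * s) := by ring
    omega)
  obtain ⟨V, hV, hfine⟩ := exists_fine
    (g := fun x (i : Fin (L + m * L + 1)) => (R ((h ^ (i : ℕ)) ((h⁻¹ ^ L) x)),
      g0 h L ψ φX ((h ^ (i : ℕ)) ((h⁻¹ ^ L) x)), g1 h L ψ φ₀ ((h ^ (i : ℕ)) ((h⁻¹ ^ L) x))))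
    (continuous_pi fun i => (hR.cont.prodMk (continuous_g0.prodMk continuous_g1)).comp
      ((h ^ (i : ℕ)).continuous.comp (h⁻¹ ^ L).continuous)) (half_pos hδ₁)
  refine ⟨s, V, N₀ + 1, by omega, hV,
    fun Z _ _ _ p hp J n N z z₀ hN hNL hNL' hn hz₀ hA hB => ?_⟩
  rw [← hm'] at hNL hNL' hA
  rcases isEmpty_or_nonempty Z with hZ | hZ
  · exact ⟨Empty, inferInstance, fun _ => ∅, fun _ => isOpen_empty, fun x => isEmptyElim x,
      fun i => i.elim, fun x => isEmptyElim x⟩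
  let _ := TopologicalSpace.metrizableSpaceMetric Z
  obtain ⟨Ω, _, β, pt₀, hβ, hc, b0, b1, b2⟩ := exists_pl hn
  let q : Z → X := fun y => (h⁻¹ ^ L) (p y)
  let pt : Ω → X := fun w => q (pt₀ w)
  have close : ∀ x (j : ℕ), j < J * m * L →
      ‖∑ w, β x w • R ((h ^ j) (pt w)) - R ((h ^ j) (q x))‖ ≤ δ₁ / 2 ∧
      (∀ c, |∑ w, β x w * g0 h L ψ φX ((h ^ j) (pt w)) c - g0 h L ψ φX ((h ^ j) (q x)) c| ≤
        δ₁ / 2) ∧
      ∀ c, |∑ w, β x w * g1 h L ψ φ₀ ((h ^ j) (pt w)) c - g1 h L ψ φ₀ ((h ^ j) (q x)) c| ≤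
        δ₁ / 2 := by
    intro x j hj
    have h1 : ∀ w, β x w ≠ 0 → ‖(R ((h ^ j) (pt w)) - R ((h ^ j) (q x)),
        g0 h L ψ φX ((h ^ j) (pt w)) - g0 h L ψ φX ((h ^ j) (q x)),
        g1 h L ψ φ₀ ((h ^ j) (pt w)) - g1 h L ψ φ₀ ((h ^ j) (q x)))‖ ≤ δ₁ / 2 := fun w hw => by
      obtain ⟨t, h2, h3, h4⟩ := b2 x w hw
      obtain ⟨i, j', hi, hj', rfl⟩ : ∃ i j', i < L + m * L + 1 ∧ j' < N ∧ j = i + j' :=
        ⟨j - min j (N - 1), min j (N - 1), by omega, by omega, by omega⟩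
      obtain ⟨v, hv, h5⟩ := h2 j' hj'
      rw [zero_add] at h5
      have h6 := (norm_le_pi_norm _ ⟨i, hi⟩).trans
        (hfine v hv _ (h5 _ (mem_image_of_mem p h4)) _ (h5 _ (mem_image_of_mem p h3)))
      simp only [pt, q, pw_inv]
      exact h6
    refine ⟨pl_close (b0 x) (b1 x) fun w hw => (norm_fst_le _).trans (h1 w hw),
      fun c => pl_close (E := ℝ) (b0 x) (b1 x) fun w hw => ?_,
      fun c => pl_close (E := ℝ) (b0 x) (b1 x) fun w hw => ?_⟩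
    · exact (norm_le_pi_norm _ c).trans
        (((norm_fst_le _).trans (norm_snd_le _)).trans (h1 w hw))
    · exact (norm_le_pi_norm _ c).trans
        (((norm_snd_le _).trans (norm_snd_le _)).trans (h1 w hw))
  let ce : Fin J × (Fin (ν * s) ⊕ Fin s) ≃ Fin (J * m) :=
    ((Equiv.refl _).prodCongr pos).trans finProdFinEquiv
  have hce : ∀ j τ, ((ce (j, τ) : ℕ)) = pos τ + m * j := fun _ _ => rfl
  let ix : (Fin J × (Fin (ν * s) ⊕ Fin s)) × Fin (K + 1) ⊕ Fin N × Fin (K₀ + 1) ≃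
      Fin (J * m) × Fin (K + 1) ⊕ Fin N × Fin (K₀ + 1) :=
    (ce.prodCongr (Equiv.refl _)).sumCongr (Equiv.refl _)
  let Y : (Ω → ℝ) →ₗ[ℝ] (Fin J × (Fin (ν * s) ⊕ Fin s)) × Fin (K + 1) ⊕ Fin N × Fin (K₀ + 1) → ℝ :=
    Fintype.linearCombination ℝ fun w a => GG h L ψ φX φ₀ (J * m) N (pt w) (ix a)
  have hY : ∀ x a, |Y (β x) a - GG h L ψ φX φ₀ (J * m) N (q x) (ix a)| ≤ δ₁ / 2 := by
    intro x a
    simp only [Y, Fintype.linearCombination_apply, Finset.sum_apply, Pi.smul_apply, smul_eq_mul]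
    rcases a with ⟨a, c⟩ | ⟨p, c⟩
    · exact (close x (ce a * L) (Nat.mul_lt_mul_of_pos_right (ce a).2 hL)).2.1 c
    · exact (close x (L + p) (by have := p.2; omega)).2.2 c
  let Rh : Fin J → (Ω → ℝ) →ₗ[ℝ] Fin (T + 1) → Rw (Fin (ν * s)) (Fin s) k (m * L + L) → ℂ :=
    fun j => Fintype.linearCombination ℝ fun w => R ((h ^ (m * j * L)) (pt w))
  obtain ⟨G', g1', g2, g3⟩ := fd (T := T) hT hφ hφn (J := Fin J) hσ (half_pos hδ₁) hβ hc Y
    (F := fun j p t => Lam p.2 (Rh j p.1 t))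
    (fun j => contDiff_pi.2 fun t => hLam.cd.comp (contDiff_snd.prodMk
      ((contDiff_apply ℝ _ t).comp
        ((LinearMap.toContinuousLinearMap (Rh j)).contDiff.comp contDiff_fst))))
    (fun j p t hp => hLam.rg _ _ hp) (fun x j ε y u hε hy hu hu' hcnt => by
      have hj : m * j * L < J * m * L := by
        refine Nat.mul_lt_mul_of_pos_right ?_ hL
        rw [mul_comm J m]
        exact Nat.mul_lt_mul_of_pos_left j.2 (Nat.mul_pos (Nat.succ_pos _) (by omega))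
      refine H ((h ^ (m * j * L)) (q x)) (Rh j (β x)) ε y u ?_ hε (fun τ c => ?_) hu hu' hcnt
      · simp only [Rh, Fintype.linearCombination_apply]
        exact (close x _ hj).1.trans (half_le_self hδ₁.le)
      · have h1 := hY x (Sum.inl ((j, τ), c))
        have h2 : GG h L ψ φX φ₀ (J * m) N (q x) (ix (Sum.inl ((j, τ), c))) =
            g0 h L ψ φX ((h ^ ((pos τ : ℕ) * L)) ((h ^ (m * j * L)) (q x))) c := by
          rw [← pw_add, ← add_mul, ← hce]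
          rfl
        rw [h2] at h1
        have h3 := abs_sub_le (y τ c) (Y (β x) (Sum.inl ((j, τ), c)))
          (g0 h L ψ φX ((h ^ ((pos τ : ℕ) * L)) ((h ^ (m * j * L)) (q x))) c)
        linarith [hy τ c])
  have hd : ∀ x a, |G' x a - GG h L ψ φX φ₀ (J * m) N (q x) (ix a)| ≤ 1 :=
    fun x a => by
    have h1 := abs_sub_le (G' x a) (Y (β x) a) (GG h L ψ φX φ₀ (J * m) N (q x) (ix a))
    linarith [g2 x a, hY x a]
  refine lightB hψ hL hφX hφ₀ hNL hp (G' := fun x a => G' x (ix.symm a))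
    (continuous_pi fun a => (continuous_apply _).comp g1') (fun x a => ?_) fun x => ?_
  · have h1 := hd x (ix.symm a)
    rwa [Equiv.apply_symm_apply] at h1
  rw [cnt_equiv ix.symm fun a => G' x a = 0]
  rcases g3 x with h1 | h1
  · have h2 : cnt (fun a => G' x (Sum.inr a) = 0) ≤ (K₀ + 1) * z₀ := by
      refine le_trans (cnt_mono fun a ha => ?_) ((light_site (φ₀ := φ₀) hψ N (q x)).trans
        (Nat.mul_le_mul_left _ ?_))
      · have h3 := hd x (Sum.inr a)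
        rw [ha, zero_sub, abs_neg, abs_le] at h3
        exact lt_of_lt_of_le (by norm_num) h3.1
      · exact_mod_cast (hN₀ N (by omega) _).trans hz₀
    simp only [Fintype.card_fin] at h1
    have h3 : ν * s + s = m := by rw [hm']; ring
    rw [h3] at h1
    rw [cnt_sum]
    omega
  · simp only [Fintype.card_fin] at h1
    omega

end Vale.Agent.P093
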