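import Vale.Agent.P093.Key
import Vale.Agent.P093.MidB
import Vale.Agent.P093.Defs2

/-! The choice of the constants, on test spaces. -/

open Filter Topology Set
open scoped ENNReal NNReal Matrix

noncomputable section

namespace Vale.Agent.P093

theorem keyB {X : Type} [MetricSpace X] [CompactSpace X] [Infinite X] {h : X ≃ₜ X}
    (hm : IsMinimal h) {r : ℝ≥0} (hr : HB h r) {d : ℝ} (hd : 2 * (r : ℝ) < d) :
    ∃ η₀ > 0, η₀ < d ∧ ∀ U, IsCov U →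
      (∀ᶠ N : ℕ in atTop, ∃ n : ℕ, (n : ℝ) ≤ (d + 2 * η₀) * N ∧ DLe (In h U 0 N) n) →
      ∀ (T : ℕ → Test X) (d' : ℝ), d - η₀ ≤ d' →
      (∀ V, IsCov V → ∀ η > 0, ∀ᶠ N : ℕ in atTop, ∃ n : ℕ, (n : ℝ) ≤ (d' + η) * N ∧
        DLe (fun t => In h V 0 N ((T N).p '' t)) n) →
      ∃ c > 0, ∀ᶠ N : ℕ in atTop, ∃ n : ℕ, (n : ℝ) ≤ (d' - c) * N ∧
        DLe (fun t => In h U 0 N ((T N).p '' t)) n := by
  have hr0 : (0 : ℝ) ≤ r := r.2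
  obtain ⟨κ, hκ, rfl⟩ : ∃ κ > 0, d = 2 * (r : ℝ) + 2 * κ := ⟨d / 2 - r, by linarith, by ring⟩
  obtain ⟨ν₁, h1⟩ := exists_nat_ge (8 / κ)
  rw [div_le_iff₀' hκ] at h1
  have hν₁ : 0 < ν₁ := Nat.pos_of_ne_zero fun e => by
    rw [e, Nat.cast_zero, mul_zero] at h1
    linarith
  have hν₁' : (1 : ℝ) ≤ ν₁ := by exact_mod_cast hν₁
  obtain ⟨ν, h2⟩ := exists_nat_ge (2 * (2 * (r : ℝ) + 2 * κ + 1) * ν₁ + 3)
  obtain ⟨γ, hγ⟩ : ∃ γ : ℝ, γ = 1 / (2 * ν₁ * (ν + 1)) := ⟨_, rfl⟩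
  have hγ0 : 0 < γ := by rw [hγ]; positivity
  have hγ1 : γ ≤ 1 := by
    rw [hγ, div_le_one (by positivity)]
    nlinarith [Nat.cast_nonneg (α := ℝ) ν]
  have hγd : γ / 16 < 2 * (r : ℝ) + 2 * κ := by
    have h3 : γ * ν₁ ≤ 1 := by
      rw [hγ, div_mul_eq_mul_div, one_mul, div_le_one (by positivity)]
      nlinarith [Nat.cast_nonneg (α := ℝ) ν]
    by_contra h4
    have h5 : κ * ν₁ ≤ γ * ν₁ := mul_le_mul_of_nonneg_right (by linarith) (by linarith)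
    linarith
  refine ⟨γ / 16, by positivity, hγd, fun U hU hU' T d' hd' hup => ?_⟩
  obtain ⟨δ, hδ0, hδ1, hδ2⟩ : ∃ δ > 0, δ * (4 * ((U.card : ℝ) + 1)) ≤ γ ∧
      δ * (4 * r + 2 * κ) ≤ κ :=
    ⟨min (γ / (4 * (U.card + 1))) (κ / (4 * r + 2 * κ)), by positivity,
      (le_div_iff₀ (by positivity)).1 (min_le_left _ _),
      (le_div_iff₀ (by positivity)).1 (min_le_right _ _)⟩
  obtain ⟨e₀, he₀⟩ := eventually_atTop.1
    (hU'.and (key_ev (b := 8) hγ0))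
  obtain ⟨e, he, hee⟩ : ∃ e, 0 < e ∧ e₀ ≤ e := ⟨e₀ + 1, by omega, by omega⟩
  have heL : e ≤ ν₁ * e := Nat.le_mul_of_pos_left e hν₁
  obtain ⟨⟨n₀, hn₁, hD⟩, hγL⟩ := he₀ (ν₁ * e) (hee.trans heL)
  have hn₀ : (n₀ : ℝ) ≤ (2 * (r : ℝ) + 2 * κ + γ / 4) * ((ν₁ * e : ℕ) : ℝ) :=
    hn₁.trans (mul_le_mul_of_nonneg_right (by linarith) (Nat.cast_nonneg _))
  have hK := Nat.le_ceil ((2 * (r : ℝ) + 2 * κ + γ / 4) * ((ν₁ * e : ℕ) : ℝ))
  have hK' := (Nat.ceil_lt_add_one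
    (show 0 ≤ (2 * (r : ℝ) + 2 * κ + γ / 4) * ((ν₁ * e : ℕ) : ℝ) by positivity)).le
  generalize ⌈(2 * (r : ℝ) + 2 * κ + γ / 4) * ((ν₁ * e : ℕ) : ℝ)⌉₊ = K at hK hK'
  obtain ⟨p1, p2, p3⟩ := key_par hr0 hκ h1 h2 hγ0.le hγ1 hδ0.le hδ2 he hK hK'
  obtain ⟨s, V, N₀, hs, hV, H⟩ := midB hm hr hδ0 (by nlinarith)
    (hD.mono (Nat.cast_le.1 (hn₀.trans hK))) (dle_one hU) p1 he heL p2 p3
  have hL : 0 < ν₁ * e := he.trans_le heL
  have hE : ∀ J : ℕ, (e : ℝ) * s * J = 2 * γ * ((J * ((ν + 1) * s) * (ν₁ * e) : ℕ) : ℝ) :=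
    fun J => by
      rw [hγ]
      push_cast
      field_simp
  have hm0 : 0 < (ν + 1) * s := by positivity
  generalize ν₁ * e = L at *
  generalize (ν + 1) * s = m at *
  generalize 2 * (r : ℝ) + 2 * κ = d at *
  have hd0 : 0 < d := by linarith
  obtain ⟨η, hη⟩ : ∃ η : ℝ, η = 1 / (4 * m * L) := ⟨_, rfl⟩
  have hη0 : 0 < η := by rw [hη]; positivity
  have hd1 : 0 < d' := by linarith
  obtain ⟨c, hc0, hc1, hc2, hc3⟩ : ∃ c > 0, c ≤ γ / 16 ∧ c ≤ η / 2 ∧ c ≤ d' :=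
    ⟨min (γ / 16) (min (η / 2) d'), by positivity, min_le_left _ _,
      (min_le_right _ _).trans (min_le_left _ _), (min_le_right _ _).trans (min_le_right _ _)⟩
  obtain ⟨N₁, hN₁⟩ := eventually_atTop.1 (hup V hV η hη0)
  refine ⟨c, hc0, ?_⟩
  filter_upwards [eventually_ge_atTop N₀, eventually_ge_atTop N₁,
    key_ev (b := d * ((L + m * L : ℕ) : ℝ) + U.card + 2) (show 0 < γ / 8 by positivity),
    key_ev (b := d' * ((L + m * L : ℕ) : ℝ) + 2) (show 0 < η / 2 by positivity)] with N g0 g1 g2 g3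
  obtain ⟨J, j1, j2⟩ : ∃ J, N + L ≤ J * m * L ∧ J * m * L ≤ N + (L + m * L) := by
    refine ⟨(N + L) / (m * L) + 1, ?_, ?_⟩
    · rw [mul_assoc, mul_comm]
      exact (Nat.lt_mul_div_succ _ (Nat.mul_pos hm0 hL)).le
    · have := Nat.div_mul_le_self (N + L) (m * L)
      rw [mul_assoc, add_mul, one_mul]
      omega
  obtain ⟨n, hn, hDn⟩ := hN₁ N g1
  have hN : (0 : ℝ) ≤ N := Nat.cast_nonneg N
  have k1 : (N : ℝ) ≤ ((J * m * L : ℕ) : ℝ) := Nat.cast_le.2 (by omega)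
  have k2 : ((J * m * L : ℕ) : ℝ) ≤ N + ((L + m * L : ℕ) : ℝ) := by exact_mod_cast j2
  have hz := (Nat.lt_floor_add_one ((d' - c) * N)).le
  have hz' : (d - γ / 8) * N ≤ ⌊(d' - c) * N⌋₊ + 1 :=
    (mul_le_mul_of_nonneg_right (by linarith) hN).trans hz
  refine ⟨⌊(d' - c) * N⌋₊, Nat.floor_le (mul_nonneg (by linarith) hN),
    H _ _ (T N).p.continuous J n N _ ⌈δ * N⌉₊ g0 j1 j2 hDn (Nat.le_ceil _) ?_ ?_⟩
  · have := key_one (J := J) (m := m) hd0.le hγ0.le hN (by positivity) (by push_cast; rfl) k1 k2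
      hK' hγL (hE J) (Nat.cast_nonneg _) hδ1
      (Nat.ceil_lt_add_one (mul_nonneg hδ0.le hN)).le le_rfl hz' g2
    exact_mod_cast this
  · have := key_two (J := J) hd1.le hη0.le hN k1 k2 (by
      rw [hη]
      push_cast
      field_simp) (hn.trans (mul_le_mul_of_nonneg_left k1 (by linarith))) hc2 hz g3
    exact_mod_cast this

end Vale.Agent.P093
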