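import Vale.Agent.P093.CovB
import Vale.Agent.P093.Loc

/-! The light map. -/

open Filter Topology Set
open scoped ENNReal NNReal Matrix

noncomputable section

namespace Vale.Agent.P093

variable {X : Type} [MetricSpace X] [Nonempty X] {h : X ≃ₜ X} {U : Finset (Set X)}
  {L K K₀ : ℕ} {ψ : C(X, ℝ)} {φ : Fin K → C(X, ℝ)} {φ₀ : Fin K₀ → C(X, ℝ)}

/-- All the coordinates on a window of `m` cells and `N` sites. -/
def GG (h : X ≃ₜ X) (L : ℕ) (ψ : C(X, ℝ)) (φ : Fin K → C(X, ℝ)) (φ₀ : Fin K₀ → C(X, ℝ)) (m N : ℕ)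
    (x : X) : Fin m × Fin K ⊕ Fin N × Fin K₀ → ℝ :=
  Sum.elim (fun a => g0 h L ψ φ ((h ^ ((a.1 : ℕ) * L)) x) a.2)
    fun a => g1 h L ψ φ₀ ((h ^ (L + (a.1 : ℕ))) x) a.2

open Classical in
/-- The label of a cell. -/
def light_cl (h : X ≃ₜ X) (L : ℕ) (ψ : C(X, ℝ)) {Λ : Type} (lab : X → Λ) (y : X) :
    Fin L → Option Λ :=
  fun l => if 0 < ψ ((h ^ (l : ℕ)) y) then some (lab ((h ^ (l : ℕ)) y)) else none

omit [Nonempty X] in
theorem light_cell (hψ : Mk h L ψ) (hφ : ∀ c x, φ c x ∈ Icc (0 : ℝ) 1) {Λ : Type} (lab : X → Λ)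
    {y : X} {l : ℕ} (hl : l < L) (hy : 0 < ψ ((h ^ l) y)) (c : Fin K) (y' : X) :
    (-2 < g0 h L ψ φ y' c ∧ light_cl h L ψ lab y' = light_cl h L ψ lab y) ↔
      0 < ψ ((h ^ l) y') ∧ 0 < φ c ((h ^ l) y') ∧ lab ((h ^ l) y') = lab ((h ^ l) y) := by
  constructor
  · rintro ⟨h1, h2⟩
    have h3 := congrFun h2 ⟨l, hl⟩
    simp only [light_cl, if_pos hy] at h3
    have h4 : 0 < ψ ((h ^ l) y') := by
      by_contra h5
      rw [if_neg h5] at h3
      cases h3
    rw [if_pos h4] at h3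
    refine ⟨h4, ?_, Option.some.inj h3⟩
    rw [hψ.g0_eq hl h4, yy] at h1
    rcases (hφ c ((h ^ l) y')).1.eq_or_lt with h5 | h5
    · rw [← h5] at h1
      linarith
    · exact h5
  · rintro ⟨h1, h2, h3⟩
    constructor
    · rw [hψ.g0_eq hl h1, yy]
      have : 0 < min 1 (2 * ψ ((h ^ l) y')) * φ c ((h ^ l) y') :=
        mul_pos (lt_min one_pos (by linarith)) h2
      linarith
    · funext l'
      have key : ∀ w : X, 0 < ψ ((h ^ l) w) → 0 < ψ ((h ^ (l' : ℕ)) w) → (l' : ℕ) = l := by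
        intro w a b
        rw [pw_cast] at a b
        have := hψ.zsep w b a (by
          have := l'.2
          rw [abs_lt]
          constructor <;> omega)
        omega
      by_cases e : (l' : ℕ) = l
      · simp only [light_cl, e, if_pos hy, if_pos h1, h3]
      · simp only [light_cl, if_neg fun a => e (key y hy a), if_neg fun a => e (key y' h1 a)]

omit [Nonempty X] in
theorem light_g1 (hψ : Mk h L ψ) (hφ : ∀ c x, φ₀ c x ∈ Icc (0 : ℝ) 1) {y : X} {c : Fin K₀}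
    (hy : -2 < g1 h L ψ φ₀ y c) : 0 < φ₀ c y := by
  have _ := hψ
  rcases (hφ c y).1.eq_or_lt with h5 | h5
  · rw [g1, ← h5] at hy
    linarith
  · exact h5

omit [Nonempty X] in
theorem light_open {s : Set X} (hs : ∀ x ∈ s, IsOpen s) : IsOpen s := by
  rcases s.eq_empty_or_nonempty with rfl | ⟨x, hx⟩
  · exact isOpen_empty
  · exact hs x hx

/-- Apply `zero_count` with labels in `Option (Fin L × Λ) × Option Λ₀`. For a cell coordinate
`(τ, c)` the label of `x` is `(l, lab c ((h ^ (τ * L + l)) x))` where `l < L` is the (unique)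
position with `0 < ψ ((h ^ (τ * L + l)) x)`; the set of `ho` is then the open set
`0 < ψ ∧ 0 < φ c ∧ lab c = λ` at `(h ^ (τ * L + l)) x` (`g0_eq`, `g0_none`). For a site
coordinate the label is `lab₀ c ((h ^ (L + p)) x)`. For `hs` let `p < N`: if there is `i < L` with
`1 / 2 ≤ ψ ((h ^ (L + p - i)) x)` write `L + p - i = τ * L + l`, `τ < m`, take `c` with `φ c = 1`
at this point, so `G x (τ, c) = 2`, and use `Col.small` at the time `i`. Otherwise the weight in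
`g1` is `1`; take `c` with `φ₀ c = 1`. -/
theorem light (hψ : Mk h L ψ) (hL : 0 < L) {Λ Λ₀ : Type} [Fintype Λ] [Fintype Λ₀]
    {lab : Fin K → X → Λ} {lab₀ : Fin K₀ → X → Λ₀} (hφ : Col (In h U 0 L) φ lab)
    (hφ₀ : Col (In h U 0 1) φ₀ lab₀) {m N : ℕ} (hN : N + L ≤ m * L)
    {G' : X → Fin m × Fin K ⊕ Fin N × Fin K₀ → ℝ} (hG' : Continuous G')
    (hd : ∀ x c, |G' x c - GG h L ψ φ φ₀ m N x c| ≤ 1) {z : ℕ}
    (hz : ∀ x, cnt (fun c => G' x c = 0) ≤ z) : DLe (In h U L N) z := by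
  classical
  refine zero_count (G := GG h L ψ φ φ₀ m N) (Λ := (Fin L → Option Λ) ⊕ Λ₀)
    (fun _ _ => In.anti h) hG'
    (Sum.elim (fun a x => Sum.inl (light_cl h L ψ (lab a.2) ((h ^ ((a.1 : ℕ) * L)) x)))
      fun a x => Sum.inr (lab₀ a.2 ((h ^ (L + (a.1 : ℕ))) x))) ?_ ?_ hd hz
  · rintro (⟨τ, c⟩ | ⟨p, c⟩) l
    · refine light_open fun x hx => ?_
      obtain ⟨h1, rfl⟩ := hx
      simp only [GG, Sum.elim_inl, Sum.inl.injEq] at h1 ⊢
      obtain ⟨l, hl, hy⟩ : ∃ l < L, 0 < ψ ((h ^ l) ((h ^ ((τ : ℕ) * L)) x)) := by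
        by_contra h2
        push Not at h2
        rw [hψ.g0_none (fun l hl => not_lt.2 (h2 l hl))] at h1
        exact lt_irrefl _ h1
      simp only [light_cell hψ hφ.mem (lab c) hl hy c]
      have hc : Continuous fun x' => (h ^ l) ((h ^ ((τ : ℕ) * L)) x') :=
        (h ^ l).continuous.comp (h ^ ((τ : ℕ) * L)).continuous
      exact (isOpen_lt continuous_const (ψ.continuous.comp hc)).inter
        ((hφ.opn c (lab c ((h ^ l) ((h ^ ((τ : ℕ) * L)) x)))).preimage hc)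
    · refine light_open fun x hx => ?_
      obtain ⟨-, rfl⟩ := hx
      simp only [GG, Sum.elim_inr, Sum.inr.injEq]
      have hc := (h ^ (L + (p : ℕ))).continuous
      have h1 := (isOpen_lt (continuous_const (y := (-2 : ℝ))) ((continuous_apply c).comp
        ((continuous_g1 (h := h) (L := L) (ψ := ψ) (φ := φ₀)).comp hc))).inter
        ((hφ₀.opn c (lab₀ c ((h ^ (L + (p : ℕ))) x))).preimage hc)
      refine (congrArg IsOpen (Set.ext fun x' => ?_)).mp h1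
      exact ⟨fun a => ⟨a.1, a.2.2⟩, fun a => ⟨a.1, light_g1 hψ hφ₀.mem a.1, a.2⟩⟩
  · intro x p hp
    by_cases hc : ∃ i < L, 1 / 2 ≤ ψ ((h⁻¹ ^ i) ((h ^ (L + p)) x))
    · obtain ⟨i, hi, hx⟩ := hc
      obtain ⟨n, hn⟩ : ∃ n, L + p = i + n := ⟨L + p - i, by omega⟩
      have e1 : ∀ w : X, (h ^ (L + p)) w = (h ^ i) ((h ^ n) w) := fun w => by rw [hn, pw_add]
      have e2 : (h⁻¹ ^ i) ((h ^ (L + p)) x) = (h ^ n) x := by
        rw [e1, inv_pw, pw_cast h i, ← zpw_add, neg_add_cancel, zpw_zero]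
      have e3 : ∀ w : X, (h ^ (n % L)) ((h ^ (n / L * L)) w) = (h ^ n) w := fun w => by
        rw [← pw_add, Nat.mod_add_div']
      have hτ : n / L < m := by
        rw [Nat.div_lt_iff_lt_mul hL]
        omega
      have hl : n % L < L := Nat.mod_lt _ hL
      rw [e2] at hx
      obtain ⟨c, hc⟩ := hφ.one ((h ^ n) x)
      have hy : 0 < ψ ((h ^ (n % L)) ((h ^ (n / L * L)) x)) := by
        rw [e3]
        linarith
      obtain ⟨u, hu, h1⟩ := hφ.small c (lab c ((h ^ n) x)) i hi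
      refine ⟨u, hu, fun x' hx' => ?_⟩
      have h2 := hx' (Sum.inl (⟨n / L, hτ⟩, c)) (by
        simp only [GG, Sum.elim_inl]
        rw [hψ.g0_eq hl hy, e3, yy, hc, min_eq_left (by linarith)]
        norm_num)
      simp only [GG, Sum.elim_inl, Sum.inl.injEq] at h2
      rw [light_cell hψ hφ.mem (lab c) hl hy c, e3, e3] at h2
      have h3 := h1 ((h ^ n) x') h2.2
      rwa [zero_add, ← e1] at h3
    · push Not at hc
      obtain ⟨c, hc'⟩ := hφ₀.one ((h ^ (L + p)) x)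
      obtain ⟨u, hu, h1⟩ := hφ₀.small c (lab₀ c ((h ^ (L + p)) x)) 0 one_pos
      refine ⟨u, hu, fun x' hx' => ?_⟩
      have h2 := hx' (Sum.inr (⟨p, hp⟩, c)) (by
        simp only [GG, Sum.elim_inr]
        rw [g1, hc', Finset.sum_eq_zero fun i hi =>
          max_eq_left (by linarith [hc i (Finset.mem_range.1 hi)])]
        norm_num)
      simp only [GG, Sum.elim_inr, Sum.inr.injEq] at h2
      exact h1 ((h ^ (L + p)) x') ⟨light_g1 hψ hφ₀.mem h2.1, h2.2⟩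

omit [Nonempty X] in
/-- `g1_cvd`, `cnt_prod`. -/
theorem light_site (hψ : Mk h L ψ) (N : ℕ) (x : X) :
    cnt (fun a : Fin N × Fin K₀ => -2 < g1 h L ψ φ₀ ((h ^ (L + (a.1 : ℕ))) x) a.2) ≤
      K₀ * cnt fun p : Fin N => ¬Cvd h L ψ ((h ^ (p : ℕ)) ((h ^ L) x)) := by
  classical
  rw [cnt_prod, cnt_eq_sum, Finset.mul_sum]
  refine Finset.sum_le_sum fun p _ => ?_
  split_ifs with hp
  · rw [← pw_add, add_comm] at hp
    refine (cnt_eq_zero.2 fun c => ?_).le.trans (Nat.zero_le _)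
    rw [hψ.g1_cvd hp]
    exact lt_irrefl _
  · simpa using cnt_le fun c : Fin K₀ => -2 < g1 h L ψ φ₀ ((h ^ (L + (p : ℕ))) x) c

/-- `zero_count` with `G = G'`, `G x (p, c) = 4 * φ₀ c ((h ^ p) x) - 2`. -/
theorem dle_lin {Λ₀ : Type} [Fintype Λ₀] {lab₀ : Fin K₀ → X → Λ₀}
    (hφ₀ : Col (In h U 0 1) φ₀ lab₀) (N : ℕ) : DLe (In h U 0 N) (N * K₀) := by
  classical
  refine zero_count (A := Fin N × Fin K₀)
    (G := fun x a => 4 * φ₀ a.2 ((h ^ (a.1 : ℕ)) x) - 2)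
    (G' := fun x a => 4 * φ₀ a.2 ((h ^ (a.1 : ℕ)) x) - 2) (fun _ _ => In.anti h)
    (continuous_pi fun a => (continuous_const.mul
      ((φ₀ a.2).continuous.comp (h ^ (a.1 : ℕ)).continuous)).sub continuous_const)
    (fun a x => lab₀ a.2 ((h ^ (a.1 : ℕ)) x)) (fun a l => ?_) (fun x p hp => ?_)
    (fun x c => by simp) fun x => (cnt_le _).trans (by simp)
  · refine (congrArg IsOpen (Set.ext fun x' => ?_)).mp
      ((hφ₀.opn a.2 l).preimage (h ^ (a.1 : ℕ)).continuous)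
    exact ⟨fun b => ⟨by linarith [b.1], b.2⟩, fun b => ⟨by linarith [b.1], b.2⟩⟩
  · obtain ⟨c, hc⟩ := hφ₀.one ((h ^ p) x)
    obtain ⟨u, hu, h1⟩ := hφ₀.small c (lab₀ c ((h ^ p) x)) 0 one_pos
    refine ⟨u, hu, fun x' hx' => ?_⟩
    have h2 := hx' (⟨p, hp⟩, c) (by
      simp only [hc]
      norm_num)
    rw [zero_add]
    exact h1 ((h ^ p) x') ⟨by linarith [h2.1], h2.2⟩

end Vale.Agent.P093
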