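import Vale.Agent.P093.Key

/-! The main theorem. -/

open Filter Topology Set
open scoped ENNReal NNReal Matrix

noncomputable section

namespace Vale.Agent.P093

/-- `mdimU h U` is finite (`dle_one`, `exists_col`, `dle_lin`, `dle_iff`); let `d` be its real
value. If `2 * r < d`, `key` gives `mdimU h U ≤ ENNReal.ofReal (d - c)`. -/
theorem main {X : Type} [MetricSpace X] [CompactSpace X] [Infinite X] {h : X ≃ₜ X}
    (hm : IsMinimal h) {U : Finset (Set X)} (hU : IsCov U) (ha : mdimU h U = mdim h)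
    {A : Type} [CStarAlgebra A] [PartialOrder A] [StarOrderedRing A] (hA : IsCrossed h A) :
    mdim h / 2 ≤ rc A := by
  obtain ⟨φ₀, Λ₀, _, lab₀, hφ₀⟩ := exists_col (fun s t hst ht => In.anti h hst ht)
    (dle_one (h := h) hU)
  have hb : ∀ (V : Finset (Set X)) (c : ℝ), 0 ≤ c →
      (∀ᶠ N : ℕ in atTop, (Dd (join h V N) : ℝ) ≤ c * N) → mdimU h V ≤ ENNReal.ofReal c := by
    intro V c hc hN
    refine limsup_le_of_le (by isBoundedDefault) (hN.mono fun N h1 => ?_)
    refine ENNReal.div_le_of_le_mul ?_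
    rw [← ENNReal.ofReal_natCast, ← ENNReal.ofReal_natCast N, ← ENNReal.ofReal_mul hc]
    exact ENNReal.ofReal_le_ofReal h1
  have hfin : mdim h ≠ ⊤ := by
    rw [← ha]
    refine ne_top_of_le_ne_top ENNReal.ofReal_ne_top (hb U (U.card + 1 : ℕ) (Nat.cast_nonneg _)
      (Eventually.of_forall fun N => ?_))
    have h1 := (dle_iff hU N _).2 (dle_lin hφ₀ N)
    rw [mul_comm]
    exact_mod_cast h1
  refine le_iInf₂ fun r hr => ?_
  refine ENNReal.div_le_of_le_mul (le_of_not_gt fun hlt => ?_)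
  have hd : 2 * (r : ℝ) < (mdim h).toReal := by
    have h1 := (ENNReal.toReal_lt_toReal (by finiteness) hfin).2 hlt
    simpa [mul_comm] using h1
  have h0 : 0 < (mdim h).toReal := lt_of_le_of_lt (by positivity) hd
  obtain ⟨c, hc, hN⟩ := key hm hU ⟨A, _, _, _, hA, hr⟩ hd fun V hV η hη => by
    have h1 : mdimU h V < ENNReal.ofReal ((mdim h).toReal + η) := by
      refine lt_of_le_of_lt (le_iSup₂ (f := fun U (_ : IsCov U) => mdimU h U) V hV) ?_
      change mdim h < _
      rw [ENNReal.lt_ofReal_iff_toReal_lt hfin]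
      linarith
    filter_upwards [eventually_lt_of_limsup_lt h1, eventually_gt_atTop 0] with N h2 h3
    refine ⟨_, ?_, (dle_iff hV N _).1 le_rfl⟩
    rw [ENNReal.div_lt_iff (Or.inl (by exact_mod_cast h3.ne')) (Or.inl (by simp)),
      ← ENNReal.ofReal_natCast, ← ENNReal.ofReal_natCast N,
      ← ENNReal.ofReal_mul (by positivity)] at h2
    exact ((ENNReal.ofReal_lt_ofReal_iff (by positivity)).1 h2).le
  have h1 := hb U (max ((mdim h).toReal - c) 0) (le_max_right _ _) (hN.mono fun N ⟨n, h2, h3⟩ => by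
    have h4 : (Dd (join h U N) : ℝ) ≤ n := by exact_mod_cast (dle_iff hU N n).2 h3
    exact h4.trans (h2.trans (mul_le_mul_of_nonneg_right (le_max_left _ _) (Nat.cast_nonneg _))))
  rw [ha, ENNReal.le_ofReal_iff_toReal_le hfin (le_max_right _ _)] at h1
  rcases le_max_iff.1 h1 with h2 | h2 <;> linarith

end Vale.Agent.P093
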