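import Vale.Agent.P093.KeyB
import Vale.Agent.P093.Main

/-! The main theorem on test spaces. -/

open Filter Topology Set
open scoped ENNReal NNReal Matrix

noncomputable section

namespace Vale.Agent.P093

theorem dle_gen {Y : Type} [TopologicalSpace Y] {V : Finset (Set Y)} (hV : IsCov V)
    {P : Set Y → Prop} (hP : ∀ s, (∃ v ∈ V, s ⊆ v) ↔ P s) (n : ℕ) : Dd V ≤ n ↔ DLe P n := by
  classical
  constructor
  · intro hd
    obtain ⟨W, hW, hr, ho⟩ := Nat.sInf_mem (s := {n : ℕ | ∃ W, IsCov W ∧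
      (∀ w ∈ W, ∃ v ∈ V, w ⊆ v) ∧ ord W = n})
      ⟨_, V, hV, fun w hw => ⟨w, hw, subset_rfl⟩, rfl⟩
    have ho' : ord W ≤ n := ho ▸ hd
    refine ⟨W, inferInstance, Subtype.val, fun i => hW.1 _ i.2, fun x => ?_,
      fun i => (hP _).1 (hr _ i.2), fun x => (cova_cnt W x).trans (by omega)⟩
    obtain ⟨u, hu, hx⟩ := hW.2 x
    exact ⟨⟨u, hu⟩, hx⟩
  · rintro ⟨ι, _, W, h1, h2, h3, h4⟩
    refine le_trans (Nat.sInf_le (s := {n : ℕ | ∃ W, IsCov W ∧
      (∀ w ∈ W, ∃ v ∈ V, w ⊆ v) ∧ ord W = n}) (m := ord (Finset.univ.image W))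
      ⟨Finset.univ.image W, ⟨fun u hu => ?_, fun x => ?_⟩, fun w hw => ?_, rfl⟩) ?_
    · obtain ⟨i, -, rfl⟩ := Finset.mem_image.1 hu
      exact h1 i
    · obtain ⟨i, hi⟩ := h2 x
      exact ⟨W i, Finset.mem_image_of_mem _ (Finset.mem_univ _), hi⟩
    · obtain ⟨i, -, rfl⟩ := Finset.mem_image.1 hw
      exact (hP _).2 (h3 i)
    · refine Nat.sub_le_of_le_add (csSup_le' ?_)
      rintro _ ⟨S, hS, rfl, x, hx⟩
      refine le_trans ?_ (h4 x)
      rw [cnt_eq]
      refine le_trans (Finset.card_le_card fun s hs => ?_) (Finset.card_image_le (f := W))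
      obtain ⟨i, -, rfl⟩ := Finset.mem_image.1 (hS hs)
      exact Finset.mem_image_of_mem _ (Finset.mem_filter.2 ⟨Finset.mem_univ _, hx _ hs⟩)

variable {X : Type} [MetricSpace X] {h : X ≃ₜ X} {U : Finset (Set X)}

theorem dle_pull (hU : IsCov U) (T : Test X) (N n : ℕ) :
    Dd (T.pull (join h U N)) ≤ n ↔ DLe (fun t => In h U 0 N (T.p '' t)) n := by
  classical
  have h1 := cova_join (h := h) hU N
  refine dle_gen ⟨fun u hu => ?_, fun y => ?_⟩ (fun s => ?_) n
  · obtain ⟨v, hv, rfl⟩ := Finset.mem_image.1 hu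
    exact (h1.1 v hv).preimage T.p.continuous
  · obtain ⟨v, hv, hy⟩ := h1.2 (T.p y)
    exact ⟨_, Finset.mem_image_of_mem _ hv, hy⟩
  · rw [← cova_mem]
    constructor
    · rintro ⟨u, hu, hs⟩
      obtain ⟨v, hv, rfl⟩ := Finset.mem_image.1 hu
      exact ⟨v, hv, image_subset_iff.2 hs⟩
    · rintro ⟨v, hv, hs⟩
      exact ⟨_, Finset.mem_image_of_mem _ hv, image_subset_iff.1 hs⟩

theorem pull_le (hU : IsCov U) (T : Test X) (N : ℕ) :
    Dd (T.pull (join h U N)) ≤ Dd (join h U N) := by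
  obtain ⟨ι, _, W, h1, h2, h3, h4⟩ := (dle_iff (h := h) hU N _).1 le_rfl
  exact (dle_pull hU T N _).2 ⟨ι, _, fun i => T.p ⁻¹' W i, fun i => (h1 i).preimage T.p.continuous,
    fun y => h2 _, fun i => In.anti h (image_preimage_subset _ _) (h3 i), fun y => h4 _⟩

theorem lims_le {a : ℕ → ℕ} {c : ℝ} (hc : 0 ≤ c) (hN : ∀ᶠ N : ℕ in atTop, (a N : ℝ) ≤ c * N) :
    limsup (fun N : ℕ => (a N : ℝ≥0∞) / N) atTop ≤ ENNReal.ofReal c := by
  refine limsup_le_of_le (by isBoundedDefault) (hN.mono fun N h1 => ?_)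
  refine ENNReal.div_le_of_le_mul ?_
  rw [← ENNReal.ofReal_natCast, ← ENNReal.ofReal_natCast N, ← ENNReal.ofReal_mul hc]
  exact ENNReal.ofReal_le_ofReal h1

theorem ev_of_lims {a : ℕ → ℕ} {c : ℝ}
    (h1 : limsup (fun N : ℕ => (a N : ℝ≥0∞) / N) atTop < ENNReal.ofReal c) :
    ∀ᶠ N : ℕ in atTop, (a N : ℝ) ≤ c * N := by
  have hc : 0 < c := ENNReal.ofReal_pos.1 (lt_of_le_of_lt zero_le h1)
  filter_upwards [eventually_lt_of_limsup_lt h1, eventually_gt_atTop 0] with N h2 h3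
  rw [ENNReal.div_lt_iff (Or.inl (by exact_mod_cast h3.ne')) (Or.inl (by simp)),
    ← ENNReal.ofReal_natCast, ← ENNReal.ofReal_natCast N,
    ← ENNReal.ofReal_mul (by positivity)] at h2
  exact ((ENNReal.ofReal_lt_ofReal_iff (by positivity)).1 h2).le

theorem mainB [CompactSpace X] [Infinite X] (hm : IsMinimal h) {d : ℝ≥0} (hd : Realized h d)
    {A : Type} [CStarAlgebra A] [PartialOrder A] [StarOrderedRing A] (hA : IsCrossed h A) :
    (d : ℝ≥0∞) / 2 ≤ rc A := by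
  refine le_iInf₂ fun r hr => ENNReal.div_le_of_le_mul (le_of_not_gt fun hlt => ?_)
  have h0 : 2 * (r : ℝ) < d := by
    rw [mul_comm]
    exact_mod_cast hlt
  obtain ⟨η, hη, hηd, H⟩ := keyB hm ⟨A, _, _, _, hA, hr⟩ h0
  lift η to ℝ≥0 using hη.le
  obtain ⟨U, hU, h1, T, h2, h3⟩ := hd η (by exact_mod_cast hη)
  have h4 : rel h T U ≤ mdimU h U :=
    limsup_le_limsup (Eventually.of_forall fun N =>
      ENNReal.div_le_div_right (by exact_mod_cast pull_le hU (T N) N) _)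
  have hfin : rel h T U ≠ ⊤ := ne_top_of_le_ne_top (by finiteness) (h4.trans h1)
  have h5 : (d : ℝ) - η ≤ (rel h T U).toReal := by
    have h6 := ENNReal.toReal_mono (by finiteness) h2
    rw [ENNReal.toReal_add hfin (by finiteness)] at h6
    simpa using h6
  obtain ⟨c, hc, hN⟩ := H U hU (by
      have h6 : mdimU h U < ENNReal.ofReal (d + 2 * η) := by
        refine lt_of_le_of_lt h1 ?_
        rw [← ENNReal.coe_add, ← ENNReal.ofReal_coe_nnreal, ENNReal.ofReal_lt_ofReal_iff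
          (by positivity), NNReal.coe_add]
        linarith
      exact (ev_of_lims h6).mono fun N h7 => ⟨_, h7, (dle_iff hU N _).1 le_rfl⟩)
    T _ h5 fun V hV η' hη' => by
      have h6 : rel h T V < ENNReal.ofReal ((rel h T U).toReal + η') := by
        refine lt_of_le_of_lt (h3 V hV) ?_
        rw [ENNReal.lt_ofReal_iff_toReal_lt hfin]
        linarith
      exact (ev_of_lims h6).mono fun N h7 => ⟨_, h7, (dle_pull hV (T N) N _).1 le_rfl⟩
  have h6 := lims_le (a := fun N => Dd ((T N).pull (join h U N)))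
    (le_max_right ((rel h T U).toReal - c) 0) (hN.mono fun N ⟨n, h7, h8⟩ => by
      have h9 : (Dd ((T N).pull (join h U N)) : ℝ) ≤ n := by
        exact_mod_cast (dle_pull hU (T N) N n).2 h8
      exact h9.trans (h7.trans
        (mul_le_mul_of_nonneg_right (le_max_left _ _) (Nat.cast_nonneg _))))
  change rel h T U ≤ _ at h6
  rw [ENNReal.le_ofReal_iff_toReal_le hfin (le_max_right _ _)] at h6
  rcases le_max_iff.1 h6 with h7 | h7 <;> linarith

end Vale.Agent.P093
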