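import Vale.Agent.P093.Pw

/-! A bump function with long and bounded return times. -/

open Filter Topology Set
open scoped ENNReal NNReal Matrix

noncomputable section

namespace Vale.Agent.P093

variable {X : Type} [MetricSpace X] [CompactSpace X] [Infinite X] {h : X ≃ₜ X}

omit [CompactSpace X] in
/-- A periodic orbit is finite, closed and dense. -/
theorem IsMinimal.free (hm : IsMinimal h) (x : X) {n : ℤ} (hn : n ≠ 0) : (h ^ n) x ≠ x := by
  intro hx
  have hp : Function.Periodic (fun m : ℤ => (h ^ m) x) n := fun m => by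
    simp only [zpw_add, hx]
  have hf : (range fun m : ℤ => (h ^ m) x).Finite := by
    rw [← hp.image_uIcc hn 0]
    exact (finite_uIcc _ _).image _
  have hc := (hm x).closure_eq
  rw [hf.isClosed.closure_eq] at hc
  exact infinite_univ (hc ▸ hf)

omit [CompactSpace X] in
theorem marka_ball (hm : IsMinimal h) (x₀ : X) (L₀ : ℕ) : ∃ δ > (0 : ℝ), ∀ y z : X,
    dist y x₀ < δ → dist z x₀ < δ → ∀ j : ℤ, |j| < L₀ → (h ^ j) y = z → j = 0 := by
  have h1 : ∀ᶠ p : X × X in 𝓝 (x₀, x₀), ∀ j ∈ Ioo (-(L₀ : ℤ)) L₀, j ≠ 0 → (h ^ j) p.1 ≠ p.2 := by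
    refine (eventually_all_finite (finite_Ioo _ _)).2 fun j _ => ?_
    by_cases hj : j = 0
    · exact Eventually.of_forall fun _ h' => absurd hj h'
    · have ho : IsOpen {p : X × X | (h ^ j) p.1 ≠ p.2} :=
        isOpen_ne_fun ((h ^ j).continuous.comp continuous_fst) continuous_snd
      filter_upwards [ho.mem_nhds (show (x₀, x₀) ∈ {p : X × X | (h ^ j) p.1 ≠ p.2} from
        hm.free x₀ hj)] with p hp _ using hp
  obtain ⟨δ, hδ, hb⟩ := Metric.eventually_nhds_iff.1 h1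
  refine ⟨δ, hδ, fun y z hy hz j hj he => ?_⟩
  by_contra hj0
  exact hb (y := (y, z)) (by rw [Prod.dist_eq]; exact max_lt hy hz) j (abs_lt.1 hj) hj0 he

/-- Take a point `x₀` and an open neighbourhood `O` with `h ^ j O ∩ O = ∅` for `0 < |j| < L₀`;
`φ = 1` near `x₀`, `φ = 0` outside `O` (`exists_continuous_zero_one_of_isClosed` or a function of
the distance to `x₀`). The preimages of a small ball under the `h ^ n`, `n : ℤ`, cover `X`;
a finite subcover gives `|n| ≤ g`; apply this to `(h ^ (g + 1)) x` and take `Γ = 2 * g + 1`. -/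
theorem exists_bump (hm : IsMinimal h) (L₀ : ℕ) : ∃ (φ : C(X, ℝ)) (Γ : ℕ),
    (∀ x, φ x ∈ Icc (0 : ℝ) 1) ∧
    (∀ x (a b : ℤ), 0 < φ ((h ^ a) x) → 0 < φ ((h ^ b) x) → |a - b| < L₀ → a = b) ∧
    ∀ x (n : ℤ), ∃ n' : ℤ, n < n' ∧ n' ≤ n + Γ ∧ φ ((h ^ n') x) = 1 := by
  classical
  obtain ⟨x₀⟩ : Nonempty X := inferInstance
  obtain ⟨δ, hδ, hb⟩ := marka_ball hm x₀ L₀
  let φ : C(X, ℝ) := ⟨fun x => max 0 (min 1 (2 - 2 * dist x x₀ / δ)), by fun_prop⟩
  have hφ : ∀ x, φ x = max 0 (min 1 (2 - 2 * dist x x₀ / δ)) := fun _ => rfl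
  have hpos : ∀ x, 0 < φ x → dist x x₀ < δ := fun x hx => by
    rw [hφ, lt_max_iff, lt_min_iff] at hx
    rcases hx with hx | hx
    · exact absurd hx (lt_irrefl _)
    · have := hx.2
      rw [sub_pos, div_lt_iff₀ hδ] at this
      linarith
  have hone : ∀ x, dist x x₀ < δ / 2 → φ x = 1 := fun x hx => by
    have : 2 * dist x x₀ / δ ≤ 1 := by
      rw [div_le_one hδ]
      linarith
    rw [hφ, min_eq_left (by linarith), max_eq_right zero_le_one]
  obtain ⟨t, ht⟩ := isCompact_univ.elim_finite_subcover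
    (fun n : ℤ => (h ^ n) ⁻¹' Metric.ball x₀ (δ / 2))
    (fun n => Metric.isOpen_ball.preimage (h ^ n).continuous) fun x _ => by
      obtain ⟨_, ⟨n, rfl⟩, hn⟩ := (hm x).exists_mem_open Metric.isOpen_ball
        ⟨x₀, Metric.mem_ball_self (half_pos hδ)⟩
      exact mem_iUnion.2 ⟨n, hn⟩
  obtain ⟨g, hg⟩ : ∃ g : ℕ, ∀ n ∈ t, n.natAbs ≤ g :=
    ⟨t.sup Int.natAbs, fun n hn => Finset.le_sup (f := Int.natAbs) hn⟩
  refine ⟨φ, 2 * g + 1, fun x => ⟨le_max_left _ _, max_le zero_le_one (min_le_left _ _)⟩,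
    fun x a b ha hb' hab => ?_, fun x n => ?_⟩
  · have := hb _ _ (hpos _ hb') (hpos _ ha) (a - b) hab (by rw [← zpw_add, sub_add_cancel])
    omega
  · obtain ⟨m, hm1, hm2⟩ := mem_iUnion₂.1 (ht (mem_univ ((h ^ (n + g + 1)) x)))
    have := hg m hm1
    refine ⟨m + (n + g + 1), by omega, by push_cast; omega, hone _ ?_⟩
    rw [zpw_add]
    exact hm2

end Vale.Agent.P093
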