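import Vale.Agent.P093.MarkA

/-! Markers. -/

open Filter Topology Set
open scoped ENNReal NNReal Matrix

noncomputable section

namespace Vale.Agent.P093

variable {X : Type} [MetricSpace X] [CompactSpace X] [Infinite X] {h : X ≃ₜ X}

section Seq

variable {Γ L : ℕ} {f : ℤ → ℝ}

/-- Activation times relative to the time `t`. -/
def markb_A (Γ : ℕ) (f : ℤ → ℝ) (n t : ℤ) : ℝ := n - t + Γ * (1 - f n)

/-- The first later activation time. -/
def markb_B (Γ : ℕ) (f : ℤ → ℝ) (n t : ℤ) : ℝ :=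
  (Finset.range (Γ + 1)).inf' Finset.nonempty_range_add_one fun i => markb_A Γ f (n + 1 + i) t

/-- The weight of `n` at the time `t`. -/
def markb_V (Γ L : ℕ) (f : ℤ → ℝ) (n t : ℤ) : ℝ :=
  max 0 (min 1 (min (-markb_A Γ f n t) (markb_B Γ f n t - L)))

/-- The marker at the time `t`. -/
def markb_P (Γ L : ℕ) (f : ℤ → ℝ) (t : ℤ) : ℝ :=
  ∑ m ∈ (Finset.Icc (-(Γ : ℤ)) 0).filter ((L : ℤ) ∣ ·), markb_V Γ L f (m + t) t

theorem markb_A_shift (n t : ℤ) :
    markb_A Γ (fun n => f (n + t)) n 0 = markb_A Γ f (n + t) t := by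
  simp only [markb_A]
  push_cast
  ring

theorem markb_shift (t : ℤ) : markb_P Γ L (fun n => f (n + t)) 0 = markb_P Γ L f t := by
  refine Finset.sum_congr rfl fun m _ => ?_
  simp only [markb_V, markb_B, markb_A_shift, add_zero, add_right_comm _ _ t]

theorem markb_A_time (n t t' : ℤ) : markb_A Γ f n t = markb_A Γ f n t' + (t' - t) := by
  simp only [markb_A]
  ring

theorem markb_V_nonneg (n t : ℤ) : 0 ≤ markb_V Γ L f n t := le_max_left _ _

theorem markb_V_le (n t : ℤ) : markb_V Γ L f n t ≤ 1 := max_le zero_le_one (min_le_left _ _)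

theorem markb_V_pos {n t : ℤ} (h : 0 < markb_V Γ L f n t) :
    markb_A Γ f n t < 0 ∧ (L : ℝ) < markb_B Γ f n t := by
  rcases lt_max_iff.1 h with h | h
  · exact absurd h (lt_irrefl _)
  · have h1 := lt_min_iff.1 (lt_min_iff.1 h).2
    exact ⟨neg_pos.1 h1.1, sub_pos.1 h1.2⟩

theorem markb_le_B {n t : ℤ} {c : ℝ} (h : ∀ n', n < n' → c ≤ markb_A Γ f n' t) :
    c ≤ markb_B Γ f n t :=
  Finset.le_inf' _ _ fun i _ => h _ (by omega)

theorem markb_P_nonneg (t : ℤ) : 0 ≤ markb_P Γ L f t :=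
  Finset.sum_nonneg fun _ _ => markb_V_nonneg _ _

theorem markb_P_pos {t : ℤ} (h : 0 < markb_P Γ L f t) :
    ∃ m, (L : ℤ) ∣ m ∧ 0 < markb_V Γ L f (m + t) t := by
  obtain ⟨m, hm, h0⟩ := Finset.exists_ne_zero_of_sum_ne_zero h.ne'
  exact ⟨m, (Finset.mem_filter.1 hm).2, lt_of_le_of_ne (markb_V_nonneg _ _) h0.symm⟩

variable (h1 : ∀ n, f n ∈ Icc (0 : ℝ) 1) (h3 : ∀ n : ℤ, ∃ n', n < n' ∧ n' ≤ n + Γ ∧ f n' = 1)

include h1 in
theorem markb_le_A (n t : ℤ) : (n : ℝ) - t ≤ markb_A Γ f n t :=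
  le_add_of_nonneg_right (mul_nonneg (Nat.cast_nonneg _) (sub_nonneg.2 (h1 n).2))

include h1 in
theorem markb_A_le (n t : ℤ) : markb_A Γ f n t ≤ n - t + Γ := by
  have := mul_nonneg (Nat.cast_nonneg (α := ℝ) Γ) (h1 n).1
  simp only [markb_A]
  linarith

theorem markb_B_le0 {n n' : ℤ} (t : ℤ) (h : n < n') (h' : n' ≤ n + Γ) :
    markb_B Γ f n t ≤ markb_A Γ f n' t := by
  have e : n' = n + 1 + ((n' - n - 1).toNat : ℕ) := by omega
  rw [e]
  exact Finset.inf'_le (fun i : ℕ => markb_A Γ f (n + 1 + i) t) (Finset.mem_range.2 (by omega))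

include h1 h3 in
theorem markb_B_le {n n' : ℤ} (t : ℤ) (h : n < n') : markb_B Γ f n t ≤ markb_A Γ f n' t := by
  rcases le_or_gt n' (n + Γ) with h' | h'
  · exact markb_B_le0 t h h'
  · obtain ⟨m, a, b, c⟩ := h3 n
    refine (markb_B_le0 t a b).trans (le_trans ?_ (markb_le_A h1 n' t))
    have : (m : ℝ) ≤ n' := by exact_mod_cast (b.trans h'.le)
    simp only [markb_A, c]
    linarith

include h1 h3 in
theorem markb_uniq {n n' t t' : ℤ} (h : 0 < markb_V Γ L f n t) (h' : 0 < markb_V Γ L f n' t')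
    (ha : t ≤ t') (hb : t' ≤ t + L) : n = n' := by
  obtain ⟨a, b⟩ := markb_V_pos h
  obtain ⟨a', b'⟩ := markb_V_pos h'
  have ha' : (t : ℝ) ≤ t' := by exact_mod_cast ha
  have hb' : (t' : ℝ) ≤ t + L := by exact_mod_cast hb
  have hL : (0 : ℝ) ≤ L := Nat.cast_nonneg _
  rcases lt_trichotomy n n' with c | c | c
  · have := markb_B_le h1 h3 t c
    rw [markb_A_time n' t t'] at this
    linarith
  · exact c
  · have := markb_B_le h1 h3 t' c
    rw [markb_A_time n t' t] at this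
    linarith

include h1 h3 in
theorem markb_P_le (t : ℤ) : markb_P Γ L f t ≤ 1 := by
  rcases (markb_P_nonneg (Γ := Γ) (L := L) (f := f) t).eq_or_lt with h | h
  · rw [← h]
    exact zero_le_one
  · obtain ⟨m, -, hm⟩ := markb_P_pos h
    have h0 : ∀ m', m' ≠ m → markb_V Γ L f (m' + t) t = 0 := fun m' hm' =>
      (markb_V_nonneg _ _).eq_or_lt.elim Eq.symm fun h' =>
        absurd (add_right_cancel (markb_uniq h1 h3 h' hm le_rfl (by omega))) hm'
    unfold markb_P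
    by_cases hc : m ∈ (Finset.Icc (-(Γ : ℤ)) 0).filter ((L : ℤ) ∣ ·)
    · rw [Finset.sum_eq_single_of_mem m hc fun m' _ => h0 m']
      exact markb_V_le _ _
    · rw [Finset.sum_eq_zero fun m' hm' => h0 m' fun e => hc (e ▸ hm')]
      exact zero_le_one

include h1 h3 in
theorem markb_sep {j : ℕ} (h0 : 0 < j) (hj : j < L) (h : 0 < markb_P Γ L f 0) :
    markb_P Γ L f j = 0 := by
  refine (markb_P_nonneg _).eq_or_lt.elim Eq.symm fun h' => ?_
  obtain ⟨m, hm, a⟩ := markb_P_pos h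
  obtain ⟨m', hm', a'⟩ := markb_P_pos h'
  have e := markb_uniq h1 h3 a a' (by omega) (by omega)
  have hd : (L : ℤ) ∣ j := by
    rw [show (j : ℤ) = m - m' by omega]
    exact dvd_sub hm hm'
  have := Int.le_of_dvd (by omega) hd
  omega

include h1 h3 in
theorem markb_owner : ∃ o : ℤ → ℤ, (∀ q, markb_A Γ f (o q) q ≤ 0) ∧
    (∀ q n, o q < n → 0 < markb_A Γ f n q) ∧ (∀ q, q - Γ ≤ o q) ∧ (∀ q, o q ≤ q) ∧
    Monotone o ∧ ∀ q, 0 < f (o q) := by
  have hb : ∀ q n : ℤ, markb_A Γ f n q ≤ 0 → n ≤ q := fun q n hn => by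
    have : (n : ℝ) ≤ q := sub_nonpos.1 ((markb_le_A h1 n q).trans hn)
    exact_mod_cast this
  have hc : ∀ q : ℤ, markb_A Γ f (q - Γ) q ≤ 0 := fun q => by
    have := markb_A_le (Γ := Γ) h1 (q - Γ) q
    push_cast at this
    linarith
  choose o ha hd using fun q : ℤ => Int.exists_greatest_of_bdd
    (P := fun n => markb_A Γ f n q ≤ 0) ⟨q, hb q⟩ ⟨_, hc q⟩
  have he : ∀ q n, o q < n → 0 < markb_A Γ f n q := fun q n hn =>
    lt_of_not_ge fun h => absurd (hd q n h) (not_le.2 hn)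
  refine ⟨o, ha, he, fun q => hd q _ (hc q), fun q => hb q _ (ha q), fun q q' hq => hd q' _ ?_,
    fun q => ?_⟩
  · have : (q : ℝ) ≤ q' := by exact_mod_cast hq
    have h2 := ha q
    rw [markb_A_time _ q' q]
    linarith
  · obtain ⟨m, a, b, c⟩ := h3 (o q)
    have h4 := he q m a
    have h5 := ha q
    have b' : (m : ℝ) ≤ o q + Γ := by exact_mod_cast b
    simp only [markb_A, c] at h4 h5
    refine (h1 _).1.eq_or_lt.elim (fun h6 => ?_) id
    rw [← h6] at h5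
    linarith

include h1 h3 in
theorem markb_full (hL : 0 < L) {n p : ℤ} (ha : markb_A Γ f n (p - L - 1) ≤ 0)
    (hb : ∀ n', n < n' → 0 < markb_A Γ f n' (p + L + 1)) (hc : n ≤ p - L - 1)
    (hd : p + L + 1 - Γ ≤ n) : ∃ i < L, markb_P Γ L f (p - (i : ℕ)) = 1 := by
  have hL' : (L : ℤ) ≠ 0 := by omega
  have e1 := Int.emod_nonneg (p - n) hL'
  have e2 := Int.emod_lt_of_pos (p - n) (show (0 : ℤ) < L by omega)
  obtain ⟨i, hi⟩ := Int.eq_ofNat_of_zero_le e1
  have e3 : (L : ℤ) ∣ n - (p - i) := by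
    have := Int.emod_add_mul_ediv (p - n) L
    rw [hi] at this
    exact ⟨-((p - n) / L), by linarith⟩
  rw [hi] at e2
  refine ⟨i, by omega, le_antisymm (markb_P_le h1 h3 _) ?_⟩
  have hm : n - (p - i) ∈ (Finset.Icc (-(Γ : ℤ)) 0).filter ((L : ℤ) ∣ ·) :=
    Finset.mem_filter.2 ⟨Finset.mem_Icc.2 ⟨by omega, by omega⟩, e3⟩
  refine le_trans ?_ (Finset.single_le_sum (fun m _ => markb_V_nonneg (m + (p - i)) (p - i)) hm)
  rw [sub_add_cancel]
  have hi1 : (i : ℝ) ≤ L := by exact_mod_cast (show i ≤ L by omega)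
  have hi0 : (0 : ℝ) ≤ i := Nat.cast_nonneg _
  refine le_max_of_le_right (le_min le_rfl (le_min ?_ (le_sub_iff_add_le.2 (markb_le_B ?_))))
  · rw [markb_A_time n _ (p - L - 1)]
    push_cast
    linarith
  · intro n' hn'
    have := hb n' hn'
    rw [markb_A_time n' _ (p + L + 1)]
    push_cast
    linarith

theorem markb_tele (w : ℕ → ℤ) (D N : ℕ) :
    ∑ p ∈ Finset.range N, (w (D + p) - w p) = ∑ i ∈ Finset.range D, (w (N + i) - w i) := by
  have a := Finset.sum_range_add w N D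
  have b := Finset.sum_range_add w D N
  rw [add_comm D N] at b
  rw [Finset.sum_sub_distrib, Finset.sum_sub_distrib]
  linarith

include h1 h3 in
theorem markb_count (hL : 0 < L) {L₀ : ℕ}
    (h2 : ∀ a b : ℤ, 0 < f a → 0 < f b → |a - b| < L₀ → a = b) (N : ℕ) :
    L₀ * cnt (fun p : Fin N => ¬∃ i < L, markb_P Γ L f (((p : ℕ) : ℤ) - (i : ℕ)) = 1) ≤
      (2 * L + 2) * (N + Γ) := by
  classical
  obtain ⟨o, a, b, c, d, e, g⟩ := markb_owner h1 h3
  set w : ℕ → ℤ := fun p => o (p - L - 1) with hw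
  have k1 : ∀ p : ℕ, w (2 * L + 2 + p) = o (p + L + 1) := fun p => by
    simp only [hw]
    congr 1
    push_cast
    ring
  have k2 : ∀ p : ℕ, (L₀ : ℤ) * (if ¬∃ i < L, markb_P Γ L f ((p : ℤ) - (i : ℕ)) = 1 then 1 else 0) ≤
      w (2 * L + 2 + p) - w p := fun p => by
    have m1 : o (p - L - 1) ≤ o (p + L + 1) := e (by omega)
    rw [k1]
    split_ifs with hp
    · rw [mul_zero]
      exact sub_nonneg.2 m1
    · rw [mul_one]
      by_contra hlt
      have m2 : o (p + L + 1) = o (p - L - 1) :=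
        h2 _ _ (g _) (g _) (by rw [abs_of_nonneg (sub_nonneg.2 m1)]; exact not_le.1 hlt)
      exact hp (markb_full h1 h3 hL (a _) (fun n' hn' => b _ n' (m2 ▸ hn')) (d _) (m2 ▸ c _))
  have k3 : ∀ i : ℕ, w (N + i) - w i ≤ N + Γ := fun i => by
    have m1 := d (((N + i : ℕ) : ℤ) - L - 1)
    have m2 := c ((i : ℤ) - L - 1)
    simp only [hw]
    push_cast at m1 ⊢
    linarith
  have k4 := Finset.sum_le_sum fun p (_ : p ∈ Finset.range N) => k2 p
  rw [markb_tele w] at k4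
  have k5 := Finset.sum_le_sum fun i (_ : i ∈ Finset.range (2 * L + 2)) => k3 i
  rw [Finset.sum_const, Finset.card_range, nsmul_eq_mul] at k5
  rw [cnt_eq_sum, Fin.sum_univ_eq_sum_range
    (fun p : ℕ => if ¬∃ i < L, markb_P Γ L f ((p : ℤ) - (i : ℕ)) = 1 then 1 else 0) N]
  rw [← Finset.mul_sum] at k4
  have k6 := k4.trans k5
  exact_mod_cast k6

end Seq

/-- Take `φ`, `Γ` from `exists_bump` with `L₀` large. Activation times
`a x n = n + Γ * (1 - φ ((h ^ n) x))`, so `a ((h ^ j) x) n = a x (n + j) - j`, `n ≤ a x n`.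
`b x n` is the minimum of `a x n'` over `n < n' ≤ n + Γ` (`Finset.inf'`); `b x n ≤ n + Γ`, hence
`b x n ≤ a x n'` for ALL `n' > n`. Put `u x n = max 0 (min 1 (min (-a x n) (b x n - L)))` and
`ψ x = ∑ n ∈ (Finset.Icc (-Γ) 0).filter (L ∣ n), u x n`. If `0 < u x n`, `0 < u ((h ^ j) x) n'`,
`0 ≤ j < L`, then `n = n' + j` (else `b x n ≤ a x (n' + j) < j < L` or
`b x (n' + j) ≤ a x n < 0`), so at most one term is positive, and `L ∣ j`.
Count: for an integer `q` let `o q` be the largest `n` with `a x n ≤ q`; `q - Γ ≤ o q ≤ q`, `o` is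
monotone, `0 < φ ((h ^ o q) x)` (there is `o q < n' ≤ o q + Γ` with `a x n' = n' > q`). If
`o (p - L - 1) = o (p + L + 1) = n` then the `j ∈ (p - L, p]` with `L ∣ n - j` has
`ψ ((h ^ j) x) = 1`. Otherwise `L₀ ≤ o (p + L + 1) - o (p - L - 1)`; the sum over `p < N`
telescopes and is at most `(2 * L + 2) * (N + 2 * L + 2 + Γ)`. -/
theorem exists_marker (hm : IsMinimal h) {L : ℕ} (hL : 0 < L) {δ : ℝ} (hδ : 0 < δ) :
    ∃ ψ : C(X, ℝ), Mk h L ψ ∧ ∃ N₀ : ℕ, ∀ N, N₀ ≤ N → ∀ x,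
      (cnt (fun p : Fin N => ¬Cvd h L ψ ((h ^ (p : ℕ)) x)) : ℝ) ≤ δ * N := by
  obtain ⟨L₀, hL₀⟩ := exists_nat_ge (2 * (2 * L + 2) / δ : ℝ)
  obtain ⟨φ, Γ, h1, h2, h3⟩ := exists_bump hm L₀
  have hc : ∀ n t : ℤ, Continuous fun x : X => markb_A Γ (fun n => φ ((h ^ n) x)) n t :=
    fun n t => continuous_const.add (continuous_const.mul
      (continuous_const.sub (φ.continuous.comp (h ^ n).continuous)))
  have hψ : Continuous fun x : X => markb_P Γ L (fun n => φ ((h ^ n) x)) 0 :=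
    continuous_finsetSum _ fun m _ => continuous_const.max (continuous_const.min
      ((hc _ _).neg.min ((Continuous.finset_inf'_apply _ fun i _ => hc _ _).sub continuous_const)))
  have hs : ∀ (x : X) (t : ℤ), markb_P Γ L (fun n => φ ((h ^ n) ((h ^ t) x))) 0 =
      markb_P Γ L (fun n => φ ((h ^ n) x)) t := fun x t => by
    simp only [← zpw_add]
    exact markb_shift (f := fun n => φ ((h ^ n) x)) t
  refine ⟨⟨_, hψ⟩, ⟨fun x => ⟨markb_P_nonneg _, markb_P_le (fun _ => h1 _) (h3 x) _⟩,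
    fun x j h0 hj hx => ?_⟩, Γ, fun N hN x => ?_⟩
  · change markb_P Γ L (fun n => φ ((h ^ n) ((h ^ j) x))) 0 = 0
    rw [pw_cast, hs]
    exact markb_sep (fun _ => h1 _) (h3 x) h0 hj hx
  · have k1 := markb_count (fun _ => h1 _) (h3 x) hL (h2 x) N
    have k2 : cnt (fun p : Fin N => ¬Cvd h L ⟨_, hψ⟩ ((h ^ (p : ℕ)) x)) = cnt (fun p : Fin N =>
        ¬∃ i < L, markb_P Γ L (fun n => φ ((h ^ n) x)) (((p : ℕ) : ℤ) - (i : ℕ)) = 1) := by
      refine cnt_congr fun p => not_congr (exists_congr fun i => and_congr_right fun _ => ?_)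
      change markb_P Γ L (fun n => φ ((h ^ n) ((h⁻¹ ^ i) ((h ^ (p : ℕ)) x)))) 0 = 1 ↔ _
      rw [inv_pw, pw_cast h p, ← zpw_add, hs, neg_add_eq_sub]
    rw [← k2] at k1
    generalize cnt (fun p : Fin N => ¬Cvd h L ⟨_, hψ⟩ ((h ^ (p : ℕ)) x)) = c at k1 ⊢
    have k3 : (L₀ : ℝ) * c ≤ (2 * L + 2) * (N + Γ) := by exact_mod_cast k1
    have k4 : (Γ : ℝ) ≤ N := by exact_mod_cast hN
    have k5 : (0 : ℝ) < 2 * L + 2 := by positivity
    have k6 : (0 : ℝ) ≤ c := Nat.cast_nonneg _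
    rw [div_le_iff₀ hδ] at hL₀
    have k7 : 2 * (2 * L + 2) * (c : ℝ) ≤ 2 * (2 * L + 2) * (δ * N) := by
      calc 2 * (2 * L + 2) * (c : ℝ) ≤ L₀ * δ * c := mul_le_mul_of_nonneg_right hL₀ k6
        _ = δ * (L₀ * c) := by ring
        _ ≤ δ * ((2 * L + 2) * (N + N)) := mul_le_mul_of_nonneg_left
          (k3.trans (mul_le_mul_of_nonneg_left (by linarith) k5.le)) hδ.le
        _ = 2 * (2 * L + 2) * (δ * N) := by ring
    exact le_of_mul_le_mul_left k7 (by positivity)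

end Vale.Agent.P093
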