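import Vale.Agent.P093.Sph
import Vale.Agent.P093.Code

/-! The matrices of a cell and the matrix valued function. -/

open Filter Topology Set
open scoped ENNReal NNReal Matrix

noncomputable section

namespace Vale.Agent.P093

section Aux

variable {n : Type} [Fintype n] [DecidableEq n]

/-- The function with the values `u`, `v` of a projection. -/
def qm_mk (P : Matrix n n ℂ) (u v : ℝ) : Matrix n n ℂ :=
  (u : ℂ) • (1 : Matrix n n ℂ) + ((v - u : ℝ) : ℂ) • P

theorem qm_mk_sq {P : Matrix n n ℂ} (hP : P * P = P) (hH : Pᴴ = P) (u v : ℝ) :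
    (qm_mk P u v)ᴴ * qm_mk P u v = qm_mk P (u ^ 2) (v ^ 2) := by
  have h1 : (qm_mk P u v)ᴴ = qm_mk P u v := by
    simp only [qm_mk, Matrix.conjTranspose_add, Matrix.conjTranspose_smul,
      Matrix.conjTranspose_one, hH, Complex.star_def, Complex.conj_ofReal]
  rw [h1]
  simp only [qm_mk, Matrix.add_mul, Matrix.mul_add, Matrix.smul_mul, Matrix.mul_smul,
    Matrix.one_mul, Matrix.mul_one, hP]
  push_cast
  module

omit [Fintype n] in
theorem qm_one_sub (P : Matrix n n ℂ) (u v : ℝ) :
    1 - qm_mk P u v = qm_mk P (1 - u) (1 - v) := by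
  simp only [qm_mk]
  push_cast
  module

theorem qm_trace (P : Matrix n n ℂ) (u v : ℝ) :
    (qm_mk P u v).trace.re = u * Fintype.card n + (v - u) * P.trace.re := by
  simp only [qm_mk, Matrix.trace_add, Matrix.trace_smul, Matrix.trace_one, smul_eq_mul,
    Complex.add_re, Complex.re_ofReal_mul, Complex.natCast_re]

omit [Fintype n] [DecidableEq n] in
theorem qm_cont {X : Type} [TopologicalSpace X] {l : X → ℝ} (hl : Continuous l)
    {G : X → Matrix n n ℂ} (hG : ContinuousOn G {x | |l x| < 1}) {γ : X → ℝ} (hγ : Continuous γ)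
    (h0 : ∀ x, 1 / 2 ≤ |l x| → γ x = 0) :
    Continuous fun x => (γ x : ℂ) • (if |l x| < 1 then G x else 0) := by
  have ha : Continuous fun x => |l x| := hl.abs
  refine continuous_iff_continuousAt.2 fun x => ?_
  by_cases hx : |l x| < 1
  · have ho : IsOpen {x | |l x| < 1} := isOpen_lt ha continuous_const
    have hn : {x | |l x| < 1} ∈ 𝓝 x := ho.mem_nhds hx
    have h1 : ContinuousAt (fun x => (γ x : ℂ) • G x) x :=
      (Complex.continuous_ofReal.comp hγ).continuousAt.smul (hG.continuousAt hn)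
    refine h1.congr ?_
    filter_upwards [hn] with y hy
    rw [if_pos hy]
  · have ho : IsOpen {x | 1 / 2 < |l x|} := isOpen_lt continuous_const ha
    have hn : {x | 1 / 2 < |l x|} ∈ 𝓝 x := ho.mem_nhds (by
      show 1 / 2 < |l x|
      linarith [not_lt.1 hx])
    refine (continuousAt_const (y := (0 : Matrix n n ℂ))).congr ?_
    filter_upwards [hn] with y hy
    rw [h0 y (le_of_lt hy), Complex.ofReal_zero, zero_smul]

omit [Fintype n] in
theorem qm_cont_mk {X : Type} [TopologicalSpace X] {l : X → ℝ} (hl : Continuous l)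
    {G : X → Matrix n n ℂ} (hG : ContinuousOn G {x | |l x| < 1}) {u v : X → ℝ}
    (hu : Continuous u) (hv : Continuous v) (h0 : ∀ x, 1 / 2 ≤ |l x| → v x = u x) :
    Continuous fun x => qm_mk (if |l x| < 1 then G x else 0) (u x) (v x) := by
  unfold qm_mk
  refine ((Complex.continuous_ofReal.comp hu).smul continuous_const).add ?_
  exact qm_cont hl hG (hv.sub hu) fun x hx => sub_eq_zero.2 (h0 x hx)

end Aux

/-- Let `dec` be given by `exists_dec`, `χ y = max 0 (1 - 2 * |lam (dec y)|)`,
`P y = if |lam (dec y)| < 1 then PM (ee (dec y)) else 0` (a projection). If `γ` is continuous and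
vanishes where `χ = 0` then `γ • P` is continuous. For real `u`, `v` let
`mk u v = u • 1 + (v - u) • P`; `(mk u v)ᴴ * mk u v = mk (u ^ 2) (v ^ 2)`.
`Q = mk (a * (1 - χ)) a`, `C = mk √(a * (1 - χ)) √a`, `C' = mk √(1 - a * (1 - χ)) √(1 - a)`.
The trace is `2 * k * a * (1 - χ) + a * χ * trace P`. -/
theorem exists_qm {k K e : ℕ} {lam : Vk k → ℝ} {ee : Vk k → Fin k → ℝ × ℂ}
    {inv : ℝ × (Fin k → ℝ × ℂ) → Vk k} (hT : Tube lam ee inv) {φ : Vk k →ₗ[ℝ] Fin K → ℝ}
    (hφ : Cd φ (2 * e)) : ∃ Q C C', Qm inv φ e Q C C' := by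
  obtain ⟨dec, hd, -, hdec⟩ := exists_dec hφ
  set l : ℝ × (Fin K → ℝ) → ℝ := fun x => lam (dec x.2) with hl
  set G : ℝ × (Fin K → ℝ) → Matrix (Fin k × Fin 2) (Fin k × Fin 2) ℂ :=
    fun x => PM (ee (dec x.2)) with hG
  set χ : ℝ × (Fin K → ℝ) → ℝ := fun x => max 0 (1 - 2 * |l x|) with hχ
  have hlc : Continuous l := hT.cl.comp (hd.comp continuous_snd)
  have hGc : ContinuousOn G {x | |l x| < 1} :=
    continuous_PM.comp_continuousOn
      (hT.ce.comp (hd.comp continuous_snd).continuousOn fun x hx => hx)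
  have hχc : Continuous χ :=
    continuous_const.max (continuous_const.sub (continuous_const.mul hlc.abs))
  have hχ0 : ∀ x, 1 / 2 ≤ |l x| → χ x = 0 := fun x hx => max_eq_left (by linarith)
  have hχn : ∀ x, 0 ≤ χ x := fun x => le_max_left _ _
  have hχ1 : ∀ x, χ x ≤ 1 := fun x => max_le zero_le_one (by linarith [abs_nonneg (l x)])
  have hPP : ∀ x, (if |l x| < 1 then G x else 0) * (if |l x| < 1 then G x else 0) =
      (if |l x| < 1 then G x else 0) := by
    intro x
    split_ifs with hx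
    · exact PM_idem (hT.mem _ hx)
    · exact Matrix.mul_zero _
  have hPH : ∀ x, (if |l x| < 1 then G x else 0)ᴴ = (if |l x| < 1 then G x else 0) := by
    intro x
    split_ifs with hx
    · exact PM_herm _
    · exact Matrix.conjTranspose_zero
  have hu : Continuous fun x : ℝ × (Fin K → ℝ) => x.1 * (1 - χ x) :=
    continuous_fst.mul (continuous_const.sub hχc)
  refine ⟨fun x => qm_mk (if |l x| < 1 then G x else 0) (x.1 * (1 - χ x)) x.1,
    fun x => qm_mk (if |l x| < 1 then G x else 0) √(x.1 * (1 - χ x)) √x.1,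
    fun x => qm_mk (if |l x| < 1 then G x else 0) √(1 - x.1 * (1 - χ x)) √(1 - x.1),
    ?_, ?_, ?_, ?_, ?_, ?_, ?_, ?_⟩
  · refine qm_cont_mk hlc hGc hu continuous_fst fun x hx => ?_
    rw [hχ0 x hx, sub_zero, mul_one]
  · refine qm_cont_mk hlc hGc hu.sqrt continuous_fst.sqrt fun x hx => ?_
    rw [hχ0 x hx, sub_zero, mul_one]
  · refine qm_cont_mk hlc hGc (continuous_const.sub hu).sqrt
      (continuous_const.sub continuous_fst).sqrt fun x hx => ?_
    rw [hχ0 x hx, sub_zero, mul_one]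
  · intro a ha y
    have h1 : 0 ≤ a * (1 - χ (a, y)) := mul_nonneg ha.1 (sub_nonneg.2 (hχ1 _))
    simp only
    rw [qm_mk_sq (hPP _) (hPH _), Real.sq_sqrt h1, Real.sq_sqrt ha.1]
  · intro a ha y
    have h1 : 0 ≤ 1 - a * (1 - χ (a, y)) := by
      nlinarith [ha.1, ha.2, hχn (a, y), hχ1 (a, y)]
    simp only
    rw [qm_mk_sq (hPP _) (hPH _), Real.sq_sqrt h1, Real.sq_sqrt (sub_nonneg.2 ha.2), qm_one_sub]
  · intro y
    simp [qm_mk]
  · intro a ha y
    simp only
    rw [qm_trace, Fintype.card_prod, Fintype.card_fin, Fintype.card_fin]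
    have hk : (0 : ℝ) ≤ a * k := mul_nonneg ha.1 (Nat.cast_nonneg k)
    split_ifs with hx
    · have ht : (G (a, y)).trace.re = k := by
        simp only [hG, PM_trace, Fintype.card_fin, Complex.natCast_re]
      rw [ht]
      push_cast
      nlinarith [mul_nonneg hk (sub_nonneg.2 (hχ1 (a, y)))]
    · rw [hχ0 _ (by linarith [not_lt.1 hx])]
      simp only [Matrix.trace_zero, Complex.zero_re]
      push_cast
      nlinarith
  · intro y ε hε hc
    have h01 : ‖(0 : ℝ)‖ < 1 := by simp
    have hy : dec y = inv (0, ε) := hdec y _ ((hT.bd 0 ε h01 hε).trans (by norm_num)) hc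
    obtain ⟨h1, h2⟩ := hT.right 0 ε h01 hε
    have hl0 : l (1, y) = 0 := by simp only [hl, hy, h1]
    have hG0 : G (1, y) = PM ε := by simp only [hG, hy, h2]
    have hχ0 : χ (1, y) = 1 := by simp [hχ, hl0]
    simp [qm_mk, hl0, hG0, hχ0]

variable {κ : Type} [Fintype κ] [DecidableEq κ]

omit [Fintype κ] [DecidableEq κ] in
theorem continuous_BB {X : Type} [TopologicalSpace X] {Q : X → Matrix κ κ ℂ} {θ : X → ℝ}
    (hQ : Continuous Q) (hθ : Continuous θ) : Continuous fun x => BB (Q x) (θ x) := by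
  refine continuous_matrix fun i j => ?_
  rcases i with _ | i <;> rcases j with _ | j
  · exact Complex.continuous_ofReal.comp hθ
  · exact continuous_const
  · exact continuous_const
  · exact hQ.matrix_elem i j

omit [DecidableEq κ] in
theorem BB_sq (C : Matrix κ κ ℂ) (t : ℝ) : (BB C t)ᴴ * BB C t = BB (Cᴴ * C) (t ^ 2) := by
  ext i j
  rcases i with _ | i <;> rcases j with _ | j <;>
    simp [Matrix.mul_apply, Fintype.sum_option, BB, Matrix.conjTranspose_apply, sq]

omit [Fintype κ] in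
theorem BB_one_sub (Q : Matrix κ κ ℂ) (t : ℝ) : 1 - BB Q t = BB (1 - Q) (1 - t) := by
  ext i j
  rcases i with _ | i <;> rcases j with _ | j <;> simp [BB, Matrix.one_apply]

omit [DecidableEq κ] in
theorem BB_trace (Q : Matrix κ κ ℂ) (t : ℝ) : (BB Q t).trace.re = Q.trace.re + t := by
  simp [Matrix.trace, Fintype.sum_option, BB, add_comm]

end Vale.Agent.P093
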