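import Vale.Agent.P093.Base

/-! Parametrized sets. -/

open Filter Topology Set
open scoped ENNReal NNReal Matrix

noncomputable section

namespace Vale.Agent.P093

variable {E Z C F : Type} [NormedAddCommGroup E] [NormedSpace ℝ E] [NormedAddCommGroup Z]
  [NormedSpace ℝ Z] [NormedAddCommGroup C] [NormedSpace ℝ C] [NormedAddCommGroup F]
  [NormedSpace ℝ F] [FiniteDimensional ℝ F] {D D' : ℕ}

theorem par_surj (hF : Module.finrank ℝ F ≤ D) :
    ∃ π : (Fin D → ℝ) →L[ℝ] F, Function.Surjective π := by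
  obtain ⟨j, hj⟩ := (finrank_le_iff_exists_linearMap (R := ℝ) (M := F) (M' := Fin D → ℝ)).1
    (by simpa using hF)
  obtain ⟨g, hg⟩ := j.exists_leftInverse_of_injective (LinearMap.ker_eq_bot.2 hj)
  exact ⟨g.toContinuousLinearMap, fun y => ⟨j y, congrArg (fun A : F →ₗ[ℝ] F => A y) hg⟩⟩

/-- There is a surjective (continuous) linear map `(Fin D → ℝ) → F`. -/
theorem Par.of (hF : Module.finrank ℝ F ≤ D) {S : Set F} {f : F → E}
    (hf : ∀ x ∈ S, ContDiffAt ℝ 1 f x) : Par D (f '' S) := by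
  obtain ⟨π, hπ⟩ := par_surj hF
  refine ⟨Unit, inferInstance, fun _ => π ⁻¹' S, fun _ => f ∘ π,
    fun _ x hx => (hf _ hx).comp x π.contDiff.contDiffAt, ?_⟩
  rintro _ ⟨y, hy, rfl⟩
  obtain ⟨x, rfl⟩ := hπ y
  exact ⟨(), x, hy, rfl⟩

theorem Par.mono {B B' : Set E} (h : Par D B) (hB : B' ⊆ B) : Par D B' := by
  obtain ⟨ι, _, S, f, h1, h2⟩ := h
  exact ⟨ι, ‹_›, S, f, h1, fun b hb => h2 b (hB hb)⟩

theorem Par.iUnion {ι : Type} [Countable ι] {B : ι → Set E} (h : ∀ i, Par D (B i)) :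
    Par D (⋃ i, B i) := by
  choose κ _ S f h1 h2 using h
  refine ⟨Σ i, κ i, inferInstance, fun p => S p.1 p.2, fun p => f p.1 p.2, fun p => h1 p.1 p.2,
    fun b hb => ?_⟩
  obtain ⟨i, hi⟩ := mem_iUnion.1 hb
  obtain ⟨k, hk⟩ := h2 i b hi
  exact ⟨⟨i, k⟩, hk⟩

theorem Par.le {B : Set E} (h : Par D B) (hD : D ≤ D') : Par D' B := by
  obtain ⟨ι, _, S, f, h1, h2⟩ := h
  refine (Par.iUnion fun i => Par.of (by simpa using hD) (h1 i)).mono fun b hb => ?_
  exact mem_iUnion.2 (h2 b hb)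

/-- `dimH_image_le_of_locally_lipschitzOn` (`ContDiffAt.exists_lipschitzOnWith`), `dimH_iUnion`,
`Real.dimH_univ_pi_fin`, `dense_compl_of_dimH_lt_finrank`. -/
theorem Par.dense [FiniteDimensional ℝ E] {B : Set E} (h : Par D B) (hD : D < Module.finrank ℝ E) :
    Dense Bᶜ := by
  obtain ⟨ι, _, S, f, h1, h2⟩ := h
  refine dense_compl_of_dimH_lt_finrank (lt_of_le_of_lt (b := (D : ℝ≥0∞)) ?_ (by exact_mod_cast hD))
  refine (dimH_mono (t := ⋃ i, f i '' S i) fun b hb => mem_iUnion.2 (h2 b hb)).trans ?_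
  rw [dimH_iUnion]
  refine iSup_le fun i => (dimH_image_le_of_locally_lipschitzOn fun x hx => ?_).trans
    ((dimH_mono (subset_univ _)).trans (Real.dimH_univ_pi_fin D).le)
  obtain ⟨K, t, ht, h⟩ := (h1 i x hx).exists_lipschitzOnWith
  exact ⟨K, t, mem_nhdsWithin_of_mem_nhds ht, h⟩

/-- Countable unions of sets of small dimension. -/
theorem Par.dense_iUnion [FiniteDimensional ℝ E] {ι : Type} [Countable ι] {B : ι → Set E}
    (h : ∀ i, ∃ D < Module.finrank ℝ E, Par D (B i)) : Dense (⋃ i, B i)ᶜ := by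
  rcases isEmpty_or_nonempty ι with _ | ⟨⟨i⟩⟩
  · simp
  · obtain ⟨d, hd, -⟩ := h i
    refine (Par.iUnion (D := Module.finrank ℝ E - 1) fun j => ?_).dense (by omega)
    obtain ⟨e, he, h'⟩ := h j
    exact h'.le (by omega)

theorem RPar.of (hF : Module.finrank ℝ F ≤ D) {S : Set (Z × F)} {f : Z × F → C}
    (hf : ∀ x ∈ S, ContDiffAt ℝ 1 f x) :
    RPar D {b : Z × C | ∃ u, (b.1, u) ∈ S ∧ f (b.1, u) = b.2} := by
  obtain ⟨π, hπ⟩ := par_surj hF
  refine ⟨Unit, inferInstance, fun _ => {x | (x.1, π x.2) ∈ S}, fun _ x => f (x.1, π x.2),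
    fun _ x hx => (hf _ hx).comp x (by fun_prop), ?_⟩
  rintro b ⟨y, hy, h⟩
  obtain ⟨x, rfl⟩ := hπ y
  exact ⟨(), x, hy, h⟩

theorem RPar.mono {B B' : Set (Z × C)} (h : RPar D B) (hB : B' ⊆ B) : RPar D B' := by
  obtain ⟨ι, _, S, f, h1, h2⟩ := h
  exact ⟨ι, ‹_›, S, f, h1, fun b hb => h2 b (hB hb)⟩

theorem RPar.iUnion {ι : Type} [Countable ι] {B : ι → Set (Z × C)} (h : ∀ i, RPar D (B i)) :
    RPar D (⋃ i, B i) := by
  choose κ _ S f h1 h2 using h
  refine ⟨Σ i, κ i, inferInstance, fun p => S p.1 p.2, fun p => f p.1 p.2, fun p => h1 p.1 p.2,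
    fun b hb => ?_⟩
  obtain ⟨i, hi⟩ := mem_iUnion.1 hb
  obtain ⟨k, hk⟩ := h2 i b hi
  exact ⟨⟨i, k⟩, hk⟩

theorem RPar.union {B B' : Set (Z × C)} (h : RPar D B) (h' : RPar D B') : RPar D (B ∪ B') := by
  rw [union_eq_iUnion]
  refine RPar.iUnion fun b => ?_
  cases b
  exacts [h', h]

theorem RPar.le {B : Set (Z × C)} (h : RPar D B) (hD : D ≤ D') : RPar D' B := by
  obtain ⟨ι, _, S, f, h1, h2⟩ := h
  refine (RPar.iUnion fun i => RPar.of (by simpa using hD) (h1 i)).mono fun b hb => ?_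
  exact mem_iUnion.2 (h2 b hb)

/-- Move a part of the base to the fibre: parameter space `(Fin D → ℝ) × (Fin D' → ℝ)`. -/
theorem RPar.fib {A : Set E} (hA : Par D A) {B : Set ((Z × E) × C)} (hB : RPar D' B) :
    RPar (D + D') {p : Z × (E × C) | p.2.1 ∈ A ∧ ((p.1, p.2.1), p.2.2) ∈ B} := by
  obtain ⟨ι, _, S, g, h1, h2⟩ := hA
  obtain ⟨κ, _, S', f, h3, h4⟩ := hB
  refine (RPar.iUnion fun p : ι × κ => RPar.of (F := (Fin D → ℝ) × (Fin D' → ℝ)) (by simp)
    (S := {x | x.2.1 ∈ S p.1 ∧ ((x.1, g p.1 x.2.1), x.2.2) ∈ S' p.2})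
    (f := fun x => (g p.1 x.2.1, f p.2 ((x.1, g p.1 x.2.1), x.2.2))) fun x hx => ?_).mono ?_
  · have c1 : ContDiffAt ℝ 1 (fun x : Z × (Fin D → ℝ) × (Fin D' → ℝ) => g p.1 x.2.1) x :=
      (h1 _ _ hx.1).comp x (by fun_prop)
    exact c1.prodMk ((h3 _ _ hx.2).comp x ((contDiffAt_fst.prodMk c1).prodMk (by fun_prop)))
  · rintro ⟨z, a, c⟩ ⟨ha, hb⟩
    obtain ⟨i, x, hx, rfl⟩ := h2 a ha
    obtain ⟨j, u, hu, h⟩ := h4 _ hb
    exact mem_iUnion.2 ⟨(i, j), (x, u), ⟨hx, hu⟩, Prod.ext rfl h⟩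

/-- One of the parameters is determined by the others: parameter space
`({i // i ≠ t} → C) × F`. -/
theorem RPar.update [FiniteDimensional ℝ C] {ι : Type} [Fintype ι] [DecidableEq ι] (t : ι)
    {S : Set ((Z × (ι → C)) × F)} {f : (Z × (ι → C)) × F → C} (hf : ∀ x ∈ S, ContDiffAt ℝ 1 f x)
    (hD : Module.finrank ℝ (ι → C) + Module.finrank ℝ F ≤ D + Module.finrank ℝ C) :
    RPar D {b : Z × (ι → C) | ∃ u, ((b.1, Function.update b.2 t 0), u) ∈ S ∧
      f ((b.1, Function.update b.2 t 0), u) = b.2 t} := by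
  let e : ({i // i ≠ t} → C) → ι → C := fun v i => if h : i = t then 0 else v ⟨i, h⟩
  have he : ContDiff ℝ 1 e := contDiff_pi.2 fun i => by
    simp only [e]
    split_ifs <;> fun_prop
  refine (RPar.of (F := ({i // i ≠ t} → C) × F) ?_ (S := {x | ((x.1, e x.2.1), x.2.2) ∈ S})
    (f := fun x => Function.update (e x.2.1) t (f ((x.1, e x.2.1), x.2.2)))
    fun x hx => contDiffAt_pi.2 fun i => ?_).mono ?_
  · have h1 : Fintype.card {i // i ≠ t} + 1 = Fintype.card ι := by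
      have := Fintype.card_pos_iff.2 ⟨t⟩
      simp only [Fintype.card_subtype_compl, Fintype.card_unique]
      omega
    simp only [Module.finrank_prod, Module.finrank_pi_fintype, Finset.sum_const, Finset.card_univ,
      smul_eq_mul] at hD ⊢
    rw [← h1, add_mul] at hD
    omega
  · by_cases h : i = t
    · simp only [h, Function.update_self]
      exact (hf _ hx).comp x (ContDiff.contDiffAt (by fun_prop))
    · simp only [Function.update_of_ne h]
      exact ContDiff.contDiffAt (by fun_prop)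
  · rintro ⟨z, c⟩ ⟨u, h1, h2⟩
    have h3 : e (fun i => c i) = Function.update c t 0 := by
      funext i
      simp only [e, Function.update_apply]
      split_ifs <;> rfl
    refine ⟨(fun i => c i, u), ?_, ?_⟩
    · simpa only [mem_ofPred_eq, h3] using h1
    · simp only [h3] at h2 ⊢
      rw [h2, Function.update_idem, Function.update_eq_self]

end Vale.Agent.P093
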