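import Vale.Agent.P093.Base

/-! Powers of a homeomorphism. -/

open Filter Topology Set
open scoped ENNReal NNReal Matrix

noncomputable section

namespace Vale.Agent.P093

variable {X : Type} [TopologicalSpace X] (h : X ≃ₜ X)

theorem pw_add (a b : ℕ) (x : X) : (h ^ (a + b)) x = (h ^ a) ((h ^ b) x) := by
  rw [pow_add]
  rfl

theorem zpw_add (a b : ℤ) (x : X) : (h ^ (a + b)) x = (h ^ a) ((h ^ b) x) := by
  rw [zpow_add]
  rfl

theorem pw_cast (a : ℕ) : h ^ a = h ^ (a : ℤ) := (zpow_natCast h a).symm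

theorem inv_pw (a : ℕ) : h⁻¹ ^ a = h ^ (-(a : ℤ)) := by
  rw [zpow_neg, zpow_natCast, inv_pow]

theorem zpw_zero (x : X) : (h ^ (0 : ℤ)) x = x := by
  rw [zpow_zero]
  rfl

theorem zpw_one (x : X) : (h ^ (1 : ℤ)) x = h x := by rw [zpow_one]

theorem In.anti {U : Finset (Set X)} {a N : ℕ} {s t : Set X} (hst : s ⊆ t) (ht : In h U a N t) :
    In h U a N s := fun j hj =>
  let ⟨u, hu, h1⟩ := ht j hj
  ⟨u, hu, fun x hx => h1 x (hst hx)⟩

/-- The separation property of markers for integer times. -/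
theorem Mk.zsep {h : X ≃ₜ X} {L : ℕ} {ψ : C(X, ℝ)} (hψ : Mk h L ψ) (x : X) {a b : ℤ}
    (ha : 0 < ψ ((h ^ a) x)) (hb : 0 < ψ ((h ^ b) x)) (hab : |a - b| < L) : a = b := by
  have key : ∀ a b : ℤ, 0 < ψ ((h ^ a) x) → 0 < ψ ((h ^ b) x) → a < b → b - a < L → False := by
    intro a b ha hb h1 h2
    obtain ⟨j, rfl⟩ : ∃ j : ℕ, b = j + a := ⟨(b - a).toNat, by omega⟩
    have h3 := hψ.sep _ j (by omega) (by omega) ha
    rw [pw_cast, ← zpw_add] at h3
    exact hb.ne' h3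
  rw [abs_lt] at hab
  rcases lt_trichotomy a b with h1 | h1 | h1
  · exact (key a b ha hb h1 (by omega)).elim
  · exact h1
  · exact (key b a hb ha h1 (by omega)).elim

end Vale.Agent.P093
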