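import Vale.Agent.P093.CancB
import Vale.Agent.P093.Hopf

/-! One superblock. -/

open Filter Topology Set
open scoped ENNReal NNReal Matrix

noncomputable section

namespace Vale.Agent.P093

/-- `canc`, `hopf` with `θ = 2 / σ'`, `RPar.fib` with `par_sph`, `par_south`. -/
theorem sb {V Λ I : Type} [NormedAddCommGroup V] [NormedSpace ℝ V] [NormedAddCommGroup Λ]
    [NormedSpace ℝ Λ] [Fintype I] [DecidableEq I] {lam : V → Λ} {ee : V → I → ℝ × ℂ}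
    {inv : Λ × (I → ℝ × ℂ) → V} (hT : Tube lam ee inv) (T : ℕ) {σ : ℝ} (hσ : 0 < σ) :
    ∃ δ > 0, ∃ D : ℕ, D + 1 = Module.finrank ℝ (CC I T) ∧
    ∀ (B : Type) [NormedAddCommGroup B] [NormedSpace ℝ B]
      (F : B × (I → ℝ × ℂ) → Fin (T + 1) → Ef I T), ContDiff ℝ 1 F →
      (∀ z t, Sph z.2 → PM z.2 *ᵥ xi (F z t) = xi (F z t)) →
      ∃ E1 E3 : Set (B × ((I → ℝ × ℂ) × CC I T)), RPar D E1 ∧ RPar (D + 1) E3 ∧
        ∀ c : CC I T, ‖c‖ ≤ δ → ∃ vs : B × V → V, Continuous vs ∧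
          (∀ z, ‖z.2‖ ≤ 3 → ‖vs z‖ ≤ 3) ∧ ∀ b v, vs (b, v) = v → ∃ e, Sph e ∧ v = inv (0, e) ∧
            ((b, (e, c)) ∈ E1 ∨ ((b, (e, c)) ∈ E3 ∧ ¬Ind σ (F (b, e)))) := by
  obtain ⟨δ, hδ, σ', hσ', D, hD, H⟩ := canc I T hσ
  refine ⟨δ, hδ, 2 * Fintype.card I + D, by omega, fun B _ _ F hF hr => ?_⟩
  obtain ⟨Dm, s, ho, hs, hrg, hlow, h1, h2, h3⟩ := H B F hF hr
  have hθ : 0 < 2 / σ' := by positivity
  have a1 := RPar.fib (par_sph (I := I)) h1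
  have a2 := RPar.fib (par_south (I := I)) h2
  have a3 := RPar.fib (par_sph (I := I)) (h3 (-(2 / σ')⁻¹))
  have a4 : RPar (2 * Fintype.card I + D) {p : B × ((I → ℝ × ℂ) × CC I T) |
      p.2.1 ∈ {e : I → ℝ × ℂ | Sph e ∧ ∃ i, (e i).1 = -1} ∧ ((p.1, p.2.1), p.2.2) ∈
        {w : (B × (I → ℝ × ℂ)) × CC I T | Sph w.1.2 ∧ w ∈ Dm ∧
          ∃ μ : ℝ, s w = (μ : ℂ) • s0 w.1.2}} := by
    rcases isEmpty_or_nonempty I with hI | hI
    · exact a1.mono fun p hp => hp.1.2.elim fun i _ => isEmptyElim i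
    · have := Fintype.card_pos (α := I)
      exact a2.le (by omega)
  refine ⟨_, _, a1.union a4, a3, fun c hc => ?_⟩
  have hk : Continuous fun z : B × (I → ℝ × ℂ) => (z, c) := continuous_id.prodMk continuous_const
  obtain ⟨vs, b1, b2, b3⟩ := hopf hT (Dm := {z | (z, c) ∈ Dm}) (ho.preimage hk)
    (s := fun z => s (z, c)) (hs.comp hk.continuousOn fun _ hz => hz)
    (fun z hz => hrg (z, c) hz) hθ
  refine ⟨vs, b1, b2, fun b v hv => ?_⟩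
  obtain ⟨e, he, hve, h4⟩ := b3 b v hv
  refine ⟨e, he, hve, ?_⟩
  rcases h4 with h4 | h4 | h4
  · exact Or.inl (Or.inl ⟨he, he, h4⟩)
  · exact Or.inl (Or.inr ⟨⟨he, h4.2.1⟩, he, h4.1, h4.2.2⟩)
  · refine Or.inr ⟨⟨he, he, h4.1, h4.2⟩, fun hI => ?_⟩
    have h5 := hlow ((b, e), c) h4.1 he hI hc
    have h6 : s ((b, e), c) = ((-(2 / σ')⁻¹ : ℝ) : ℂ) • s0 e := h4.2
    rw [h6, norm_smul, Complex.norm_real, norm_neg, inv_div,
      Real.norm_of_nonneg (by positivity)] at h5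
    have h7 := mul_le_mul_of_nonneg_left (norm_s0 he) (by positivity : 0 ≤ σ' / 2)
    linarith

end Vale.Agent.P093
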